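import Mathlib

/-!
# R98: finitely supported measures on the line (definitions and algebraic API)

`FM` is the convolution semiring of finitely supported nonnegative measures on `ℝ`.
-/

set_option autoImplicit false

open scoped NNReal
open Real MeasureTheory

namespace Crest.Agent.R98

/-- Finitely supported nonnegative measures; the product is convolution. -/
abbrev FM : Type := AddMonoidAlgebra ℝ≥0 ℝ

/-- Dirac mass. -/
noncomputable def dir (y : ℝ) : FM := AddMonoidAlgebra.single y 1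

/-- Integral of a function. -/
noncomputable def ex (ν : FM) (f : ℝ → ℝ) : ℝ := ν.coeff.sum fun y c => (c : ℝ) * f y

/-- Total mass. -/
noncomputable def tot (ν : FM) : ℝ := ex ν fun _ => 1

/-- Image under `y ↦ ρ y`. -/
noncomputable def sc (ρ : ℝ) : FM →ₐ[ℝ≥0] FM :=
  AddMonoidAlgebra.mapDomainAlgHom ℝ≥0 ℝ≥0 (AddMonoidHom.mulLeft ρ)

/-- The two-point measure `(δ₀ + δ_d) / 2`. -/
noncomputable def two (d : ℝ) : FM := (1 / 2 : ℝ≥0) • (1 + dir d)

/-- The mass of the window `(x - r, x]`. -/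
noncomputable def mass (ν : FM) (r x : ℝ) : ℝ :=
  ex ν fun y => if x - r < y ∧ y ≤ x then 1 else 0

/-- The support lies in `[-R, R]`. -/
def Bdd (ν : FM) (R : ℝ) : Prop := ∀ y ∈ ν.coeff.support, |y| ≤ R

/-- Shannon entropy. -/
noncomputable def ent (ν : FM) : ℝ := ν.coeff.sum fun _ c => negMulLog c

/-- Number of atoms. -/
noncomputable def natoms (ν : FM) : ℕ := ν.coeff.support.card

theorem FM.induction {P : FM → Prop} (ν : FM) (h0 : P 0) (hadd : ∀ a b, P a → P b → P (a + b))
    (hs : ∀ (y : ℝ) (c : ℝ≥0), P (c • dir y)) : P ν := by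
  induction ν using AddMonoidAlgebra.induction_linear with
  | zero => exact h0
  | add a b ha hb => exact hadd a b ha hb
  | single y c => simpa [dir] using hs y c

theorem ex_eq_sum (ν : FM) (f : ℝ → ℝ) :
    ex ν f = ∑ y ∈ ν.coeff.support, (ν.coeff y : ℝ) * f y := rfl

@[simp] theorem ex_zero (f : ℝ → ℝ) : ex 0 f = 0 := by simp [ex]

theorem ex_add (a b : FM) (f : ℝ → ℝ) : ex (a + b) f = ex a f + ex b f := by
  unfold ex
  rw [AddMonoidAlgebra.coeff_add, Finsupp.sum_add_index'] <;> simp [add_mul]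

theorem ex_smul (c : ℝ≥0) (a : FM) (f : ℝ → ℝ) : ex (c • a) f = c * ex a f := by
  unfold ex
  rw [AddMonoidAlgebra.coeff_smul, Finsupp.sum_smul_index' (by simp), Finsupp.mul_sum]
  simp [mul_assoc]

@[simp] theorem ex_dir (y : ℝ) (f : ℝ → ℝ) : ex (dir y) f = f y := by simp [ex, dir]

theorem dir_zero : dir 0 = 1 := rfl

@[simp] theorem ex_one (f : ℝ → ℝ) : ex 1 f = f 0 := ex_dir 0 f

theorem dir_mul (y z : ℝ) : dir y * dir z = dir (y + z) := by
  simp [dir, AddMonoidAlgebra.single_mul_single]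

theorem ex_sum {ι : Type*} (s : Finset ι) (a : ι → FM) (f : ℝ → ℝ) :
    ex (∑ i ∈ s, a i) f = ∑ i ∈ s, ex (a i) f := by
  classical
  induction s using Finset.induction_on with
  | empty => simp
  | insert i s hi ih => rw [Finset.sum_insert hi, Finset.sum_insert hi, ex_add, ih]

theorem ex_fun_add (ν : FM) (f g : ℝ → ℝ) : ex ν (fun y => f y + g y) = ex ν f + ex ν g := by
  simp [ex_eq_sum, mul_add, Finset.sum_add_distrib]

theorem ex_fun_sub (ν : FM) (f g : ℝ → ℝ) : ex ν (fun y => f y - g y) = ex ν f - ex ν g := by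
  simp [ex_eq_sum, mul_sub, Finset.sum_sub_distrib]

theorem ex_fun_mul (ν : FM) (c : ℝ) (f : ℝ → ℝ) : ex ν (fun y => c * f y) = c * ex ν f := by
  simp [ex_eq_sum, Finset.mul_sum, mul_left_comm]

theorem ex_fun_const (ν : FM) (c : ℝ) : ex ν (fun _ => c) = c * tot ν := by
  simpa [tot] using ex_fun_mul ν c fun _ => 1

theorem ex_fun_sum {ι : Type*} (ν : FM) (s : Finset ι) (f : ι → ℝ → ℝ) :
    ex ν (fun y => ∑ i ∈ s, f i y) = ∑ i ∈ s, ex ν (f i) := by
  simp only [ex_eq_sum, Finset.mul_sum]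
  exact Finset.sum_comm

theorem ex_mono {ν : FM} {f g : ℝ → ℝ} (h : ∀ y ∈ ν.coeff.support, f y ≤ g y) :
    ex ν f ≤ ex ν g :=
  Finset.sum_le_sum fun y hy => mul_le_mul_of_nonneg_left (h y hy) (NNReal.coe_nonneg _)

theorem ex_congr {ν : FM} {f g : ℝ → ℝ} (h : ∀ y ∈ ν.coeff.support, f y = g y) :
    ex ν f = ex ν g :=
  le_antisymm (ex_mono fun y hy => (h y hy).le) (ex_mono fun y hy => (h y hy).ge)

theorem ex_nonneg {ν : FM} {f : ℝ → ℝ} (h : ∀ y ∈ ν.coeff.support, 0 ≤ f y) : 0 ≤ ex ν f := by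
  simpa [ex_fun_const] using ex_mono (f := fun _ => 0) h

theorem ex_comm (a b : FM) (f : ℝ → ℝ → ℝ) :
    ex a (fun y => ex b fun z => f y z) = ex b fun z => ex a fun y => f y z := by
  simp only [ex_eq_sum, Finset.mul_sum]
  rw [Finset.sum_comm]
  simp [mul_left_comm]

theorem ex_dir_mul (y : ℝ) (b : FM) (f : ℝ → ℝ) : ex (dir y * b) f = ex b fun z => f (y + z) := by
  induction b using FM.induction with
  | h0 => simp
  | hadd a b ha hb => rw [mul_add, ex_add, ex_add, ha, hb]
  | hs z c => rw [mul_smul_comm, dir_mul, ex_smul, ex_smul, ex_dir, ex_dir]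

theorem ex_mul (a b : FM) (f : ℝ → ℝ) :
    ex (a * b) f = ex a fun y => ex b fun z => f (y + z) := by
  induction a using FM.induction with
  | h0 => simp
  | hadd a a' ha ha' => rw [add_mul, ex_add, ex_add, ha, ha']
  | hs y c => rw [smul_mul_assoc, ex_smul, ex_smul, ex_dir, ex_dir_mul]

@[simp] theorem sc_dir (ρ y : ℝ) : sc ρ (dir y) = dir (ρ * y) := by
  simp [sc, dir]

theorem ex_sc (ρ : ℝ) (a : FM) (f : ℝ → ℝ) : ex (sc ρ a) f = ex a fun y => f (ρ * y) := by
  induction a using FM.induction with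
  | h0 => simp
  | hadd a a' ha ha' => rw [map_add, ex_add, ex_add, ha, ha']
  | hs y c => rw [map_smul, sc_dir, ex_smul, ex_smul, ex_dir, ex_dir]

theorem sc_sc (ρ ρ' : ℝ) (a : FM) : sc ρ (sc ρ' a) = sc (ρ * ρ') a := by
  induction a using FM.induction with
  | h0 => simp
  | hadd a a' ha ha' => simp only [map_add, ha, ha']
  | hs y c => simp only [map_smul, sc_dir, mul_assoc]

@[simp] theorem sc_one (a : FM) : sc 1 a = a := by
  induction a using FM.induction with
  | h0 => simp
  | hadd a a' ha ha' => simp only [map_add, ha, ha']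
  | hs y c => simp only [map_smul, sc_dir, one_mul]

theorem sc_two (ρ d : ℝ) : sc ρ (two d) = two (ρ * d) := by
  simp only [two, map_smul, map_add, map_one, sc_dir]

theorem ex_two (d : ℝ) (f : ℝ → ℝ) : ex (two d) f = (f 0 + f d) / 2 := by
  rw [two, ex_smul, ex_add, ex_one, ex_dir]
  push_cast
  ring

theorem two_neg (d : ℝ) : two (-d) = dir (-d) * two d := by
  rw [two, two, mul_smul_comm, mul_add, mul_one, dir_mul, neg_add_cancel, dir_zero, add_comm]

@[simp] theorem tot_zero : tot 0 = 0 := ex_zero _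
theorem tot_add (a b : FM) : tot (a + b) = tot a + tot b := ex_add _ _ _
theorem tot_smul (c : ℝ≥0) (a : FM) : tot (c • a) = c * tot a := ex_smul _ _ _
@[simp] theorem tot_dir (y : ℝ) : tot (dir y) = 1 := ex_dir _ _
@[simp] theorem tot_one : tot 1 = 1 := ex_one _
@[simp] theorem tot_two (d : ℝ) : tot (two d) = 1 := by simp [tot, ex_two]
@[simp] theorem tot_sc (ρ : ℝ) (a : FM) : tot (sc ρ a) = tot a := ex_sc _ _ _
theorem tot_nonneg (a : FM) : 0 ≤ tot a := ex_nonneg fun _ _ => zero_le_one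

theorem tot_mul (a b : FM) : tot (a * b) = tot a * tot b := by
  rw [tot, ex_mul]
  exact (ex_fun_const a (tot b)).trans (mul_comm _ _)

theorem tot_pow (a : FM) (k : ℕ) : tot (a ^ k) = tot a ^ k := by
  induction k with
  | zero => simp
  | succ k ih => rw [pow_succ, tot_mul, ih, pow_succ]

theorem tot_sum {ι : Type*} (s : Finset ι) (a : ι → FM) :
    tot (∑ i ∈ s, a i) = ∑ i ∈ s, tot (a i) := ex_sum _ _ _

/-- A subadditive functional is bounded on mixtures of translates. -/
theorem le_tot_mul {Φ : FM → ℝ} (h0 : Φ 0 ≤ 0) (hadd : ∀ a b, Φ (a + b) ≤ Φ a + Φ b) {θ : FM}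
    {B : ℝ} (hs : ∀ (y : ℝ) (c : ℝ≥0), Φ (c • (dir y * θ)) ≤ c * B) (ξ : FM) :
    Φ (ξ * θ) ≤ tot ξ * B := by
  induction ξ using FM.induction with
  | h0 => simpa using h0
  | hadd a b ha hb => rw [add_mul, tot_add, add_mul]; exact (hadd _ _).trans (add_le_add ha hb)
  | hs y c => rw [smul_mul_assoc, tot_smul, tot_dir, mul_one]; exact hs y c

@[simp] theorem mass_zero (r x : ℝ) : mass 0 r x = 0 := ex_zero _
theorem mass_add (a b : FM) (r x : ℝ) : mass (a + b) r x = mass a r x + mass b r x := ex_add _ _ _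
theorem mass_smul (c : ℝ≥0) (a : FM) (r x : ℝ) : mass (c • a) r x = c * mass a r x := ex_smul _ _ _

theorem mass_nonneg (a : FM) (r x : ℝ) : 0 ≤ mass a r x :=
  ex_nonneg fun _ _ => by split_ifs <;> simp

theorem mass_le_tot (a : FM) (r x : ℝ) : mass a r x ≤ tot a :=
  ex_mono fun _ _ => by split_ifs <;> simp

theorem mass_dir_mul (y : ℝ) (a : FM) (r x : ℝ) : mass (dir y * a) r x = mass a r (x - y) := by
  unfold mass
  rw [ex_dir_mul]
  refine ex_congr fun z _ => if_congr ?_ rfl rfl
  constructor <;> rintro ⟨h1, h2⟩ <;> constructor <;> linarith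

theorem mass_two_mul (d : ℝ) (a : FM) (r x : ℝ) :
    mass (two d * a) r x = (mass a r x + mass a r (x - d)) / 2 := by
  rw [two, smul_mul_assoc, mass_smul, add_mul, one_mul, mass_add, mass_dir_mul]
  push_cast
  ring

/-- A window is the union of two consecutive windows. -/
theorem mass_add_right (a : FM) {r r' : ℝ} (hr : 0 ≤ r) (hr' : 0 ≤ r') (x : ℝ) :
    mass a (r + r') x = mass a r x + mass a r' (x - r) := by
  unfold mass
  rw [← ex_fun_add]
  refine ex_congr fun y _ => ?_
  by_cases h1 : x - r < y <;> by_cases h2 : y ≤ x <;> by_cases h3 : x - r - r' < y <;>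
    simp [h1, h2, h3, not_le.2, not_lt.1, show x - (r + r') < y ↔ x - r - r' < y by rw [sub_sub]] <;>
    linarith

theorem measurable_mass (a : FM) : Measurable fun p : ℝ × ℝ => mass a p.1 p.2 := by
  simp only [mass, ex_eq_sum]
  refine Finset.measurable_sum _ fun y _ => Measurable.const_mul ?_ _
  refine Measurable.ite ?_ measurable_const measurable_const
  exact (measurableSet_lt (measurable_snd.sub measurable_fst) measurable_const).inter
    (measurableSet_le measurable_const measurable_snd)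

theorem exists_bdd (a : FM) : ∃ R, 0 ≤ R ∧ Bdd a R :=
  ⟨∑ y ∈ a.coeff.support, |y|, Finset.sum_nonneg fun _ _ => abs_nonneg _,
    fun _ hy => Finset.single_le_sum (f := fun y : ℝ => |y|) (fun _ _ => abs_nonneg _) hy⟩

theorem mass_eq_zero {a : FM} {R r x : ℝ} (h : Bdd a R) (hx : x ∉ Set.Icc (-R) (R + r)) :
    mass a r x = 0 := by
  rw [mass, ex_congr (g := fun _ => 0), ex_fun_const, zero_mul]
  intro y hy
  have := abs_le.1 (h y hy)
  refine if_neg fun h' => hx ⟨?_, ?_⟩ <;> linarith [h'.1, h'.2]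

theorem natoms_mul_le (a b : FM) : natoms (a * b) ≤ natoms a * natoms b := by
  classical
  exact (Finset.card_le_card (AddMonoidAlgebra.support_coeff_mul_subset a b)).trans
    Finset.card_add_le

theorem natoms_sc_le (ρ : ℝ) (a : FM) : natoms (sc ρ a) ≤ natoms a := by
  classical
  exact (Finset.card_le_card Finsupp.mapDomain_support).trans Finset.card_image_le

theorem Bdd.mul_sc {a b : FM} {ρ R R' : ℝ} (ha : Bdd a R) (hb : Bdd b R') :
    Bdd (a * sc ρ b) (R + |ρ| * R') := by
  classical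
  intro y hy
  obtain ⟨u, hu, v, hv, rfl⟩ :=
    Finset.mem_add.1 (AddMonoidAlgebra.support_coeff_mul_subset a _ hy)
  obtain ⟨w, hw, rfl⟩ := Finset.mem_image.1 (Finsupp.mapDomain_support hv)
  refine (abs_add_le _ _).trans (add_le_add (ha u hu) ?_)
  rw [AddMonoidHom.coe_mulLeft, abs_mul]
  exact mul_le_mul_of_nonneg_left (hb w hw) (abs_nonneg _)

/-! ### The analytic functionals -/

/-- The integrand of the Jensen–Shannon divergence. -/
noncomputable def kap (a b : ℝ) : ℝ := negMulLog ((a + b) / 2) - (negMulLog a + negMulLog b) / 2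

/-- Entropy at scale `r`. -/
noncomputable def Hs (ν : FM) (r : ℝ) : ℝ := (∫ x, negMulLog (mass ν r x)) / r

/-- Jensen–Shannon divergence between `ν` smoothed at scale `r` and its shift by `d`. -/
noncomputable def JS (ν : FM) (r d : ℝ) : ℝ := (∫ x, kap (mass ν r x) (mass ν r (x - d))) / r

/-- `L¹` distance between `ν` smoothed at scale `r` and its shift by `d` (times `r`). -/
noncomputable def NN (ν : FM) (r d : ℝ) : ℝ := ∫ x, |mass ν r x - mass ν r (x - d)|

/-- Entropy at scale `e^{-v}`. -/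
noncomputable def Hu (ν : FM) (v : ℝ) : ℝ := Hs ν (exp (-v))

/-- Entropy deficiency at scale `e^{-v}`. -/
noncomputable def Du (ν : FM) (v : ℝ) : ℝ := JS ν (exp (-v)) (exp (-v))

/-- Total variation version of the deficiency at scale `e^{-v}`. -/
noncomputable def Tu (ν : FM) (v : ℝ) : ℝ := NN ν (exp (-v)) (exp (-v)) / (2 * exp (-v))

/-- Entropy averaged over the octave of scales ending at `y`. -/
noncomputable def HH (ν : FM) (y : ℝ) : ℝ := ∫ v in (y - log 2)..y, Hu ν v

/-- Integrated deficiency. -/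
noncomputable def DD (ν : FM) (y₁ y₂ : ℝ) : ℝ := ∫ v in y₁..y₂, Du ν v

/-- The cone generated by the two-point measures with gaps in `[lo, hi]`. -/
noncomputable def cone (lo hi : ℝ) : AddSubmonoid FM :=
  AddSubmonoid.closure {M | ∃ (c : ℝ≥0) (y d : ℝ), lo ≤ |d| ∧ |d| ≤ hi ∧ M = c • (dir y * two d)}

/-- A part of mass `w` of `ν` is a mixture of two-point measures with gaps in `[lo, hi]`. -/
def Move (lo hi : ℝ) (ν : FM) (w : ℝ) : Prop :=
  ∃ ν₀ M : FM, M ∈ cone lo hi ∧ ν = ν₀ + M ∧ tot M = w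

/-- Mass of the pairs at distance `> r / 2` on both sides of `x`, within distance `r` of `x`. -/
noncomputable def prs (ν : FM) (r x : ℝ) : ℝ :=
  ex ν fun y => ex ν fun y' =>
    if x < y ∧ y ≤ x + r ∧ x - r < y' ∧ y' ≤ x ∧ r / 2 < y - y' then 1 else 0

/-- The mass of moves of size about `r`. -/
noncomputable def WW (ν : FM) (r : ℝ) : ℝ := (∫ x, prs ν r x / mass ν (2 * r) (x + r)) / r

/-- The mass of moves of size about `e^{-v}`. -/
noncomputable def Wu (ν : FM) (v : ℝ) : ℝ := WW ν (exp (-v))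

end Crest.Agent.R98
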