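import Crest.Agent.R98.EntB

/-!
# R98: the cone of two-point moves
-/

set_option autoImplicit false

open scoped NNReal
open Real MeasureTheory

namespace Crest.Agent.R98

theorem smul_mem_cone {lo hi d : ℝ} (c : ℝ≥0) (y : ℝ) (h1 : lo ≤ |d|) (h2 : |d| ≤ hi) :
    c • (dir y * two d) ∈ cone lo hi :=
  AddSubmonoid.subset_closure ⟨c, y, d, h1, h2, rfl⟩

/-- `AddSubmonoid.closure_induction` on `M`, `FM.induction` on `ξ`, `dir_mul`. -/
theorem cone_mul (ξ : FM) {lo hi : ℝ} {M : FM} (hM : M ∈ cone lo hi) : ξ * M ∈ cone lo hi := by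
  induction hM using AddSubmonoid.closure_induction with
  | mem M hM =>
    obtain ⟨c, y, d, h1, h2, rfl⟩ := hM
    induction ξ using FM.induction with
    | h0 => rw [zero_mul]; exact zero_mem _
    | hadd a b ha hb => rw [add_mul]; exact add_mem ha hb
    | hs z e =>
      rw [smul_mul_assoc, mul_smul_comm, smul_smul, ← mul_assoc, dir_mul]
      exact smul_mem_cone _ _ h1 h2
  | zero => rw [mul_zero]; exact zero_mem _
  | add a b _ _ ha hb => rw [mul_add]; exact add_mem ha hb

/-- `AddSubmonoid.closure_induction`. -/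
theorem cone_le {Φ : FM → ℝ} (h0 : Φ 0 ≤ 0) (hadd : ∀ a b, Φ (a + b) ≤ Φ a + Φ b) {lo hi B : ℝ}
    (hs : ∀ (c : ℝ≥0) (y d : ℝ), lo ≤ |d| → |d| ≤ hi → Φ (c • (dir y * two d)) ≤ c * B)
    {M : FM} (hM : M ∈ cone lo hi) : Φ M ≤ tot M * B := by
  induction hM using AddSubmonoid.closure_induction with
  | mem M hM =>
    obtain ⟨c, y, d, h1, h2, rfl⟩ := hM
    rw [tot_smul, tot_mul, tot_dir, tot_two, mul_one, mul_one]
    exact hs c y d h1 h2
  | zero => simpa using h0
  | add a b _ _ ha hb =>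
    rw [tot_add, add_mul]
    exact (hadd a b).trans (add_le_add ha hb)

/-- `(ν₀ + M) ^ (k + 1) = ν₀ ^ k * ν₀ + ((ν₀ + M) * M_k + ν₀ ^ k * M)`; `tot ν₀ = 1 - w`. -/
theorem Move.pow {lo hi w : ℝ} {ν : FM} (hν : tot ν = 1) (h : Move lo hi ν w) (k : ℕ) :
    Move lo hi (ν ^ k) (1 - (1 - w) ^ k) := by
  obtain ⟨ν₀, M, hM, rfl, hw⟩ := h
  have h0 : tot ν₀ = 1 - w := by rw [tot_add, hw] at hν; linarith
  have key : ∃ N : FM, N ∈ cone lo hi ∧ (ν₀ + M) ^ k = ν₀ ^ k + N := by
    induction k with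
    | zero => exact ⟨0, zero_mem _, by simp⟩
    | succ k ih =>
      obtain ⟨N, hN, hk⟩ := ih
      refine ⟨(ν₀ + M) * N + ν₀ ^ k * M, add_mem (cone_mul _ hN) (cone_mul _ hM), ?_⟩
      rw [pow_succ, hk]
      ring
  obtain ⟨N, hN, hk⟩ := key
  refine ⟨ν₀ ^ k, N, hN, hk, ?_⟩
  have h1 := congrArg tot hk
  rw [tot_pow, hν, one_pow, tot_add, tot_pow, h0] at h1
  linarith

/-- By `JS_dir_mul`, `two_neg` assume `d > 0`. By `kap_eq` and `integral_mass`,
`log 2 - JS ν R R = (∫ x, (negMulLog a + negMulLog b - negMulLog (a + b)) / 2) / R` with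
`a = mass ν R x`, `b = mass ν R (x - R)`. The integrand is nonnegative (`negMulLog_add_le`) and for
`x ∈ Ico R (R + d)` both masses are `1 / 2`, so it equals `log 2 / 2` there. -/
theorem JS_two_le {R d : ℝ} (hR : 0 < R) (h1 : R / 4 ≤ |d|) (h2 : |d| ≤ R) :
    JS (two d) R R ≤ log 2 - log 2 / 8 := by
  wlog hd : 0 < d generalizing d
  · have hd' : 0 < -d := by
      rcases (not_lt.1 hd).eq_or_lt with h | h
      · rw [h, abs_zero] at h1; linarith
      · linarith
    have := this (d := -d) (by rwa [abs_neg]) (by rwa [abs_neg]) hd'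
    rwa [two_neg, JS_dir_mul] at this
  rw [abs_of_pos hd] at h1 h2
  have hl : 0 < log 2 := log_pos one_lt_two
  have hi1 := integrable_mass (two d) R
  have hi2 : Integrable fun x => mass (two d) R (x - R) := hi1.comp_sub_right R
  have hi3 : Integrable fun x => (Set.Ico R (R + d)).indicator (fun _ => log 2 / 2) x :=
    (integrable_indicator_iff measurableSet_Ico).2 (integrableOn_const (by simp))
  have e3 : ∫ x, (Set.Ico R (R + d)).indicator (fun _ => log 2 / 2) x = d * (log 2 / 2) := by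
    rw [integral_indicator measurableSet_Ico, setIntegral_const, Measure.real, Real.volume_Ico,
      ENNReal.toReal_ofReal (by linarith), smul_eq_mul]
    ring
  have e1 : ∫ x, mass (two d) R x = R := by rw [integral_mass _ hR.le, tot_two, mul_one]
  have e2 : ∫ x, mass (two d) R (x - R) = R := by
    rw [integral_sub_right_eq_self (fun x => mass (two d) R x) R, e1]
  have hpt : ∀ x, kap (mass (two d) R x) (mass (two d) R (x - R)) ≤
      (mass (two d) R x + mass (two d) R (x - R)) * (log 2 / 2)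
        - (Set.Ico R (R + d)).indicator (fun _ => log 2 / 2) x := by
    intro x
    rw [kap_eq]
    by_cases hx : x ∈ Set.Ico R (R + d)
    · have ha : mass (two d) R x = 1 / 2 := by
        rw [mass, ex_two, if_neg (fun h => by linarith [h.1, hx.1]),
          if_pos ⟨by linarith [hx.2], by linarith [hx.1]⟩]
        norm_num
      have hb : mass (two d) R (x - R) = 1 / 2 := by
        rw [mass, ex_two, if_pos ⟨by linarith [hx.2], by linarith [hx.1]⟩,
          if_neg (fun h => by linarith [h.2, hx.2])]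
        norm_num
      have h : negMulLog (1 / 2 : ℝ) = log 2 / 2 := by
        rw [negMulLog, one_div, log_inv]; ring
      rw [Set.indicator_of_mem hx, ha, hb, h, show (1 / 2 + 1 / 2 : ℝ) = 1 by norm_num,
        negMulLog_one]
      linarith
    · rw [Set.indicator_of_notMem hx]
      linarith [negMulLog_add_le (mass_nonneg (two d) R x) (mass_nonneg (two d) R (x - R))]
  have hi4 : Integrable fun x => (mass (two d) R x + mass (two d) R (x - R)) * (log 2 / 2) :=
    (hi1.add hi2).mul_const (log 2 / 2)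
  have hle := integral_mono (integrable_mass₂ (two d) (two d) R R R kap kap_zero)
    (hi4.sub hi3) hpt
  have e4 : ∫ x, ((mass (two d) R x + mass (two d) R (x - R)) * (log 2 / 2)
        - (Set.Ico R (R + d)).indicator (fun _ => log 2 / 2) x)
      = (R + R) * (log 2 / 2) - d * (log 2 / 2) := by
    rw [integral_sub hi4 hi3, integral_mul_const,
      integral_add hi1 hi2, e1, e2, e3]
  rw [JS, div_le_iff₀ hR]
  refine hle.trans (le_of_eq_of_le e4 ?_)
  nlinarith

/-- `JS_add_le`, `JS ν₀ ≤ log 2 * tot ν₀` (`JS_le_NN`, `NN_le_scale`), `cone_le`, `JS_two_le`. -/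
theorem Move.le_deficit {ν : FM} (hν : tot ν = 1) {r w : ℝ} (hr : 0 < r)
    (h : Move (r / 2) (2 * r) ν w) : w * (log 2 / 8) ≤ log 2 - JS ν (2 * r) (2 * r) := by
  obtain ⟨ν₀, M, hM, rfl, hw⟩ := h
  have hr2 : 0 < 2 * r := by linarith
  have hl : 0 < log 2 := log_pos one_lt_two
  have h0 : tot ν₀ = 1 - w := by rw [tot_add, hw] at hν; linarith
  have h1 : JS ν₀ (2 * r) (2 * r) ≤ log 2 * tot ν₀ := by
    refine (JS_le_NN ν₀ hr2 _).trans (mul_le_mul_of_nonneg_left ?_ hl.le)
    rw [div_le_iff₀ (by linarith)]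
    exact (NN_le_scale ν₀ hr2.le _).trans_eq (by ring)
  have h2 : JS M (2 * r) (2 * r) ≤ tot M * (log 2 - log 2 / 8) := by
    refine cone_le (Φ := fun a => JS a (2 * r) (2 * r)) (by simp)
      (fun a b => JS_add_le a b hr2.le _) (fun c y d h1 h2 => ?_) hM
    rw [JS_smul, JS_dir_mul]
    exact mul_le_mul_of_nonneg_left (JS_two_le hr2 (by linarith) h2) c.coe_nonneg
  have h3 := JS_add_le ν₀ M hr2.le (2 * r)
  rw [h0] at h1
  rw [hw] at h2
  linarith

end Crest.Agent.R98
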