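import Crest.Agent.R98.Ker

/-!
# R98: the mass distribution principle
-/

set_option autoImplicit false

open Real MeasureTheory

namespace Crest.Agent.R98

variable (μ : Measure ℝ) [IsProbabilityMeasure μ]

theorem dim_markov {q s θ : ℝ} (hq : 0 < q) (hθ : 0 < θ) (k : ℕ)
    (h : ∫ z, ker μ (q ^ k) z ^ θ ∂μ ≤ (q ^ (θ * s) * exp (-θ)) ^ k) :
    μ.real {z | (q ^ k) ^ s < ker μ (q ^ k) z} ≤ exp (-θ) ^ k := by
  have hr : 0 < q ^ k := pow_pos hq k
  have hε : 0 < ((q ^ k) ^ s) ^ θ := rpow_pos_of_pos (rpow_pos_of_pos hr s) θ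
  have hc : Continuous fun z => ker μ (q ^ k) z ^ θ :=
    (continuous_ker μ hr).rpow_const fun _ => Or.inr hθ.le
  have hint : Integrable (fun z => ker μ (q ^ k) z ^ θ) μ := by
    refine Integrable.of_bound hc.aestronglyMeasurable 1 (ae_of_all _ fun z => ?_)
    rw [Real.norm_of_nonneg (rpow_nonneg (ker_pos μ hr z).le _)]
    exact rpow_le_one (ker_pos μ hr z).le (ker_le_one μ hr z) hθ.le
  have h1 := mul_meas_ge_le_integral_of_nonneg
    (ae_of_all μ fun z => rpow_nonneg (ker_pos μ hr z).le θ) hint (((q ^ k) ^ s) ^ θ)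
  have h2 : μ.real {z | (q ^ k) ^ s < ker μ (q ^ k) z} ≤
      μ.real {z | ((q ^ k) ^ s) ^ θ ≤ ker μ (q ^ k) z ^ θ} :=
    measureReal_mono fun z hz => rpow_le_rpow (rpow_pos_of_pos hr s).le (le_of_lt hz) hθ.le
  have e : (q ^ (θ * s)) ^ k = ((q ^ k) ^ s) ^ θ := by
    rw [← rpow_natCast, ← rpow_natCast, ← rpow_mul hq.le, ← rpow_mul hq.le, ← rpow_mul hq.le]
    congr 1
    ring
  rw [mul_pow, e] at h
  exact le_of_mul_le_mul_left ((mul_le_mul_of_nonneg_left h2 hε.le).trans (h1.trans h)) hε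

theorem dim_mass {q s : ℝ} (hq : 0 < q) (hq1 : q < 1) (hs : 0 < s) {G : Set ℝ}
    (hG : MeasurableSet G) (k₀ : ℕ)
    (h : ∀ z ∈ G, ∀ k, k₀ ≤ k → ker μ (q ^ k) z ≤ (q ^ k) ^ s) :
    ENNReal.ofReal (q ^ s / exp 1) • μ.restrict G ≤ μH[s] := by
  refine Measure.le_hausdorffMeasure s _ (ENNReal.ofReal (q ^ k₀))
    (ENNReal.ofReal_pos.2 (pow_pos hq _)) fun S hS => ?_
  rw [Measure.smul_apply, Measure.restrict_apply' hG, smul_eq_mul]
  rcases (S ∩ G).eq_empty_or_nonempty with h0 | ⟨z, hzS, hzG⟩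
  · rw [h0]
    simp
  have hne : Metric.ediam S ≠ ⊤ := ne_top_of_le_ne_top ENNReal.ofReal_ne_top hS
  have hD : Metric.diam S ≤ q ^ k₀ := ENNReal.toReal_le_of_le_ofReal (pow_pos hq _).le hS
  have hD0 : 0 ≤ Metric.diam S := Metric.diam_nonneg
  have hqs : 0 < q ^ s := rpow_pos_of_pos hq s
  have key : ∀ k, k₀ ≤ k → Metric.diam S ≤ q ^ k → μ.real (S ∩ G) ≤ exp 1 * (q ^ k) ^ s := by
    intro k hk hd
    calc μ.real (S ∩ G) ≤ μ.real (Metric.closedBall z (q ^ k)) :=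
          measureReal_mono fun y hy =>
            Metric.mem_closedBall.2 ((Metric.dist_le_diam_of_mem' hne hy.1 hzS).trans hd)
      _ ≤ exp 1 * ker μ (q ^ k) z := measureReal_closedBall_le μ (pow_pos hq k) z
      _ ≤ exp 1 * (q ^ k) ^ s := mul_le_mul_of_nonneg_left (h z hzG k hk) (exp_pos 1).le
  have main : q ^ s / exp 1 * μ.real (S ∩ G) ≤ Metric.diam S ^ s := by
    rcases hD0.eq_or_lt with h0 | h0
    · have h1 : Filter.Tendsto (fun k : ℕ => exp 1 * (q ^ s) ^ k) Filter.atTop (nhds (exp 1 * 0)) :=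
        (tendsto_pow_atTop_nhds_zero_of_lt_one hqs.le (rpow_lt_one hq.le hq1 hs)).const_mul _
      have h2 : μ.real (S ∩ G) ≤ exp 1 * 0 := by
        refine ge_of_tendsto h1 (Filter.eventually_atTop.2 ⟨k₀, fun k hk => ?_⟩)
        have := key k hk (h0 ▸ (pow_pos hq k).le)
        rwa [← rpow_natCast, ← rpow_mul hq.le, mul_comm (k : ℝ), rpow_mul hq.le, rpow_natCast] at this
      have h3 : μ.real (S ∩ G) = 0 := le_antisymm (by simpa using h2) measureReal_nonneg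
      rw [h3, mul_zero]
      exact rpow_nonneg hD0 s
    · obtain ⟨n, hn1, hn2⟩ := exists_nat_pow_near_of_lt_one h0
        (hD.trans (pow_le_one₀ hq.le hq1.le)) hq hq1
      have hn : k₀ ≤ n := by
        have := (pow_lt_pow_iff_right_of_lt_one₀ hq hq1).1 (hn1.trans_le hD)
        omega
      calc q ^ s / exp 1 * μ.real (S ∩ G) ≤ q ^ s / exp 1 * (exp 1 * (q ^ n) ^ s) :=
            mul_le_mul_of_nonneg_left (key n hn hn2) (div_pos hqs (exp_pos 1)).le
        _ = (q ^ (n + 1)) ^ s := by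
            rw [pow_succ, mul_rpow (pow_pos hq n).le hq.le]
            field_simp
        _ ≤ Metric.diam S ^ s := rpow_le_rpow (pow_pos hq _).le hn1.le hs.le
  calc ENNReal.ofReal (q ^ s / exp 1) * μ (S ∩ G)
      = ENNReal.ofReal (q ^ s / exp 1 * μ.real (S ∩ G)) := by
        rw [ENNReal.ofReal_mul (div_pos hqs (exp_pos 1)).le, ofReal_measureReal]
    _ ≤ ENNReal.ofReal (Metric.diam S ^ s) := ENNReal.ofReal_le_ofReal main
    _ = Metric.ediam S ^ s := by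
        rw [← ENNReal.ofReal_rpow_of_nonneg hD0 hs.le, Metric.diam, ENNReal.ofReal_toReal hne]

/-- **Moment bound implies dimension bound.** By Markov's inequality
`μ {z | (q ^ k) ^ s < ker μ (q ^ k) z} ≤ exp (-θ) ^ k`; by Borel–Cantelli
(`ae_eventually_notMem`) almost every `z` lies in some
`G k₀ = {z | ∀ k ≥ k₀, ker μ (q ^ k) z ≤ (q ^ k) ^ s}` (closed). So `0 < μ (E ∩ G k₀)` for some `k₀`.
Let `ν = ENNReal.ofReal (q ^ s / exp 1) • μ.restrict (E ∩ G k₀)`. A set `S` of diameter at most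
`q ^ k₀` that meets `G k₀` at `z` lies in `closedBall z (q ^ k)` whenever `diam S ≤ q ^ k`, so
`μ S ≤ exp 1 * (q ^ k) ^ s`; take `k ≥ k₀` with `q ^ (k + 1) < diam S ≤ q ^ k`
(`exists_nat_pow_near_of_lt_one`), or `k → ∞` if `diam S = 0`. Then
`Measure.le_hausdorffMeasure` gives `ν ≤ μH[s]`, so `μH[s] E ≠ 0`, and
`le_dimH_of_hausdorffMeasure_ne_zero` (or `dimH` monotonicity via `hausdorffMeasure_of_dimH_lt`)
concludes. -/
theorem le_dimH_of_moment {q s θ : ℝ} (hq : 0 < q) (hq1 : q < 1) (hs : 0 < s) (hθ : 0 < θ)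
    (h : ∀ k : ℕ, ∫ z, ker μ (q ^ k) z ^ θ ∂μ ≤ (q ^ (θ * s) * exp (-θ)) ^ k)
    {E : Set ℝ} (hE : MeasurableSet E) (hE0 : 0 < μ E) : ENNReal.ofReal s ≤ dimH E := by
  have hsum : ∑' k : ℕ, μ {z | (q ^ k) ^ s < ker μ (q ^ k) z} ≠ ⊤ := by
    have h1 : exp (-θ) < 1 := Real.exp_lt_one_iff.2 (by linarith)
    refine ne_top_of_le_ne_top
      (summable_geometric_of_lt_one (exp_pos (-θ)).le h1).tsum_ofReal_lt_top.ne
      (ENNReal.tsum_le_tsum fun k => ?_)
    rw [← ofReal_measureReal]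
    exact ENNReal.ofReal_le_ofReal (dim_markov μ hq hθ k (h k))
  let G : ℕ → Set ℝ := fun k₀ => ⋂ k, ⋂ (_ : k₀ ≤ k), {z | ker μ (q ^ k) z ≤ (q ^ k) ^ s}
  have hGm : ∀ k₀, MeasurableSet (G k₀) := fun k₀ =>
    MeasurableSet.iInter fun k => MeasurableSet.iInter fun _ =>
      (isClosed_le (continuous_ker μ (pow_pos hq k)) continuous_const).measurableSet
  have hae : ∀ᵐ z ∂μ, z ∈ ⋃ k₀, G k₀ := by
    filter_upwards [ae_eventually_notMem hsum] with z hz
    obtain ⟨k₀, hk⟩ := Filter.eventually_atTop.1 hz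
    exact Set.mem_iUnion.2 ⟨k₀, Set.mem_iInter₂.2 fun k hk' => not_lt.1 (hk k hk')⟩
  obtain ⟨k₀, hk₀⟩ : ∃ k₀, μ (E ∩ G k₀) ≠ 0 := by
    by_contra hcon
    push Not at hcon
    have h1 : μ (E ∩ ⋃ k₀, G k₀) = 0 := by
      rw [Set.inter_iUnion]
      exact measure_iUnion_null hcon
    have h2 : (⋃ k₀, G k₀) =ᵐ[μ] Set.univ := ae_eq_univ.2 hae
    rw [measure_congr (inter_ae_eq_left_of_ae_eq_univ h2)] at h1
    exact hE0.ne' h1
  have hle := dim_mass μ hq hq1 hs (hE.inter (hGm k₀)) k₀ fun z hz k hk =>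
    Set.mem_iInter₂.1 hz.2 k hk
  have hpos : μH[s] E ≠ 0 := by
    intro h0
    have h1 := Measure.le_iff'.1 hle E
    rw [h0, Measure.smul_apply, Measure.restrict_apply hE, ← Set.inter_assoc, Set.inter_self,
      smul_eq_mul, nonpos_iff_eq_zero, mul_eq_zero] at h1
    rcases h1 with h1 | h1
    · exact (ENNReal.ofReal_pos.2 (div_pos (rpow_pos_of_pos hq s) (exp_pos 1))).ne' h1
    · exact hk₀ h1
  exact le_dimH_of_hausdorffMeasure_ne_zero (d := s.toNNReal) (by rwa [Real.coe_toNNReal s hs.le])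

end Crest.Agent.R98
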