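import Crest.Agent.R98.Kap

/-!
# R98: basic properties of `Hs`, `JS`, `NN`
-/

set_option autoImplicit false

open scoped NNReal
open Real MeasureTheory

namespace Crest.Agent.R98

theorem EntA_finite_range (a : FM) (r : ℝ) : (Set.range fun x => mass a r x).Finite := by
  classical
  refine (a.coeff.support.powerset.image fun S => ∑ y ∈ S, (a.coeff y : ℝ)).finite_toSet.subset ?_
  rintro _ ⟨x, rfl⟩
  refine Finset.mem_coe.2 (Finset.mem_image.2
    ⟨a.coeff.support.filter fun y => x - r < y ∧ y ≤ x,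
      Finset.mem_powerset.2 (Finset.filter_subset _ _), ?_⟩)
  simp only [mass, ex_eq_sum, Finset.sum_filter, mul_ite, mul_one, mul_zero]

theorem EntA_measurable (a : FM) (r : ℝ) : Measurable fun x => mass a r x :=
  (measurable_mass a).comp (measurable_const.prodMk measurable_id)

/-- `x ↦ mass a r x` is measurable (`measurable_mass`) with finite range (its values are sums of
coefficients over subsets of the support), so it is a `SimpleFunc`; `(f.pair g).map (uncurry F)` is
then measurable and bounded for every `F`, and it vanishes off a compact interval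
(`exists_bdd`, `mass_eq_zero`). -/
theorem integrable_mass₂ (a b : FM) (r r' d : ℝ) (F : ℝ → ℝ → ℝ) (h0 : F 0 0 = 0) :
    Integrable fun x => F (mass a r x) (mass b r' (x - d)) := by
  have hm : Measurable fun x => (mass a r x, mass b r' (x - d)) :=
    (EntA_measurable a r).prodMk ((EntA_measurable b r').comp (measurable_id.sub_const d))
  have hf : (Set.range fun x => (mass a r x, mass b r' (x - d))).Finite := by
    refine ((EntA_finite_range a r).prod (EntA_finite_range b r')).subset ?_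
    rintro _ ⟨x, rfl⟩
    exact ⟨⟨x, rfl⟩, ⟨x - d, rfl⟩⟩
  let f : SimpleFunc ℝ (ℝ × ℝ) := ⟨_, fun y => hm (measurableSet_singleton y), hf⟩
  let g : SimpleFunc ℝ ℝ := f.map fun p => F p.1 p.2
  obtain ⟨C, hC⟩ := g.exists_forall_norm_le
  obtain ⟨R, hR, ha⟩ := exists_bdd a
  obtain ⟨R', hR', hb⟩ := exists_bdd b
  have h1 : IntegrableOn g (Set.Icc (-(R + R' + |d|)) (R + R' + |d| + |r| + |r'|)) :=
    Measure.integrableOn_of_bounded (by rw [Real.volume_Icc]; exact ENNReal.ofReal_ne_top)
      g.aestronglyMeasurable (Filter.Eventually.of_forall hC)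
  refine h1.integrable_of_forall_notMem_eq_zero fun x hx => ?_
  have h2 := abs_nonneg d
  have h3 := le_abs_self d
  have h4 := neg_abs_le d
  have h5 := abs_nonneg r
  have h6 := abs_nonneg r'
  show F (mass a r x) (mass b r' (x - d)) = 0
  rw [mass_eq_zero ha fun h => hx ⟨by linarith [h.1], by linarith [h.2, le_abs_self r]⟩,
    mass_eq_zero hb fun h => hx ⟨by linarith [h.1], by linarith [h.2, le_abs_self r']⟩, h0]

theorem integrable_mass₁ (a : FM) (r : ℝ) (F : ℝ → ℝ) (h0 : F 0 = 0) :
    Integrable fun x => F (mass a r x) :=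
  integrable_mass₂ a a r r 0 (fun u _ => F u) h0

theorem integrable_mass (a : FM) (r : ℝ) : Integrable fun x => mass a r x :=
  integrable_mass₁ a r id rfl

/-- `x - r < y ∧ y ≤ x` means `x ∈ Ico y (y + r)`; exchange the integral and the finite sum. -/
theorem integral_window (a : FM) {r : ℝ} (hr : 0 ≤ r) (g : ℝ → ℝ) :
    Integrable (fun x => ex a fun y => if x - r < y ∧ y ≤ x then g y else 0) ∧
      ∫ x, (ex a fun y => if x - r < y ∧ y ≤ x then g y else 0) = r * ex a g := by
  have h1 : (fun x => ex a fun y => if x - r < y ∧ y ≤ x then g y else 0) = fun x =>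
      ∑ y ∈ a.coeff.support, (Set.Ico y (y + r)).indicator (fun _ => (a.coeff y : ℝ) * g y) x := by
    funext x
    rw [ex_eq_sum]
    refine Finset.sum_congr rfl fun y _ => ?_
    by_cases h : x - r < y ∧ y ≤ x
    · rw [if_pos h, Set.indicator_of_mem (show x ∈ Set.Ico y (y + r) from ⟨h.2, by linarith [h.1]⟩)]
    · rw [if_neg h, Set.indicator_of_notMem fun h' => h ⟨by linarith [h'.2], h'.1⟩, mul_zero]
  have h2 : ∀ y ∈ a.coeff.support, Integrable
      ((Set.Ico y (y + r)).indicator fun _ => (a.coeff y : ℝ) * g y) := fun y _ =>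
    (integrable_indicator_iff measurableSet_Ico).2
      (integrableOn_const (by rw [Real.volume_Ico]; exact ENNReal.ofReal_ne_top))
  rw [h1]
  refine ⟨integrable_finsetSum _ h2, ?_⟩
  rw [integral_finsetSum _ h2, ex_eq_sum, Finset.mul_sum]
  refine Finset.sum_congr rfl fun y _ => ?_
  rw [integral_indicator measurableSet_Ico, setIntegral_const, Measure.real, Real.volume_Ico,
    add_sub_cancel_left, ENNReal.toReal_ofReal hr, smul_eq_mul]

theorem integral_mass (a : FM) {r : ℝ} (hr : 0 ≤ r) : ∫ x, mass a r x = r * tot a :=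
  (integral_window a hr fun _ => 1).2

/-- `mass_dir_mul` and `integral_sub_right_eq_self`. -/
theorem Hs_dir_mul (y : ℝ) (ν : FM) (r : ℝ) : Hs (dir y * ν) r = Hs ν r := by
  simp only [Hs, mass_dir_mul]
  rw [integral_sub_right_eq_self (fun x => negMulLog (mass ν r x)) y]

/-- `mass_two_mul`, `integral_sub`, `integral_sub_right_eq_self`. -/
theorem JS_eq (ν : FM) (r d : ℝ) : JS ν r d = Hs (two d * ν) r - Hs ν r := by
  have h1 := integrable_mass₁ ν r negMulLog negMulLog_zero
  have h2 : Integrable fun x => negMulLog (mass ν r (x - d)) := h1.comp_sub_right d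
  have h3 := integrable_mass₁ (two d * ν) r negMulLog negMulLog_zero
  have h4 : Integrable fun x => (negMulLog (mass ν r x) + negMulLog (mass ν r (x - d))) / 2 :=
    (h1.add h2).div_const 2
  simp only [JS, Hs, kap, ← mass_two_mul]
  rw [integral_sub h3 h4, integral_div, integral_add h1 h2,
    integral_sub_right_eq_self (fun x => negMulLog (mass ν r x)) d]
  ring

/-- `mass (two r * ν) r x = mass ν (2 r) x / 2` (`mass_add_right`) and
`negMulLog (m / 2) = negMulLog m / 2 + m / 2 * log 2`. -/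
theorem JS_self (ν : FM) {r : ℝ} (hr : 0 < r) :
    JS ν r r = tot ν * log 2 - Hs ν r + Hs ν (2 * r) := by
  have h1 : ∀ x, negMulLog (mass (two r * ν) r x) =
      negMulLog (mass ν (2 * r) x) / 2 + log 2 / 2 * mass ν (2 * r) x := by
    intro x
    rw [mass_two_mul, ← mass_add_right ν hr.le hr.le, ← two_mul, div_eq_mul_inv, negMulLog_mul,
      negMulLog, negMulLog, log_inv]
    ring
  rw [JS_eq, Hs, Hs, Hs]
  simp only [h1]
  rw [integral_add ((integrable_mass₁ ν _ negMulLog negMulLog_zero).div_const 2)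
    ((integrable_mass ν _).const_mul _), integral_div, integral_const_mul,
    integral_mass ν (by positivity)]
  field_simp
  ring

/-- For `ρ > 0`, `mass (sc ρ ν) r x = mass ν (r / ρ) (x / ρ)`. For `ρ < 0`,
`mass (sc ρ ν) r x = mass ν (r / |ρ|) (x / ρ + r / |ρ|)` outside the finite set of `x` with
`x = ρ y` or `x - r = ρ y` for an atom `y`. Then `Measure.integral_comp_div`/`integral_comp_mul_left`. -/
theorem Hs_sc {ρ : ℝ} (hρ : ρ ≠ 0) (ν : FM) (r : ℝ) : Hs (sc ρ ν) r = Hs ν (r / |ρ|) := by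
  have key : ∫ x, negMulLog (mass (sc ρ ν) r x) = |ρ| * ∫ x, negMulLog (mass ν (r / |ρ|) x) := by
    rcases lt_or_gt_of_ne hρ with h | h
    · have h1 : ∀ᵐ x : ℝ, ∀ y ∈ ν.coeff.support, x ≠ ρ * y ∧ x ≠ ρ * y + r :=
        (Filter.eventually_all_finset _).2 fun y _ =>
          (Measure.ae_ne volume _).and (Measure.ae_ne volume _)
      have h2 : ∀ᵐ x : ℝ, negMulLog (mass (sc ρ ν) r x) =
          negMulLog (mass ν (r / |ρ|) (x / ρ + r / |ρ|)) := by
        filter_upwards [h1] with x hx
        congr 1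
        rw [mass, mass, ex_sc]
        refine ex_congr fun y hy => if_congr ?_ rfl rfl
        obtain ⟨h3, h4⟩ := hx y hy
        rw [add_sub_cancel_right, div_lt_iff_of_neg h, abs_of_neg h, div_neg, ← sub_eq_add_neg,
          ← sub_div, le_div_iff_of_neg h, mul_comm y ρ]
        constructor
        · rintro ⟨h5, h6⟩
          exact ⟨lt_of_le_of_ne h6 h3.symm, h5.le⟩
        · rintro ⟨h5, h6⟩
          exact ⟨lt_of_le_of_ne h6 fun h7 => h4 (by linarith), h5.le⟩
      rw [integral_congr_ae h2,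
        Measure.integral_comp_div (fun u => negMulLog (mass ν (r / |ρ|) (u + r / |ρ|))) ρ,
        integral_add_right_eq_self (fun u => negMulLog (mass ν (r / |ρ|) u)), smul_eq_mul]
    · have h2 : ∀ x : ℝ, mass (sc ρ ν) r x = mass ν (r / |ρ|) (x / ρ) := by
        intro x
        rw [mass, mass, ex_sc]
        refine ex_congr fun y _ => if_congr ?_ rfl rfl
        rw [abs_of_pos h, ← sub_div, div_lt_iff₀ h, le_div_iff₀ h, mul_comm y ρ]
      simp only [h2]
      rw [Measure.integral_comp_div (fun u => negMulLog (mass ν (r / |ρ|) u)) ρ, smul_eq_mul]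
  rw [Hs, Hs, key, div_div_eq_mul_div, mul_comm]

theorem JS_dir_mul (y : ℝ) (ν : FM) (r d : ℝ) : JS (dir y * ν) r d = JS ν r d := by
  rw [JS_eq, JS_eq, mul_left_comm, Hs_dir_mul, Hs_dir_mul]

theorem JS_neg (ν : FM) (r d : ℝ) : JS ν r (-d) = JS ν r d := by
  rw [JS_eq, JS_eq, two_neg, mul_assoc, Hs_dir_mul]

theorem JS_abs (ν : FM) (r d : ℝ) : JS ν r |d| = JS ν r d := by
  rcases abs_choice d with h | h <;> rw [h]
  exact JS_neg ν r d

theorem JS_sc {ρ : ℝ} (hρ : ρ ≠ 0) (ν : FM) (r d : ℝ) :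
    JS (sc ρ ν) r d = JS ν (r / |ρ|) (d / ρ) := by
  have h : two d * sc ρ ν = sc ρ (two (d / ρ) * ν) := by
    rw [map_mul, sc_two, mul_div_cancel₀ _ hρ]
  rw [JS_eq, JS_eq, h, Hs_sc hρ, Hs_sc hρ]

theorem JS_nonneg (ν : FM) {r : ℝ} (hr : 0 ≤ r) (d : ℝ) : 0 ≤ JS ν r d :=
  div_nonneg (integral_nonneg fun _ => kap_nonneg (mass_nonneg _ _ _) (mass_nonneg _ _ _)) hr

@[simp] theorem JS_zero (r d : ℝ) : JS 0 r d = 0 := by simp [JS]

/-- `kap_add_le`. -/
theorem JS_add_le (a b : FM) {r : ℝ} (hr : 0 ≤ r) (d : ℝ) :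
    JS (a + b) r d ≤ JS a r d + JS b r d := by
  have h1 := integrable_mass₂ a a r r d kap kap_zero
  have h2 := integrable_mass₂ b b r r d kap kap_zero
  rw [JS, JS, JS, ← add_div, ← integral_add h1 h2]
  refine div_le_div_of_nonneg_right (integral_mono (integrable_mass₂ _ _ r r d kap kap_zero)
    (h1.add h2) fun x => ?_) hr
  simp only [mass_add]
  exact kap_add_le (mass_nonneg _ _ _) (mass_nonneg _ _ _) (mass_nonneg _ _ _) (mass_nonneg _ _ _)

/-- `kap_mul`. -/
theorem JS_smul (c : ℝ≥0) (a : FM) (r d : ℝ) : JS (c • a) r d = c * JS a r d := by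
  simp only [JS, mass_smul, kap_mul, integral_const_mul, mul_div_assoc]

theorem JS_mul_le (ξ θ : FM) {r : ℝ} (hr : 0 ≤ r) (d : ℝ) : JS (ξ * θ) r d ≤ tot ξ * JS θ r d :=
  le_tot_mul (Φ := fun a => JS a r d) (by simp) (fun a b => JS_add_le a b hr d)
    (fun y c => by rw [JS_smul, JS_dir_mul]) ξ

theorem NN_nonneg (ν : FM) (r d : ℝ) : 0 ≤ NN ν r d := integral_nonneg fun _ => abs_nonneg _

/-- Translate the variable of integration by `d`. -/
theorem NN_neg (ν : FM) (r d : ℝ) : NN ν r (-d) = NN ν r d := by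
  rw [NN, NN, ← integral_sub_right_eq_self (fun x => |mass ν r x - mass ν r (x - -d)|) d]
  simp only [sub_neg_eq_add, sub_add_cancel, abs_sub_comm]

theorem EntA_integrable_NN (ν : FM) (r d : ℝ) :
    Integrable fun x => |mass ν r x - mass ν r (x - d)| :=
  integrable_mass₂ ν ν r r d (fun u v => |u - v|) (by simp)

theorem EntA_integral_add (ν : FM) {r : ℝ} (hr : 0 ≤ r) (d : ℝ) :
    ∫ x, (mass ν r x + mass ν r (x - d)) = 2 * r * tot ν := by
  rw [integral_add (integrable_mass ν r) ((integrable_mass ν r).comp_sub_right d),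
    integral_sub_right_eq_self (fun x => mass ν r x) d, integral_mass ν hr]
  ring

/-- `|a - b| ≤ a + b` and `integral_mass`. -/
theorem NN_le_scale (ν : FM) {r : ℝ} (hr : 0 ≤ r) (d : ℝ) : NN ν r d ≤ 2 * r * tot ν := by
  rw [← EntA_integral_add ν hr d]
  refine integral_mono (EntA_integrable_NN ν r d)
    ((integrable_mass ν r).add ((integrable_mass ν r).comp_sub_right d)) fun x => ?_
  have h1 := mass_nonneg ν r x
  have h2 := mass_nonneg ν r (x - d)
  exact abs_le.2 ⟨by linarith, by linarith⟩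

/-- For `d ≥ 0`, `mass_add_right` twice gives
`mass ν r x - mass ν r (x - d) = mass ν d x - mass ν d (x - r)`, so `NN ν r d = NN ν d r`. -/
theorem NN_le_shift (ν : FM) {r : ℝ} (hr : 0 ≤ r) (d : ℝ) : NN ν r d ≤ 2 * |d| * tot ν := by
  have key : ∀ d : ℝ, 0 ≤ d → NN ν r d ≤ 2 * d * tot ν := by
    intro d hd
    refine le_of_eq_of_le ?_ (NN_le_scale ν hd r)
    refine integral_congr_ae (Filter.Eventually.of_forall fun x => ?_)
    have h1 := mass_add_right ν hr hd x
    have h2 := mass_add_right ν hd hr x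
    rw [add_comm d r] at h2
    show |mass ν r x - mass ν r (x - d)| = |mass ν d x - mass ν d (x - r)|
    congr 1
    linarith
  rcases abs_choice d with h | h
  · simpa [h] using key |d| (abs_nonneg d)
  · have := key |d| (abs_nonneg d)
    rwa [h, NN_neg, ← h] at this

/-- Triangle inequality and translation invariance. -/
theorem NN_add_shift (ν : FM) (r d d' : ℝ) : NN ν r (d + d') ≤ NN ν r d + NN ν r d' := by
  rw [NN, NN, NN, ← integral_sub_right_eq_self (fun x => |mass ν r x - mass ν r (x - d')|) d,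
    ← integral_add (EntA_integrable_NN ν r d) ((EntA_integrable_NN ν r d').comp_sub_right d)]
  refine integral_mono (EntA_integrable_NN ν r _)
    ((EntA_integrable_NN ν r d).add ((EntA_integrable_NN ν r d').comp_sub_right d)) fun x => ?_
  rw [← sub_sub]
  exact abs_sub_le _ _ _

/-- `mass_add_right`, triangle inequality and translation invariance. -/
theorem NN_add_scale (ν : FM) {r r' : ℝ} (hr : 0 ≤ r) (hr' : 0 ≤ r') (d : ℝ) :
    NN ν (r + r') d ≤ NN ν r d + NN ν r' d := by
  rw [NN, NN, NN, ← integral_sub_right_eq_self (fun x => |mass ν r' x - mass ν r' (x - d)|) r,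
    ← integral_add (EntA_integrable_NN ν r d) ((EntA_integrable_NN ν r' d).comp_sub_right r)]
  refine integral_mono (EntA_integrable_NN ν _ d)
    ((EntA_integrable_NN ν r d).add ((EntA_integrable_NN ν r' d).comp_sub_right r)) fun x => ?_
  show |mass ν (r + r') x - mass ν (r + r') (x - d)| ≤
    |mass ν r x - mass ν r (x - d)| + |mass ν r' (x - r) - mass ν r' (x - r - d)|
  rw [mass_add_right ν hr hr', mass_add_right ν hr hr', sub_right_comm x d r, add_sub_add_comm]
  exact abs_add_le _ _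

/-- `kap_le`. -/
theorem JS_le_NN (ν : FM) {r : ℝ} (hr : 0 < r) (d : ℝ) :
    JS ν r d ≤ log 2 * (NN ν r d / (2 * r)) := by
  have h1 : ∫ x, kap (mass ν r x) (mass ν r (x - d)) ≤ log 2 / 2 * NN ν r d := by
    rw [NN, ← integral_const_mul]
    exact integral_mono (integrable_mass₂ ν ν r r d kap kap_zero)
      ((EntA_integrable_NN ν r d).const_mul _) fun x => kap_le (mass_nonneg _ _ _) (mass_nonneg _ _ _)
  refine (div_le_div_of_nonneg_right h1 hr.le).trans_eq ?_
  field_simp

/-- `abs_sub_le_kap` and `integral_mass`. -/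
theorem NN_le_JS (ν : FM) {r β : ℝ} (hr : 0 < r) (hβ : 0 < β) (d : ℝ) :
    NN ν r d / (2 * r) ≤ JS ν r d / β + β * tot ν := by
  have h1 := ((integrable_mass₂ ν ν r r d kap kap_zero).const_mul 2).div_const β
  have h2 : Integrable fun x => β * (mass ν r x + mass ν r (x - d)) :=
    ((integrable_mass ν r).add ((integrable_mass ν r).comp_sub_right d)).const_mul β
  have h3 : NN ν r d ≤ 2 * (∫ x, kap (mass ν r x) (mass ν r (x - d))) / β + β * (2 * r * tot ν) := by
    rw [← EntA_integral_add ν hr.le d, ← integral_const_mul, ← integral_const_mul, ← integral_div,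
      ← integral_add h1 h2]
    exact integral_mono (EntA_integrable_NN ν r d) (h1.add h2)
      fun x => abs_sub_le_kap (mass_nonneg _ _ _) (mass_nonneg _ _ _) hβ
  refine (div_le_div_of_nonneg_right h3 (by positivity)).trans_eq ?_
  rw [JS]
  field_simp

theorem Du_nonneg (ν : FM) (v : ℝ) : 0 ≤ Du ν v := JS_nonneg ν (exp_pos _).le _

theorem Du_le_Tu (ν : FM) (v : ℝ) : Du ν v ≤ log 2 * Tu ν v := JS_le_NN ν (exp_pos _) _

theorem Tu_nonneg (ν : FM) (v : ℝ) : 0 ≤ Tu ν v :=
  div_nonneg (NN_nonneg _ _ _) (by positivity)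

theorem Tu_le (ν : FM) (v : ℝ) : Tu ν v ≤ tot ν := by
  rw [Tu, div_le_iff₀ (by positivity)]
  exact (NN_le_scale ν (exp_pos _).le _).trans_eq (by ring)

theorem Du_le (ν : FM) (v : ℝ) : Du ν v ≤ log 2 * tot ν :=
  (Du_le_Tu ν v).trans (mul_le_mul_of_nonneg_left (Tu_le ν v) (log_nonneg one_le_two))

theorem Du_eq (ν : FM) (v : ℝ) : Du ν v = tot ν * log 2 - Hu ν v + Hu ν (v - log 2) := by
  rw [Du, JS_self ν (exp_pos _), Hu, Hu, neg_sub, sub_eq_add_neg (log 2), exp_add,
    exp_log two_pos]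

theorem Du_sc {ρ : ℝ} (hρ : ρ ≠ 0) (ν : FM) (v : ℝ) : Du (sc ρ ν) v = Du ν (v + log |ρ|) := by
  have h : exp (-(v + log |ρ|)) = exp (-v) / |ρ| := by
    rw [neg_add, exp_add, exp_neg (log _), exp_log (abs_pos.2 hρ), div_eq_mul_inv]
  rw [Du, Du, JS_sc hρ, ← JS_abs, abs_div, abs_of_pos (exp_pos _), h]

theorem Du_mul_le (ξ θ : FM) (v : ℝ) : Du (ξ * θ) v ≤ tot ξ * Du θ v :=
  JS_mul_le ξ θ (exp_pos _).le _

end Crest.Agent.R98
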