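import Crest.Agent.R98.EntA

/-!
# R98: bounds for `Hs`, measurability in the scale, `HH` and `DD`
-/

set_option autoImplicit false

open scoped NNReal
open Real MeasureTheory

namespace Crest.Agent.R98

/-- `negMulLog_nonneg`, `mass_le_tot`. -/
theorem Hs_nonneg {ν : FM} (hν : tot ν ≤ 1) {r : ℝ} (hr : 0 ≤ r) : 0 ≤ Hs ν r := by
  exact div_nonneg (integral_nonneg fun x =>
    negMulLog_nonneg (mass_nonneg _ _ _) ((mass_le_tot _ _ _).trans hν)) hr

theorem EntB_negMulLog_sum_le {ι : Type*} (s : Finset ι) (f : ι → ℝ) (hf : ∀ i ∈ s, 0 ≤ f i) :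
    negMulLog (∑ i ∈ s, f i) ≤ ∑ i ∈ s, negMulLog (f i) := by
  classical
  induction s using Finset.induction_on with
  | empty => simp
  | insert i s hi ih =>
    rw [Finset.sum_insert hi, Finset.sum_insert hi]
    have h1 : ∀ j ∈ s, 0 ≤ f j := fun j hj => hf j (Finset.mem_insert_of_mem hj)
    exact (negMulLog_add_le (hf i (Finset.mem_insert_self _ _)) (Finset.sum_nonneg h1)).trans
      (add_le_add le_rfl (ih h1))

theorem EntB_ex_neg_log (ν : FM) : ex ν (fun y => -log (ν.coeff y)) = ent ν := by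
  simp [ex_eq_sum, ent, Finsupp.sum, negMulLog]

theorem EntB_term (p : Prop) [Decidable p] (c : ℝ) :
    negMulLog (c * if p then 1 else 0) = c * if p then -log c else 0 := by
  split_ifs <;> simp [negMulLog]

/-- Pointwise `negMulLog (∑ c_y 1_y) ≤ ∑ negMulLog (c_y) 1_y` (`negMulLog_add_le`, induction on the
finite sum); each indicator integrates to `r`. -/
theorem Hs_le_ent (ν : FM) {r : ℝ} (hr : 0 < r) : Hs ν r ≤ ent ν := by
  obtain ⟨h1, h2⟩ := integral_window ν hr.le fun y => -log (ν.coeff y)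
  rw [Hs, div_le_iff₀ hr, ← EntB_ex_neg_log, mul_comm, ← h2]
  refine integral_mono (integrable_mass₁ ν r negMulLog negMulLog_zero) h1 fun x => ?_
  simp only [mass, ex_eq_sum, ← EntB_term]
  exact EntB_negMulLog_sum_le _ _ fun y _ => by split_ifs <;> simp

/-- When `r` is at most every gap between distinct atoms, a window `(x - r, x]` holds at most one
atom, and the pointwise inequality of `Hs_le_ent` is an equality. -/
theorem Hs_eq_ent (ν : FM) : ∃ r₀, 0 < r₀ ∧ ∀ r, 0 < r → r ≤ r₀ → Hs ν r = ent ν := by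
  obtain ⟨r₀, h0, h1⟩ : ∃ r₀, 0 < r₀ ∧ ∀ p ∈ ν.coeff.support.offDiag, r₀ ≤ |p.1 - p.2| := by
    rcases ν.coeff.support.offDiag.eq_empty_or_nonempty with h | h
    · exact ⟨1, one_pos, by simp [h]⟩
    · obtain ⟨p, hp, hmin⟩ := Finset.exists_min_image _ (fun p : ℝ × ℝ => |p.1 - p.2|) h
      exact ⟨_, abs_pos.2 (sub_ne_zero.2 (Finset.mem_offDiag.1 hp).2.2), hmin⟩
  refine ⟨r₀, h0, fun r hr hr' => ?_⟩
  obtain ⟨-, h2⟩ := integral_window ν hr.le fun y => -log (ν.coeff y)
  rw [Hs, div_eq_iff hr.ne', ← EntB_ex_neg_log, mul_comm, ← h2]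
  refine integral_congr_ae (Filter.Eventually.of_forall fun x => ?_)
  simp only [mass, ex_eq_sum, ← EntB_term]
  by_cases h : ∃ y ∈ ν.coeff.support, x - r < y ∧ y ≤ x
  · obtain ⟨y, hy, h3⟩ := h
    have h4 : ∀ z ∈ ν.coeff.support, z ≠ y → ¬ (x - r < z ∧ z ≤ x) := by
      intro z hz hne h5
      have h6 := h1 (z, y) (Finset.mem_offDiag.2 ⟨hz, hy, hne⟩)
      have h7 : |z - y| < r := abs_lt.2 ⟨by linarith [h3.2, h5.1], by linarith [h3.1, h5.2]⟩
      linarith
    rw [Finset.sum_eq_single_of_mem y hy fun z hz hne => by rw [if_neg (h4 z hz hne), mul_zero],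
      Finset.sum_eq_single_of_mem y hy fun z hz hne => by
        rw [if_neg (h4 z hz hne), mul_zero, negMulLog_zero]]
  · rw [Finset.sum_eq_zero fun z hz => by rw [if_neg fun h' => h ⟨z, hz, h'⟩, mul_zero],
      Finset.sum_eq_zero fun z hz => by
        rw [if_neg fun h' => h ⟨z, hz, h'⟩, mul_zero, negMulLog_zero], negMulLog_zero]

/-- `-c log c - c log n ≤ 1 / n - c` for each of the `n ≥ 1` atoms (`log x ≤ x - 1`). -/
theorem ent_le_log {ν : FM} (hν : tot ν = 1) : ent ν ≤ log (natoms ν) := by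
  have h1 : ∑ y ∈ ν.coeff.support, (ν.coeff y : ℝ) = 1 := by simpa [tot, ex_eq_sum] using hν
  have h2 : (0 : ℝ) < natoms ν := by
    refine Nat.cast_pos.2 (Finset.card_pos.2 ?_)
    by_contra h
    rw [Finset.not_nonempty_iff_eq_empty.1 h] at h1
    simp at h1
  have h3 : ∀ y ∈ ν.coeff.support, negMulLog (ν.coeff y : ℝ) ≤
      1 / natoms ν - ν.coeff y + ν.coeff y * log (natoms ν) := by
    intro y hy
    have hc : (0 : ℝ) < ν.coeff y := NNReal.coe_pos.2 (pos_iff_ne_zero.2 (Finsupp.mem_support_iff.1 hy))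
    have h4 := negMulLog_le_one_sub_self (mul_pos hc h2).le
    rw [negMulLog_mul, negMulLog, negMulLog] at h4
    rw [negMulLog, ← mul_le_mul_iff_right₀ h2]
    have h5 : (natoms ν : ℝ) * (1 / natoms ν) = 1 := by field_simp
    nlinarith
  refine (Finset.sum_le_sum h3).trans_eq ?_
  rw [Finset.sum_add_distrib, Finset.sum_sub_distrib, ← Finset.sum_mul, h1, Finset.sum_const,
    nsmul_eq_mul]
  have h5 : (ν.coeff.support.card : ℝ) * (1 / natoms ν) = 1 := by
    rw [mul_one_div]
    exact div_self h2.ne'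
  rw [h5]
  ring

/-- `negMulLog m ≤ 1` for `m ≥ 0`, and the integrand vanishes off `Icc (-R) (R + r)`. -/
theorem Hs_le_of_bdd {ν : FM} {R r : ℝ} (h : Bdd ν R) (hR : 0 ≤ R) (hr : 0 < r) :
    Hs ν r ≤ (2 * R + r) / r := by
  refine div_le_div_of_nonneg_right ?_ hr.le
  have h1 : ∫ x, (Set.Icc (-R) (R + r)).indicator (fun _ => (1 : ℝ)) x = 2 * R + r := by
    rw [integral_indicator measurableSet_Icc, setIntegral_const, Measure.real, Real.volume_Icc,
      ENNReal.toReal_ofReal (by linarith), smul_eq_mul]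
    ring
  rw [← h1]
  refine integral_mono (integrable_mass₁ ν r negMulLog negMulLog_zero)
    ((integrable_indicator_iff measurableSet_Icc).2
      (integrableOn_const (by rw [Real.volume_Icc]; exact ENNReal.ofReal_ne_top))) fun x => ?_
  by_cases hx : x ∈ Set.Icc (-R) (R + r)
  · rw [Set.indicator_of_mem hx]
    exact (negMulLog_le_one_sub_self (mass_nonneg _ _ _)).trans (by linarith [mass_nonneg ν r x])
  · rw [Set.indicator_of_notMem hx]
    show negMulLog (mass ν r x) ≤ 0
    rw [mass_eq_zero h hx, negMulLog_zero]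

/-- Jensen (`Real.concaveOn_negMulLog.le_map_sum`) pointwise. -/
theorem Hs_concave {ι : Type*} (s : Finset ι) (w : ι → ℝ≥0) (hw : ∑ i ∈ s, (w i : ℝ) = 1)
    (ν : ι → FM) {r : ℝ} (hr : 0 ≤ r) :
    ∑ i ∈ s, (w i : ℝ) * Hs (ν i) r ≤ Hs (∑ i ∈ s, w i • ν i) r := by
  simp only [Hs, ← mul_div_assoc, ← Finset.sum_div]
  refine div_le_div_of_nonneg_right ?_ hr
  simp only [← integral_const_mul]
  have hi : ∀ i ∈ s, Integrable fun x => (w i : ℝ) * negMulLog (mass (ν i) r x) := fun i _ =>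
    (integrable_mass₁ (ν i) r negMulLog negMulLog_zero).const_mul _
  rw [← integral_finsetSum _ hi]
  refine integral_mono (integrable_finsetSum _ hi)
    (integrable_mass₁ _ r negMulLog negMulLog_zero) fun x => ?_
  have h1 : mass (∑ i ∈ s, w i • ν i) r x = ∑ i ∈ s, (w i : ℝ) • mass (ν i) r x := by
    rw [mass, ex_sum]
    exact Finset.sum_congr rfl fun i _ => ex_smul _ _ _
  show ∑ i ∈ s, (w i : ℝ) • negMulLog (mass (ν i) r x) ≤ negMulLog (mass _ r x)
  rw [h1]
  exact concaveOn_negMulLog.le_map_sum (fun i _ => (w i).coe_nonneg) hw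
    fun i _ => mass_nonneg _ _ _

/-- `measurable_mass` and `StronglyMeasurable.integral_prod_right'`. -/
theorem measurable_Hs (ν : FM) : Measurable fun r => Hs ν r := by
  have h : StronglyMeasurable fun p : ℝ × ℝ => negMulLog (mass ν p.1 p.2) :=
    (continuous_negMulLog.measurable.comp (measurable_mass ν)).stronglyMeasurable
  exact (h.integral_prod_right' (ν := volume)).measurable.div measurable_id

theorem measurable_Hu (ν : FM) : Measurable (Hu ν) :=
  (measurable_Hs ν).comp (by fun_prop : Measurable fun v : ℝ => exp (-v))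

theorem measurable_Du (ν : FM) : Measurable (Du ν) := by
  have : Du ν = fun v => tot ν * log 2 - Hu ν v + Hu ν (v - log 2) := funext (Du_eq ν)
  rw [this]
  exact (measurable_const.sub (measurable_Hu ν)).add
    ((measurable_Hu ν).comp (measurable_id.sub_const _))

/-- A bounded measurable function is interval integrable. -/
theorem intervalIntegrable_of_bdd {f : ℝ → ℝ} (hf : Measurable f) {B : ℝ} (hB : ∀ v, |f v| ≤ B)
    (a b : ℝ) : IntervalIntegrable f volume a b :=
  (intervalIntegrable_const (c := B)).mono_fun' hf.aestronglyMeasurable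
    (Filter.Eventually.of_forall hB)

theorem intervalIntegrable_Du (ν : FM) (a b : ℝ) : IntervalIntegrable (Du ν) volume a b :=
  intervalIntegrable_of_bdd (measurable_Du ν)
    (fun v => (abs_of_nonneg (Du_nonneg ν v)).trans_le (Du_le ν v)) a b

theorem intervalIntegrable_Hu {ν : FM} (hν : tot ν ≤ 1) (a b : ℝ) :
    IntervalIntegrable (Hu ν) volume a b :=
  intervalIntegrable_of_bdd (measurable_Hu ν)
    (fun _ => (abs_of_nonneg (Hs_nonneg hν (exp_pos _).le)).trans_le (Hs_le_ent ν (exp_pos _))) a b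

/-- `Du_eq`, `intervalIntegral.integral_comp_sub_right`,
`intervalIntegral.integral_add_adjacent_intervals`. -/
theorem DD_eq {ν : FM} (hν : tot ν = 1) (y₁ y₂ : ℝ) :
    DD ν y₁ y₂ = (y₂ - y₁) * log 2 - HH ν y₂ + HH ν y₁ := by
  have hi := intervalIntegrable_Hu hν.le
  have hi' : IntervalIntegrable (fun v => Hu ν (v - log 2)) volume y₁ y₂ := by
    simpa using (hi (y₁ - log 2) (y₂ - log 2)).comp_sub_right (log 2)
  have h1 := intervalIntegral.integral_add_adjacent_intervals (hi (y₁ - log 2) y₁) (hi y₁ y₂)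
  have h2 := intervalIntegral.integral_add_adjacent_intervals (hi (y₁ - log 2) (y₂ - log 2))
    (hi (y₂ - log 2) y₂)
  simp only [DD, Du_eq, hν, one_mul]
  rw [intervalIntegral.integral_add (intervalIntegrable_const.sub (hi _ _)) hi',
    intervalIntegral.integral_sub intervalIntegrable_const (hi _ _),
    intervalIntegral.integral_const, intervalIntegral.integral_comp_sub_right (Hu ν), smul_eq_mul,
    HH, HH]
  linarith

@[simp] theorem DD_zero (y₁ y₂ : ℝ) : DD 0 y₁ y₂ = 0 := by simp [DD, Du]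

theorem DD_nonneg (ν : FM) {y₁ y₂ : ℝ} (h : y₁ ≤ y₂) : 0 ≤ DD ν y₁ y₂ :=
  intervalIntegral.integral_nonneg h fun v _ => Du_nonneg ν v

theorem DD_le (ν : FM) {y₁ y₂ : ℝ} (h : y₁ ≤ y₂) : DD ν y₁ y₂ ≤ (y₂ - y₁) * (log 2 * tot ν) := by
  have := intervalIntegral.integral_mono_on h (intervalIntegrable_Du ν _ _)
    (intervalIntegrable_const (c := log 2 * tot ν)) fun v _ => Du_le ν v
  rwa [intervalIntegral.integral_const, smul_eq_mul] at this

theorem DD_add_le (a b : FM) {y₁ y₂ : ℝ} (h : y₁ ≤ y₂) :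
    DD (a + b) y₁ y₂ ≤ DD a y₁ y₂ + DD b y₁ y₂ := by
  rw [DD, DD, DD, ← intervalIntegral.integral_add (intervalIntegrable_Du a _ _)
    (intervalIntegrable_Du b _ _)]
  exact intervalIntegral.integral_mono_on h (intervalIntegrable_Du _ _ _)
    ((intervalIntegrable_Du a _ _).add (intervalIntegrable_Du b _ _))
    fun v _ => JS_add_le a b (exp_pos _).le _

theorem DD_smul (c : ℝ≥0) (a : FM) (y₁ y₂ : ℝ) : DD (c • a) y₁ y₂ = c * DD a y₁ y₂ := by
  simp only [DD, Du, JS_smul, intervalIntegral.integral_const_mul]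

theorem DD_dir_mul (y : ℝ) (a : FM) (y₁ y₂ : ℝ) : DD (dir y * a) y₁ y₂ = DD a y₁ y₂ := by
  simp only [DD, Du, JS_dir_mul]

theorem DD_mul_le (ξ θ : FM) {y₁ y₂ : ℝ} (h : y₁ ≤ y₂) :
    DD (ξ * θ) y₁ y₂ ≤ tot ξ * DD θ y₁ y₂ :=
  le_tot_mul (Φ := fun a => DD a y₁ y₂) (by simp) (fun a b => DD_add_le a b h)
    (fun y c => by rw [DD_smul, DD_dir_mul]) ξ

/-- `Du_sc`, `intervalIntegral.integral_comp_add_right`. -/
theorem DD_sc {ρ : ℝ} (hρ : ρ ≠ 0) (ν : FM) (y₁ y₂ : ℝ) :
    DD (sc ρ ν) y₁ y₂ = DD ν (y₁ + log |ρ|) (y₂ + log |ρ|) := by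
  simp only [DD, Du_sc hρ]
  exact intervalIntegral.integral_comp_add_right (Du ν) _

theorem HH_nonneg {ν : FM} (hν : tot ν ≤ 1) (y : ℝ) : 0 ≤ HH ν y := by
  exact intervalIntegral.integral_nonneg (by linarith [log_nonneg one_le_two])
    fun v _ => Hs_nonneg hν (exp_pos _).le

theorem EntB_HH_le {ν : FM} (hν : tot ν ≤ 1) {y B : ℝ}
    (h : ∀ v ∈ Set.Icc (y - log 2) y, Hu ν v ≤ B) : HH ν y ≤ log 2 * B := by
  have := intervalIntegral.integral_mono_on (by linarith [log_nonneg one_le_two])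
    (intervalIntegrable_Hu hν _ _) (intervalIntegrable_const (c := B)) h
  rwa [intervalIntegral.integral_const, smul_eq_mul, sub_sub_cancel] at this

/-- `Hs_le_ent`, `ent_le_log`. -/
theorem HH_le_log {ν : FM} (hν : tot ν = 1) (y : ℝ) : HH ν y ≤ log 2 * log (natoms ν) := by
  exact EntB_HH_le hν.le fun v _ => (Hs_le_ent ν (exp_pos _)).trans (ent_le_log hν)

/-- `Hs_eq_ent`. -/
theorem HH_eq_ent (ν : FM) : ∀ᶠ y in Filter.atTop, HH ν y = log 2 * ent ν := by
  obtain ⟨r₀, h0, h1⟩ := Hs_eq_ent ν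
  filter_upwards [Filter.eventually_ge_atTop (log 2 - log r₀)] with y hy
  have h2 : y - log 2 ≤ y := by linarith [log_nonneg one_le_two]
  rw [HH, intervalIntegral.integral_congr (g := fun _ => ent ν), intervalIntegral.integral_const,
    smul_eq_mul, sub_sub_cancel]
  intro v hv
  rw [Set.uIcc_of_le h2] at hv
  refine h1 _ (exp_pos _) ?_
  rw [← le_log_iff_exp_le h0]
  linarith [hv.1]

/-- `Hs_le_of_bdd` with `r = exp (-v) ≥ 1`. -/
theorem HH_zero_le {ν : FM} (hν : tot ν = 1) {R : ℝ} (h : Bdd ν R) (hR : 0 ≤ R) :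
    HH ν 0 ≤ log 2 * (2 * R + 1) := by
  refine EntB_HH_le hν.le fun v hv => (Hs_le_of_bdd h hR (exp_pos _)).trans ?_
  have h1 : 1 ≤ exp (-v) := one_le_exp (by linarith [hv.2])
  rw [div_le_iff₀ (exp_pos _)]
  nlinarith

/-- `DD_eq` with `DD_nonneg` (if `y₁ ≤ y₂`) or `DD_le` (if `y₂ ≤ y₁`). -/
theorem HH_le_add {ν : FM} (hν : tot ν = 1) (y₁ y₂ : ℝ) :
    HH ν y₂ ≤ HH ν y₁ + log 2 * |y₂ - y₁| := by
  rcases le_total y₁ y₂ with h | h
  · have h1 := DD_nonneg ν h
    rw [DD_eq hν] at h1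
    rw [abs_of_nonneg (by linarith)]
    linarith
  · have h1 := DD_le ν h
    rw [DD_eq hν, hν] at h1
    have h2 : 0 ≤ log 2 * |y₂ - y₁| := mul_nonneg (log_nonneg one_le_two) (abs_nonneg _)
    linarith

theorem integral_deficit {ν : FM} (hν : tot ν = 1) (y₁ y₂ : ℝ) :
    ∫ v in y₁..y₂, (log 2 - Du ν v) = HH ν y₂ - HH ν y₁ := by
  rw [intervalIntegral.integral_sub intervalIntegrable_const (intervalIntegrable_Du ν _ _),
    intervalIntegral.integral_const, smul_eq_mul, ← DD, DD_eq hν]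
  ring

/-- **Gibbs inequality.** With `m x = mass P q x`, pointwise
`ex P (fun y => if x - q < y ∧ y ≤ x then g y else 0) ≤ m x * (g x + L)` and
`m * g x ≤ m * log I - negMulLog m + exp (g x) / I - m` (from `log u ≤ u - 1` at
`u = exp (g x) / (I m)`; `m = 0` is separate). Integrate with `integral_window`, `integral_mass`
(no integrability of `m * g` is needed) and divide by `q`. -/
theorem gibbs {P : FM} (hP : tot P = 1) {q I L : ℝ} (hq : 0 < q) (hI : 0 < I) {g : ℝ → ℝ}
    (hg : ∀ x y, |x - y| ≤ q → g y ≤ g x + L) (hi : Integrable fun x => exp (g x))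
    (hint : ∫ x, exp (g x) ≤ I * q) : ex P g ≤ log I + L - Hs P q := by
  obtain ⟨h1, h2⟩ := integral_window P hq.le g
  have hm := integrable_mass P q
  have hn := integrable_mass₁ P q negMulLog negMulLog_zero
  have key : ∀ x, (ex P fun y => if x - q < y ∧ y ≤ x then g y else 0) ≤
      (log I + L - 1) * mass P q x - negMulLog (mass P q x) + exp (g x) / I := by
    intro x
    have h3 : (ex P fun y => if x - q < y ∧ y ≤ x then g y else 0) ≤ (g x + L) * mass P q x := by
      rw [mass, ← ex_fun_mul]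
      refine ex_mono fun y _ => ?_
      split_ifs with h
      · rw [mul_one]
        exact hg x y (abs_le.2 ⟨by linarith [h.2], by linarith [h.1]⟩)
      · simp
    refine h3.trans ?_
    rcases (mass_nonneg P q x).eq_or_lt with h | h
    · rw [← h]
      simp only [mul_zero, negMulLog_zero, sub_zero, zero_add]
      positivity
    · have h4 := log_le_sub_one_of_pos (x := exp (g x) / (I * mass P q x)) (by positivity)
      rw [log_div (exp_pos _).ne' (by positivity), log_exp, log_mul hI.ne' h.ne'] at h4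
      have h5 := mul_le_mul_of_nonneg_left h4 h.le
      have h6 : mass P q x * (exp (g x) / (I * mass P q x)) = exp (g x) / I := by field_simp
      rw [negMulLog]
      nlinarith
  have h3 := integral_mono h1 (((hm.const_mul (log I + L - 1)).sub hn).add (hi.div_const I)) key
  rw [h2] at h3
  have h4 : ∫ x, ((log I + L - 1) * mass P q x - negMulLog (mass P q x) + exp (g x) / I) =
      (log I + L - 1) * q - q * Hs P q + (∫ x, exp (g x)) / I := by
    have hs : Integrable fun x => (log I + L - 1) * mass P q x - negMulLog (mass P q x) :=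
      (hm.const_mul _).sub hn
    rw [integral_add hs (hi.div_const I), integral_sub (hm.const_mul _) hn,
      integral_const_mul, integral_mass P hq.le, hP, integral_div, Hs, mul_one,
      mul_div_cancel₀ _ hq.ne']
  have h5 : (∫ x, exp (g x)) / I ≤ q := by
    rw [div_le_iff₀ hI, mul_comm]
    exact hint
  have h6 : q * ex P g ≤ q * (log I + L - Hs P q) := by
    refine (h3.trans_eq h4).trans ?_
    linarith
  exact le_of_mul_le_mul_left h6 hq

end Crest.Agent.R98
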