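import Crest.Agent.R98.EntB

/-!
# R98: the random environment of contraction ratios

A word `τ` of types is drawn with i.i.d. letters; `nu τ` is the law of the image of `0` under the
composed map, given the types.
-/

set_option autoImplicit false

open scoped NNReal
open Real MeasureTheory Filter Topology

namespace Crest.Agent.R98

/-- A finite family of contraction ratios with weights and laws of the translation part. -/
structure Model (T : Type) [Fintype T] where
  pr : T → ℝ
  ρ : T → ℝ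
  η : T → FM
  amin : ℝ
  amax : ℝ
  R : ℝ
  m : ℕ
  pr_nonneg : ∀ θ, 0 ≤ pr θ
  pr_sum : ∑ θ, pr θ = 1
  ρ_ne : ∀ θ, ρ θ ≠ 0
  amin_pos : 0 < amin
  amin_le : ∀ θ, amin ≤ -log |ρ θ|
  le_amax : ∀ θ, -log |ρ θ| ≤ amax
  tot_η : ∀ θ, tot (η θ) = 1
  natoms_η : ∀ θ, natoms (η θ) ≤ m
  R_nonneg : 0 ≤ R
  bdd_η : ∀ θ, Bdd (η θ) ((1 - |ρ θ|) * R)

namespace Model

variable {T : Type} [Fintype T] (M : Model T)

/-- Logarithmic contraction of a letter. -/
noncomputable def a (θ : T) : ℝ := -log |M.ρ θ|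

/-- Lyapunov exponent. -/
noncomputable def chi : ℝ := ∑ θ, M.pr θ * M.a θ

/-- Expectation over words of length `n`. -/
noncomputable def E : ℕ → (List T → ℝ) → ℝ
  | 0, f => f []
  | n + 1, f => ∑ θ, M.pr θ * E n fun τ => f (θ :: τ)

/-- The measure of a word. -/
noncomputable def nu : List T → FM
  | [] => 1
  | θ :: τ => M.η θ * sc (M.ρ θ) (nu τ)

/-- The contraction ratio of a word. -/
noncomputable def lam (τ : List T) : ℝ := (τ.map M.ρ).prod

/-- The logarithmic contraction of a word. -/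
noncomputable def A (τ : List T) : ℝ := (τ.map M.a).sum

theorem amin_le_a (θ : T) : M.amin ≤ M.a θ := M.amin_le θ
theorem a_le_amax (θ : T) : M.a θ ≤ M.amax := M.le_amax θ
theorem a_pos (θ : T) : 0 < M.a θ := M.amin_pos.trans_le (M.amin_le θ)

theorem sum_pr_mul (c : ℝ) : ∑ θ, M.pr θ * c = c := by rw [← Finset.sum_mul, M.pr_sum, one_mul]

theorem sum_pr_mono {f g : T → ℝ} (h : ∀ θ, f θ ≤ g θ) :
    ∑ θ, M.pr θ * f θ ≤ ∑ θ, M.pr θ * g θ :=
  Finset.sum_le_sum fun θ _ => mul_le_mul_of_nonneg_left (h θ) (M.pr_nonneg θ)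

theorem amin_le_chi : M.amin ≤ M.chi := (M.sum_pr_mul _).ge.trans (M.sum_pr_mono M.amin_le_a)
theorem chi_le_amax : M.chi ≤ M.amax := (M.sum_pr_mono M.a_le_amax).trans (M.sum_pr_mul _).le
theorem chi_pos : 0 < M.chi := M.amin_pos.trans_le M.amin_le_chi
theorem amax_pos : 0 < M.amax := M.chi_pos.trans_le M.chi_le_amax

@[simp] theorem E_zero (f : List T → ℝ) : M.E 0 f = f [] := rfl

theorem E_succ (n : ℕ) (f : List T → ℝ) :
    M.E (n + 1) f = ∑ θ, M.pr θ * M.E n fun τ => f (θ :: τ) := rfl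

theorem E_mono {n : ℕ} {f g : List T → ℝ} (h : ∀ τ, τ.length = n → f τ ≤ g τ) :
    M.E n f ≤ M.E n g := by
  induction n generalizing f g with
  | zero => exact h [] rfl
  | succ n ih => exact M.sum_pr_mono fun θ => ih fun τ hτ => h _ (by simp [hτ])

theorem E_congr {n : ℕ} {f g : List T → ℝ} (h : ∀ τ, τ.length = n → f τ = g τ) :
    M.E n f = M.E n g :=
  le_antisymm (M.E_mono fun τ hτ => (h τ hτ).le) (M.E_mono fun τ hτ => (h τ hτ).ge)

@[simp] theorem E_const (n : ℕ) (c : ℝ) : M.E n (fun _ => c) = c := by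
  induction n with
  | zero => rfl
  | succ n ih => rw [E_succ, ih, sum_pr_mul]

theorem E_add (n : ℕ) (f g : List T → ℝ) : M.E n (fun τ => f τ + g τ) = M.E n f + M.E n g := by
  induction n generalizing f g with
  | zero => rfl
  | succ n ih => simp only [E_succ, ih, mul_add, Finset.sum_add_distrib]

theorem E_mul (n : ℕ) (c : ℝ) (f : List T → ℝ) : M.E n (fun τ => c * f τ) = c * M.E n f := by
  induction n generalizing f with
  | zero => rfl
  | succ n ih => simp only [E_succ, ih, Finset.mul_sum, mul_left_comm]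

theorem E_sub (n : ℕ) (f g : List T → ℝ) : M.E n (fun τ => f τ - g τ) = M.E n f - M.E n g := by
  induction n generalizing f g with
  | zero => rfl
  | succ n ih => simp only [E_succ, ih, mul_sub, Finset.sum_sub_distrib]

theorem E_le {n : ℕ} {f : List T → ℝ} {c : ℝ} (h : ∀ τ, τ.length = n → f τ ≤ c) : M.E n f ≤ c :=
  (M.E_mono h).trans_eq (M.E_const n c)

theorem le_E {n : ℕ} {f : List T → ℝ} {c : ℝ} (h : ∀ τ, τ.length = n → c ≤ f τ) : c ≤ M.E n f :=
  (M.E_const n c).ge.trans (M.E_mono h)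

theorem E_append (n k : ℕ) (f : List T → ℝ) :
    M.E (n + k) f = M.E n fun σ => M.E k fun τ => f (σ ++ τ) := by
  induction n generalizing f with
  | zero => simp
  | succ n ih => rw [Nat.add_right_comm, E_succ, E_succ]; simp only [ih, List.cons_append]

theorem measurable_E {X : Type*} [MeasurableSpace X] (n : ℕ) {f : X → List T → ℝ}
    (hf : ∀ τ, Measurable fun x => f x τ) : Measurable fun x => M.E n (f x) := by
  induction n generalizing f with
  | zero => exact hf []
  | succ n ih =>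
    exact Finset.measurable_sum _ fun θ _ =>
      (ih (f := fun x τ => f x (θ :: τ)) fun τ => hf _).const_mul _

theorem intervalIntegrable_E (n : ℕ) {f : ℝ → List T → ℝ} {y₁ y₂ : ℝ}
    (hf : ∀ τ, IntervalIntegrable (fun x => f x τ) volume y₁ y₂) :
    IntervalIntegrable (fun x => M.E n (f x)) volume y₁ y₂ := by
  induction n generalizing f with
  | zero => exact hf []
  | succ n ih =>
    have := IntervalIntegrable.sum (Finset.univ : Finset T) fun θ _ =>
      (ih (f := fun x τ => f x (θ :: τ)) fun τ => hf _).const_mul (M.pr θ)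
    rwa [Finset.sum_fn] at this

theorem integral_E (n : ℕ) {f : ℝ → List T → ℝ} {y₁ y₂ : ℝ}
    (hf : ∀ τ, IntervalIntegrable (fun x => f x τ) volume y₁ y₂) :
    ∫ x in y₁..y₂, M.E n (f x) = M.E n fun τ => ∫ x in y₁..y₂, f x τ := by
  induction n generalizing f with
  | zero => rfl
  | succ n ih =>
    simp only [E_succ]
    rw [intervalIntegral.integral_finsetSum fun θ _ =>
      (M.intervalIntegrable_E n (f := fun x τ => f x (θ :: τ)) fun τ => hf _).const_mul (M.pr θ)]
    refine Finset.sum_congr rfl fun θ _ => ?_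
    rw [intervalIntegral.integral_const_mul, ih (f := fun x τ => f x (θ :: τ)) fun τ => hf _]

theorem E_eventually {X : Type*} {l : Filter X} (n : ℕ) {f : X → List T → ℝ} {g : List T → ℝ}
    (h : ∀ τ, ∀ᶠ x in l, f x τ = g τ) : ∀ᶠ x in l, M.E n (f x) = M.E n g := by
  induction n generalizing f g with
  | zero => exact h []
  | succ n ih =>
    filter_upwards [eventually_all.2 fun θ =>
      ih (f := fun x τ => f x (θ :: τ)) (g := fun τ => g (θ :: τ)) fun τ => h _] with x hx
    simp only [E_succ, hx]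

@[simp] theorem nu_nil : M.nu [] = 1 := rfl
theorem nu_cons (θ : T) (τ : List T) : M.nu (θ :: τ) = M.η θ * sc (M.ρ θ) (M.nu τ) := rfl
@[simp] theorem lam_nil : M.lam [] = 1 := rfl
theorem lam_cons (θ : T) (τ : List T) : M.lam (θ :: τ) = M.ρ θ * M.lam τ := by simp [lam]
@[simp] theorem A_nil : M.A [] = 0 := rfl
theorem A_cons (θ : T) (τ : List T) : M.A (θ :: τ) = M.a θ + M.A τ := by simp [A]

theorem tot_nu (τ : List T) : tot (M.nu τ) = 1 := by
  induction τ with
  | nil => simp
  | cons θ τ ih => rw [nu_cons, tot_mul, tot_sc, ih, M.tot_η, mul_one]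

theorem nu_append (σ τ : List T) : M.nu (σ ++ τ) = M.nu σ * sc (M.lam σ) (M.nu τ) := by
  induction σ with
  | nil => simp
  | cons θ σ ih => rw [List.cons_append, nu_cons, nu_cons, ih, map_mul, sc_sc, lam_cons, mul_assoc]

theorem lam_ne (σ : List T) : M.lam σ ≠ 0 := by
  induction σ with
  | nil => simp
  | cons θ σ ih => rw [lam_cons]; exact mul_ne_zero (M.ρ_ne θ) ih

theorem log_lam (σ : List T) : log |M.lam σ| = -M.A σ := by
  induction σ with
  | nil => simp
  | cons θ σ ih =>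
    rw [lam_cons, A_cons, abs_mul, log_mul (abs_ne_zero.2 (M.ρ_ne θ)) (abs_ne_zero.2 (M.lam_ne σ)),
      ih, a]
    ring

theorem abs_lam (σ : List T) : |M.lam σ| = exp (-M.A σ) := by
  rw [← log_lam, exp_log (abs_pos.2 (M.lam_ne σ))]

theorem abs_ρ (θ : T) : |M.ρ θ| = exp (-M.a θ) := by
  rw [a, neg_neg, exp_log (abs_pos.2 (M.ρ_ne θ))]

theorem le_A (σ : List T) : σ.length * M.amin ≤ M.A σ := by
  induction σ with
  | nil => simp
  | cons θ σ ih => rw [A_cons, List.length_cons]; push_cast; linarith [M.amin_le_a θ]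

theorem A_le (σ : List T) : M.A σ ≤ σ.length * M.amax := by
  induction σ with
  | nil => simp
  | cons θ σ ih => rw [A_cons, List.length_cons]; push_cast; linarith [M.a_le_amax θ]

theorem A_nonneg (σ : List T) : 0 ≤ M.A σ :=
  (mul_nonneg (Nat.cast_nonneg _) M.amin_pos.le).trans (M.le_A σ)

theorem bdd_nu (τ : List T) : Bdd (M.nu τ) M.R := by
  induction τ with
  | nil =>
    intro y hy
    have : y = 0 := by simpa [AddMonoidAlgebra.one_def] using hy
    simpa [this] using M.R_nonneg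
  | cons θ τ ih =>
    have := (M.bdd_η θ).mul_sc (ρ := M.ρ θ) ih
    rwa [show (1 - |M.ρ θ|) * M.R + |M.ρ θ| * M.R = M.R by ring] at this

theorem natoms_nu_pow (τ : List T) (k : ℕ) :
    natoms (M.nu τ ^ k) ≤ (k + 1) ^ (M.m * τ.length) := by
  induction τ with
  | nil => simp [natoms, AddMonoidAlgebra.one_def]
  | cons θ τ ih =>
    rw [nu_cons, mul_pow, ← map_pow, List.length_cons, Nat.mul_succ, pow_add, mul_comm]
    refine (natoms_mul_le _ _).trans (Nat.mul_le_mul ((natoms_sc_le _ _).trans ih) ?_)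
    exact (natoms_pow_le _ _).trans (Nat.pow_le_pow_right (Nat.succ_pos k) (M.natoms_η θ))

theorem log_natoms_nu_pow (τ : List T) (k : ℕ) :
    log (natoms (M.nu τ ^ k)) ≤ (M.m * τ.length : ℝ) * log (k + 1) := by
  rcases Nat.eq_zero_or_pos (natoms (M.nu τ ^ k)) with h | h
  · rw [h, Nat.cast_zero, log_zero]
    exact mul_nonneg (by positivity) (log_nonneg (by linarith [(Nat.cast_nonneg k : (0 : ℝ) ≤ k)]))
  · refine (log_le_log (by exact_mod_cast h) (Nat.cast_le.2 (M.natoms_nu_pow τ k))).trans_eq ?_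
    push_cast
    rw [log_pow]
    push_cast
    rfl

theorem E_A (n : ℕ) : M.E n M.A = n * M.chi := by
  induction n with
  | zero => simp
  | succ n ih =>
    simp only [E_succ, A_cons, E_add, E_const, ih, mul_add, Finset.sum_add_distrib, sum_pr_mul]
    rw [← chi]
    push_cast
    ring

theorem E_var (n : ℕ) : M.E n (fun τ => (M.A τ - n * M.chi) ^ 2) ≤ n * M.amax ^ 2 := by
  induction n with
  | zero => simp
  | succ n ih =>
    have h (θ : T) : M.E n (fun τ => (M.A (θ :: τ) - (n + 1 : ℕ) * M.chi) ^ 2)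
        ≤ (n + 1 : ℕ) * M.amax ^ 2 := by
      have e : (fun τ => (M.A (θ :: τ) - (n + 1 : ℕ) * M.chi) ^ 2) = fun τ =>
          (M.A τ - n * M.chi) ^ 2 + (2 * (M.a θ - M.chi) * (M.A τ - n * M.chi)
            + (M.a θ - M.chi) ^ 2) := by
        funext τ; rw [A_cons]; push_cast; ring
      rw [e, E_add, E_add, E_mul, E_sub, E_A, E_const, E_const]
      have h1 : (M.a θ - M.chi) ^ 2 ≤ M.amax ^ 2 :=
        sq_le_sq' (by linarith [M.a_pos θ, M.chi_le_amax]) (by linarith [M.a_le_amax θ, M.chi_pos])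
      push_cast
      linarith
    exact (M.sum_pr_mono h).trans_eq (M.sum_pr_mul _)

theorem E_abs_le (n : ℕ) {b : ℝ} (hb : 0 < b) :
    M.E n (fun τ => |M.A τ - n * M.chi|) ≤ n * M.amax ^ 2 / b + b := by
  have h (τ : List T) : |M.A τ - n * M.chi| ≤ b⁻¹ * (M.A τ - n * M.chi) ^ 2 + b := by
    rw [← sq_abs, ← sub_nonneg]
    have : b⁻¹ * |M.A τ - n * M.chi| ^ 2 + b - |M.A τ - n * M.chi|
        = b⁻¹ * ((|M.A τ - n * M.chi| - b / 2) ^ 2 + 3 / 4 * b ^ 2) := by field_simp; ring
    rw [this]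
    positivity
  refine (M.E_mono fun τ _ => h τ).trans ?_
  rw [E_add, E_mul, E_const, div_eq_inv_mul]
  gcongr
  exact M.E_var n

/-- Induction along the renewal process. -/
theorem renewal {P : ℝ → Prop} (y₀ : ℝ) (h0 : ∀ y, y₀ - M.amax ≤ y → y ≤ y₀ → P y)
    (h1 : ∀ y, y₀ < y → (∀ θ, P (y - M.a θ)) → P y) {y : ℝ} (hy : y₀ - M.amax ≤ y) : P y := by
  have key (j : ℕ) : ∀ y, y₀ - M.amax ≤ y → y ≤ y₀ + j * M.amin → P y := by
    induction j with
    | zero => intro y h h'; exact h0 y h (by simpa using h')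
    | succ j ih =>
      intro y h h'
      rcases le_or_gt y y₀ with h2 | h2
      · exact h0 y h h2
      · refine h1 y h2 fun θ => ih _ (by linarith [M.a_le_amax θ]) ?_
        push_cast at h'
        linarith [M.amin_le_a θ]
  obtain ⟨j, hj⟩ := exists_nat_ge ((y - y₀) / M.amin)
  rw [div_le_iff₀ M.amin_pos] at hj
  exact key j y hy (by linarith)

theorem DD_cons_le (ξ : FM) (hξ : tot ξ = 1) {ρ : ℝ} (hρ : ρ ≠ 0) (ν : FM) {y₁ y₂ : ℝ}
    (h : y₁ ≤ y₂) : DD (ξ * sc ρ ν) y₁ y₂ ≤ DD ν (y₁ + log |ρ|) (y₂ + log |ρ|) := by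
  simpa [hξ, DD_sc hρ] using DD_mul_le ξ (sc ρ ν) h

end Model

end Crest.Agent.R98
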