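import Crest.Prelude.Def_SelfSimilar
import Crest.Agent.R98.Basic

/-!
# R98: basic facts on self-similar measures; the discrete approximations `PN`
-/

set_option autoImplicit false

open scoped NNReal
open Real MeasureTheory Crest.AnalysisR

namespace Crest.Agent.R98

variable {ι : Type*} [Fintype ι]

/-- The law of the image of `0` under the composition of `N` random maps. -/
noncomputable def PN (r t p : ι → ℝ) : ℕ → FM
  | 0 => 1
  | N + 1 => ∑ i, (p i).toNNReal • (dir (t i) * sc (r i) (PN r t p N))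

/-- Take `R = ∑ i, |t i| / (1 - |r i|) + 1`. -/
theorem exists_invariant {r : ι → ℝ} (t : ι → ℝ) (hr : ∀ i, |r i| < 1) :
    ∃ R : ℝ, 1 ≤ R ∧ ∀ i, |t i| < (1 - |r i|) * R := by
  have h0 : ∀ i, 0 ≤ |t i| / (1 - |r i|) := fun i => div_nonneg (abs_nonneg _) (by linarith [hr i])
  refine ⟨∑ i, |t i| / (1 - |r i|) + 1, le_add_of_nonneg_left (Finset.sum_nonneg fun i _ => h0 i),
    fun i => ?_⟩
  have h1 : |t i| / (1 - |r i|) ≤ ∑ i, |t i| / (1 - |r i|) :=
    Finset.single_le_sum (fun i _ => h0 i) (Finset.mem_univ i)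
  have h2 : 0 < 1 - |r i| := by linarith [hr i]
  rw [← div_lt_iff₀' h2]
  linarith

/-- Let `κ < 1` bound all `|r i|` and `f x = μ {z | x < |z|}`. If `x ≥ R` and
`x < |r i z + t i|` then `|z| > R + (x - R) / κ`; self-similarity gives
`f x ≤ f (R + (x - R) / κ)` for `x > R`, so `f x ≤ f (R + (x - R) / κ ^ n) → 0`. Apply this with a
slightly smaller invariant radius `R' < R` (the inequalities in `hR` are strict), or use
`{z | R < |z|} = ⋃ n, {z | R + 1 / (n + 1) < |z|}`. -/
theorem ae_abs_le {r t p : ι → ℝ} (hr : ∀ i, |r i| < 1) (hp : ∀ i, 0 ≤ p i) (hp₁ : ∑ i, p i = 1)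
    {μ : Measure ℝ} (hμ : IsSelfSimilarMeasure r t p μ) {R : ℝ}
    (hR : ∀ i, |t i| < (1 - |r i|) * R) : ∀ᵐ z ∂μ, |z| ≤ R := by
  have := hμ.1
  obtain ⟨κ, hκ0, hκ1, hκ⟩ : ∃ κ : ℝ, 0 < κ ∧ κ < 1 ∧ ∀ i, |r i| ≤ κ := by
    rcases isEmpty_or_nonempty ι with h | h
    · exact ⟨1 / 2, by norm_num, by norm_num, fun i => isEmptyElim i⟩
    · obtain ⟨i₁, hi₁⟩ := Finite.exists_max fun i => |r i|
      exact ⟨max |r i₁| (1 / 2), lt_max_of_lt_right (by norm_num), max_lt (hr i₁) (by norm_num),
        fun i => (hi₁ i).trans (le_max_left _ _)⟩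
  have hmeas : ∀ x : ℝ, MeasurableSet {z : ℝ | x < |z|} := fun x =>
    measurableSet_lt measurable_const (by fun_prop)
  have step : ∀ u : ℝ, 0 < u → μ {z | R + u < |z|} ≤ μ {z | R + u / κ < |z|} := by
    intro u hu
    conv_lhs => rw [hμ.2]
    rw [Measure.finsetSum_apply]
    calc ∑ i, (ENNReal.ofReal (p i) • μ.map fun x : ℝ => r i * x + t i) {z | R + u < |z|}
        ≤ ∑ i, ENNReal.ofReal (p i) * μ {z | R + u / κ < |z|} := by
          refine Finset.sum_le_sum fun i _ => ?_
          rw [Measure.smul_apply, smul_eq_mul, Measure.map_apply (by fun_prop) (hmeas _)]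
          refine mul_le_mul_right (measure_mono fun z hz => ?_) _
          have hz' : R + u < |r i * z + t i| := hz
          by_contra hc
          have hc' : |z| ≤ R + u / κ := not_lt.1 hc
          have a1 : |r i * z + t i| ≤ |r i| * |z| + |t i| := by
            rw [← abs_mul]; exact abs_add_le _ _
          have a2 : |r i| * |z| ≤ |r i| * (R + u / κ) := by gcongr
          have a3 : |r i| * (u / κ) ≤ u := by
            calc |r i| * (u / κ) ≤ κ * (u / κ) := by gcongr; exact hκ i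
              _ = u := by field_simp
          nlinarith [hR i]
      _ = μ {z | R + u / κ < |z|} := by
          rw [← Finset.sum_mul, ← ENNReal.ofReal_sum_of_nonneg fun i _ => hp i, hp₁,
            ENNReal.ofReal_one, one_mul]
  have iter : ∀ (n : ℕ) (u : ℝ), 0 < u → μ {z | R + u < |z|} ≤ μ {z | R + u / κ ^ n < |z|} := by
    intro n
    induction n with
    | zero => intro u _; simp
    | succ n ih =>
      intro u hu
      refine (ih u hu).trans ((step _ (by positivity)).trans_eq ?_)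
      rw [div_div, pow_succ]
  have zero : ∀ u : ℝ, 0 < u → μ {z | R + u < |z|} = 0 := by
    intro u hu
    have hanti : Antitone fun m : ℕ => {z : ℝ | (m : ℝ) < |z|} := fun m m' h z hz =>
      show (m : ℝ) < |z| from lt_of_le_of_lt (Nat.cast_le.2 h) (show (m' : ℝ) < |z| from hz)
    have hlim := tendsto_measure_iInter_atTop (μ := μ) (fun m : ℕ => (hmeas m).nullMeasurableSet)
      hanti ⟨0, measure_ne_top _ _⟩
    have hempty : (⋂ m : ℕ, {z : ℝ | (m : ℝ) < |z|}) = ∅ := by
      refine Set.eq_empty_of_forall_notMem fun z hz => ?_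
      obtain ⟨m, hm⟩ := exists_nat_ge |z|
      exact absurd (Set.mem_iInter.1 hz m) (not_lt.2 hm)
    rw [hempty, measure_empty] at hlim
    refine le_antisymm (ge_of_tendsto' hlim fun m => ?_) zero_le
    obtain ⟨n, hn⟩ := exists_pow_lt_of_lt_one (x := u / (|(m : ℝ) - R| + 1)) (by positivity) hκ1
    refine (iter n u hu).trans (measure_mono fun z hz => ?_)
    have hz' : R + u / κ ^ n < |z| := hz
    have hκn : 0 < κ ^ n := by positivity
    have : |(m : ℝ) - R| + 1 < u / κ ^ n := by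
      rw [lt_div_iff₀ (by positivity)] at hn
      rw [lt_div_iff₀ hκn]
      linarith
    have := le_abs_self ((m : ℝ) - R)
    show (m : ℝ) < |z|
    linarith
  have hall : ∀ᵐ z ∂μ, ∀ n : ℕ, |z| ≤ R + 1 / ((n : ℝ) + 1) := by
    rw [ae_all_iff]
    intro n
    rw [ae_iff]
    simpa only [not_le] using zero _ Nat.one_div_pos_of_nat
  filter_upwards [hall] with z hz
  refine le_of_forall_pos_le_add fun ε hε => ?_
  obtain ⟨n, hn⟩ := exists_nat_one_div_lt hε
  linarith [hz n]

/-- A continuous function is integrable against a compactly supported finite measure. -/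
theorem integrable_of_continuous {μ : Measure ℝ} [IsFiniteMeasure μ] {R : ℝ}
    (hR : ∀ᵐ z ∂μ, |z| ≤ R) {g : ℝ → ℝ} (hg : Continuous g) : Integrable g μ := by
  obtain ⟨C, hC⟩ := (isCompact_Icc (a := -R) (b := R)).exists_bound_of_continuousOn hg.continuousOn
  refine Integrable.of_bound hg.aestronglyMeasurable C ?_
  filter_upwards [hR] with z hz
  exact hC z (abs_le.1 hz)

/-- `integral_finsetSum_measure`, `integral_smul_measure`, `integral_map`,
`integrable_of_continuous`. -/
theorem integral_selfSimilar {r t p : ι → ℝ} (hp : ∀ i, 0 ≤ p i) {μ : Measure ℝ}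
    (hμ : IsSelfSimilarMeasure r t p μ) {R : ℝ} (hR : ∀ᵐ z ∂μ, |z| ≤ R) {g : ℝ → ℝ}
    (hg : Continuous g) : ∫ z, g z ∂μ = ∑ i, p i * ∫ z, g (r i * z + t i) ∂μ := by
  have := hμ.1
  have hi : ∀ i, Integrable g (μ.map fun x : ℝ => r i * x + t i) := fun i =>
    (integrable_map_measure hg.aestronglyMeasurable (by fun_prop)).2
      (integrable_of_continuous hR (hg.comp (by fun_prop)))
  conv_lhs => rw [hμ.2]
  rw [integral_finsetSum_measure fun i _ => (hi i).smul_measure ENNReal.ofReal_ne_top]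
  refine Finset.sum_congr rfl fun i _ => ?_
  rw [integral_smul_measure, integral_map (by fun_prop) hg.aestronglyMeasurable,
    ENNReal.toReal_ofReal (hp i), smul_eq_mul]

theorem ex_PN_succ (r t : ι → ℝ) {p : ι → ℝ} (hp : ∀ i, 0 ≤ p i) (N : ℕ) (g : ℝ → ℝ) :
    ex (PN r t p (N + 1)) g = ∑ i, p i * ex (PN r t p N) fun z => g (r i * z + t i) := by
  simp only [PN, ex_sum, ex_smul, ex_dir_mul, ex_sc, Real.coe_toNNReal _ (hp _), add_comm]

theorem tot_PN (r t : ι → ℝ) {p : ι → ℝ} (hp : ∀ i, 0 ≤ p i) (hp₁ : ∑ i, p i = 1) (N : ℕ) :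
    tot (PN r t p N) = 1 := by
  induction N with
  | zero => exact tot_one
  | succ N ih =>
    rw [tot] at ih
    simp only [tot, ex_PN_succ r t hp, ih, mul_one, hp₁]

/-- Induction on `N`, generalizing `g`, with `ex_PN_succ`: `|r i z + t i| ≤ R` if `|z| ≤ R`. -/
theorem ex_PN_mono {r t p : ι → ℝ} (hp : ∀ i, 0 ≤ p i) {R : ℝ} (hR0 : 0 ≤ R)
    (hR : ∀ i, |t i| < (1 - |r i|) * R) (N : ℕ) {f g : ℝ → ℝ} (h : ∀ z, |z| ≤ R → f z ≤ g z) :
    ex (PN r t p N) f ≤ ex (PN r t p N) g := by
  induction N generalizing f g with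
  | zero => simpa [PN] using h 0 (by simpa using hR0)
  | succ N ih =>
    rw [ex_PN_succ r t hp, ex_PN_succ r t hp]
    refine Finset.sum_le_sum fun i _ => mul_le_mul_of_nonneg_left (ih fun z hz => h _ ?_) (hp i)
    have a1 : |r i * z + t i| ≤ |r i| * |z| + |t i| := by
      rw [← abs_mul]; exact abs_add_le _ _
    have a2 : |r i| * |z| ≤ |r i| * R := by gcongr
    linarith [hR i]

/-- Induction on `N`, generalizing `g` and `L`: `g ∘ φ_i` is `L κ`-Lipschitz;
`integral_selfSimilar`, `ex_PN_succ`. For `N = 0`, `g z ≤ g 0 + L R` almost everywhere. -/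
theorem integral_le_ex_PN {r t p : ι → ℝ} (hp : ∀ i, 0 ≤ p i) (hp₁ : ∑ i, p i = 1)
    {μ : Measure ℝ} (hμ : IsSelfSimilarMeasure r t p μ) {R κ : ℝ} (hR : ∀ᵐ z ∂μ, |z| ≤ R)
    (hκ : ∀ i, |r i| ≤ κ) (N : ℕ) {g : ℝ → ℝ} {L : ℝ} (hL : 0 ≤ L)
    (hg : ∀ x y, g x ≤ g y + L * |x - y|) :
    ∫ z, g z ∂μ ≤ ex (PN r t p N) g + L * κ ^ N * R := by
  have := hμ.1
  have hcont : ∀ {g : ℝ → ℝ} {L : ℝ}, (∀ x y, g x ≤ g y + L * |x - y|) → Continuous g := by
    intro g L hg
    refine (LipschitzWith.of_le_add_mul' L fun x y => ?_).continuous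
    rw [Real.dist_eq]
    exact hg x y
  induction N generalizing g L with
  | zero =>
    simp only [PN, ex_one, pow_zero, mul_one]
    calc ∫ z, g z ∂μ ≤ ∫ _, (g 0 + L * R) ∂μ := by
          refine integral_mono_ae (integrable_of_continuous hR (hcont hg)) (integrable_const _) ?_
          filter_upwards [hR] with z hz
          have h1 := hg z 0
          rw [sub_zero] at h1
          nlinarith
      _ = _ := by simp
  | succ N ih =>
    rw [integral_selfSimilar hp hμ hR (hcont hg), ex_PN_succ r t hp]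
    have h1 : L * κ ^ (N + 1) * R = ∑ i, p i * (L * κ * κ ^ N * R) := by
      rw [← Finset.sum_mul, hp₁]; ring
    rw [h1, ← Finset.sum_add_distrib]
    refine Finset.sum_le_sum fun i _ => ?_
    rw [← mul_add]
    refine mul_le_mul_of_nonneg_left (ih (mul_nonneg hL ((abs_nonneg _).trans (hκ i)))
      fun x y => ?_) (hp i)
    refine (hg _ (r i * y + t i)).trans ?_
    have : r i * x + t i - (r i * y + t i) = r i * (x - y) := by ring
    rw [this, abs_mul, mul_assoc]
    gcongr
    exact hκ i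

end Crest.Agent.R98
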