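import Crest.Agent.R98.EntB
import Crest.Agent.R98.SS
import Crest.Agent.R98.Dim

/-!
# R98: entropy at one scale bounds the lower Hausdorff dimension from below
-/

set_option autoImplicit false

open scoped NNReal
open Real MeasureTheory Crest.AnalysisR

namespace Crest.Agent.R98

variable {ι : Type*} [Fintype ι]

/-- `exp_le_quad` pointwise a.e., then `1 + x ≤ exp x`. -/
theorem integral_exp_le {μ : Measure ℝ} [IsProbabilityMeasure μ] {g : ℝ → ℝ} (hg : Measurable g)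
    {B θ : ℝ} (hθ : 0 ≤ θ) (hθB : θ * B ≤ 1) (hB : ∀ᵐ z ∂μ, |g z| ≤ B) :
    ∫ z, exp (θ * g z) ∂μ ≤ exp (θ * ∫ z, g z ∂μ + θ ^ 2 * B ^ 2) := by
  have hgi : Integrable g μ := Integrable.of_bound hg.aestronglyMeasurable B hB
  have h1 : ∫ z, exp (θ * g z) ∂μ ≤ ∫ z, (1 + θ ^ 2 * B ^ 2 + θ * g z) ∂μ := by
    refine integral_mono_of_nonneg (ae_of_all _ fun z => (exp_pos _).le)
      ((integrable_const _).add (hgi.const_mul θ)) ?_
    filter_upwards [hB] with z hz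
    have h2 : |θ * g z| ≤ θ * B := by
      rw [abs_mul, abs_of_nonneg hθ]
      exact mul_le_mul_of_nonneg_left hz hθ
    have h3 := exp_le_quad (h2.trans hθB)
    have h4 : (θ * g z) ^ 2 ≤ (θ * B) ^ 2 := by
      rw [← sq_abs (θ * g z)]
      exact pow_le_pow_left₀ (abs_nonneg _) h2 2
    nlinarith
  rw [integral_add (integrable_const _) (hgi.const_mul θ), integral_const, integral_const_mul] at h1
  simp only [probReal_univ, smul_eq_mul, one_mul] at h1
  linarith [add_one_le_exp (θ * ∫ z, g z ∂μ + θ ^ 2 * B ^ 2)]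

/-- **One step.** Let `g z = log (ker μ (q ρ) (l z + b) / ker μ ρ b + q)`.
* `g x ≤ g y + |x - y| / q` (`ker_le_exp_mul`, `|l| ≤ ρ`: if `u ≤ e^D u'`, `D ≥ 0`, then
  `u + q ≤ e^D (u' + q)`), so `integral_le_ex_PN` gives `∫ g dμ ≤ ex P g + R`.
* Let `g' z = g z - |l z| / ρ`. `ex_PN_mono`, `ex_fun_add`, `ex_fun_const`, `tot_PN`:
  `ex P g ≤ ex P g' + R`. For `|x - y| ≤ q`, `g' y ≤ g' x + 2`.
  `exp (g' z) = F (l z + b)` with `F y = (ker μ (q ρ) y / ker μ ρ b + q) * exp (-(|y - b| / ρ))`,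
  `∫ F ≤ 4 q ρ + 2 q ρ` (`integral_ker_mul`, `integral_exp_neg_abs_div`), so
  `∫ exp g' ≤ 6 q ρ / |l| ≤ 6 / κ₀ * q` (`Measure.integral_comp_mul_left`,
  `integral_add_right_eq_self`). `gibbs`: `ex P g' ≤ log (6 / κ₀) + 2 - Hs P q`. -/
theorem integral_log_ker_le {r t p : ι → ℝ} (hp : ∀ i, 0 ≤ p i) (hp₁ : ∑ i, p i = 1)
    {μ : Measure ℝ} (hμ : IsSelfSimilarMeasure r t p μ) {R κ κ₀ : ℝ} (hR0 : 0 ≤ R)
    (hR : ∀ i, |t i| < (1 - |r i|) * R) (hRμ : ∀ᵐ z ∂μ, |z| ≤ R) (hκ : ∀ i, |r i| ≤ κ)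
    (hκ₀ : 0 < κ₀) {q ρ l b : ℝ} {N : ℕ} (hq : 0 < q) (hq' : q ≤ 1 / 2) (hN : κ ^ N ≤ q)
    (hρ : 0 < ρ) (hl : κ₀ * ρ ≤ |l|) (hl' : |l| ≤ ρ) :
    ∫ z, log (ker μ (q * ρ) (l * z + b) / ker μ ρ b + q) ∂μ
      ≤ 2 * R + 2 + log (6 / κ₀) - Hs (PN r t p N) q := by
  have := hμ.1
  have hqρ : 0 < q * ρ := mul_pos hq hρ
  have hK : 0 < ker μ ρ b := ker_pos μ hρ b
  have hl0 : 0 < |l| := lt_of_lt_of_le (mul_pos hκ₀ hρ) hl
  set K := ker μ ρ b with hKd
  set g : ℝ → ℝ := fun z => log (ker μ (q * ρ) (l * z + b) / K + q) with hg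
  have hpos : ∀ y, 0 < ker μ (q * ρ) y / K + q := fun y =>
    add_pos (div_pos (ker_pos μ hqρ y) hK) hq
  have hlip : ∀ x y, g x ≤ g y + 1 / q * |x - y| := by
    intro x y
    have h1 := ker_le_exp_mul μ hqρ (l * x + b) (l * y + b)
    have h2 : |l * x + b - (l * y + b)| / (q * ρ) ≤ 1 / q * |x - y| := by
      have : l * x + b - (l * y + b) = l * (x - y) := by ring
      rw [this, abs_mul, div_le_iff₀ hqρ]
      calc |l| * |x - y| ≤ ρ * |x - y| := by gcongr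
        _ = _ := by field_simp
    set D := 1 / q * |x - y| with hD
    have hD0 : 0 ≤ D := by positivity
    have h3 : ker μ (q * ρ) (l * x + b) ≤ exp D * ker μ (q * ρ) (l * y + b) :=
      h1.trans (mul_le_mul_of_nonneg_right (exp_le_exp.2 h2) (ker_pos μ hqρ _).le)
    have h4 : ker μ (q * ρ) (l * x + b) / K + q ≤ exp D * (ker μ (q * ρ) (l * y + b) / K + q) := by
      rw [mul_add, ← mul_div_assoc]
      refine add_le_add (div_le_div_of_nonneg_right h3 hK.le) ?_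
      exact le_mul_of_one_le_left hq.le (one_le_exp hD0)
    calc g x ≤ log (exp D * (ker μ (q * ρ) (l * y + b) / K + q)) := log_le_log (hpos _) h4
      _ = g y + D := by rw [log_mul (exp_pos _).ne' (hpos _).ne', log_exp, add_comm]
  have h1 := integral_le_ex_PN hp hp₁ hμ hRμ hκ N (by positivity : 0 ≤ 1 / q) hlip
  have h2 : 1 / q * κ ^ N * R ≤ R := by
    calc 1 / q * κ ^ N * R ≤ 1 / q * q * R := by gcongr
      _ = R := by field_simp
  set g' : ℝ → ℝ := fun z => g z - |l * z| / ρ with hg'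
  have hlz : ∀ z, |l * z| / ρ ≤ |z| := by
    intro z
    rw [abs_mul, div_le_iff₀ hρ, mul_comm]
    gcongr
  have h3 : ex (PN r t p N) g ≤ ex (PN r t p N) g' + R := by
    calc ex (PN r t p N) g ≤ ex (PN r t p N) fun z => g' z + R :=
          ex_PN_mono hp hR0 hR N fun z hz => by simp only [hg']; linarith [hlz z]
      _ = _ := by rw [ex_fun_add, ex_fun_const, tot_PN r t hp hp₁, mul_one]
  have h4 : ∀ x y, |x - y| ≤ q → g' y ≤ g' x + 2 := by
    intro x y hxy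
    have a1 := hlip y x
    have a2 : 1 / q * |y - x| ≤ 1 := by
      rw [abs_sub_comm, one_div, inv_mul_le_iff₀ hq]
      linarith
    have a3 : |l * x| / ρ ≤ |l * y| / ρ + |l * (x - y)| / ρ := by
      rw [← add_div]
      refine div_le_div_of_nonneg_right ?_ hρ.le
      have : l * x = l * y + l * (x - y) := by ring
      rw [this]
      exact abs_add_le _ _
    have a4 := hlz (x - y)
    simp only [hg']
    linarith
  set F : ℝ → ℝ := fun y => K⁻¹ * (ker μ (q * ρ) y * exp (-(|y - b| / ρ))) +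
    q * exp (-(|y - b| / ρ)) with hF
  obtain ⟨i1, i2⟩ := integral_ker_mul μ hq hq' hρ b
  obtain ⟨i3, i4⟩ := integral_exp_neg_abs_div hρ b
  have hFi : Integrable F := (i1.const_mul _).add (i3.const_mul _)
  have hFint : ∫ y, F y ≤ 6 * (q * ρ) := by
    rw [hF, integral_add (i1.const_mul _) (i3.const_mul _), integral_const_mul, integral_const_mul, i4]
    have : K⁻¹ * ∫ y, ker μ (q * ρ) y * exp (-(|y - b| / ρ)) ≤ 4 * (q * ρ) := by
      rw [inv_mul_le_iff₀ hK]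
      linarith
    linarith
  have hexp : (fun z => exp (g' z)) = fun z => F (l * z + b) := by
    funext z
    simp only [hg', hg, hF]
    rw [sub_eq_add_neg, exp_add, exp_log (hpos _), add_sub_cancel_right]
    field_simp
  have hl0' : l ≠ 0 := abs_pos.1 hl0
  have h5 : Integrable fun z => exp (g' z) := by
    rw [hexp]
    exact (hFi.comp_add_right b).comp_mul_left' hl0'
  have h6 : ∫ z, exp (g' z) ≤ 6 / κ₀ * q := by
    rw [hexp, Measure.integral_comp_mul_left (fun y => F (y + b)) l, integral_add_right_eq_self,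
      smul_eq_mul, abs_inv, inv_mul_le_iff₀ hl0]
    refine hFint.trans ?_
    calc 6 * (q * ρ) = κ₀ * ρ * (6 / κ₀ * q) := by field_simp
      _ ≤ _ := by gcongr
  have h7 := gibbs (tot_PN r t hp hp₁ N) hq (by positivity : 0 < 6 / κ₀) h4 h5 h6
  linarith

/-- With `g` as in `integral_log_ker_le`: for `|z| ≤ R`, `log q ≤ g z ≤ log (exp R + 1) ≤ R + 1`
(`ker_mono`, `ker_le_exp_mul`), so `|g z| ≤ B`. Also
`ker μ (q ρ) (l z + b) ^ θ ≤ ker μ ρ b ^ θ * exp (θ * g z)` and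
`ker μ ρ b ^ θ ≤ exp (θ R) * ker μ ρ (l z + b) ^ θ` for `|z| ≤ R`; integrate the last bound, use
`integral_exp_le` and `θ ^ 2 * B ^ 2 ≤ θ`. -/
theorem moment_step {μ : Measure ℝ} [IsProbabilityMeasure μ] {R q ρ l b H B θ : ℝ} (hR0 : 0 ≤ R)
    (hRμ : ∀ᵐ z ∂μ, |z| ≤ R) (hq : 0 < q) (hq' : q ≤ 1 / 2) (hρ : 0 < ρ) (hl' : |l| ≤ ρ)
    (hB1 : R + 1 ≤ B) (hB2 : log (1 / q) ≤ B) (hθ : 0 < θ) (hθB : θ * B ^ 2 ≤ 1)
    (hH : ∫ z, log (ker μ (q * ρ) (l * z + b) / ker μ ρ b + q) ∂μ ≤ H) :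
    ∫ z, ker μ (q * ρ) (l * z + b) ^ θ ∂μ
      ≤ exp (θ * (H + R + 1)) * ∫ z, ker μ ρ (l * z + b) ^ θ ∂μ := by
  have hqρ : 0 < q * ρ := mul_pos hq hρ
  have hK : 0 < ker μ ρ b := ker_pos μ hρ b
  set K := ker μ ρ b with hKd
  set g : ℝ → ℝ := fun z => log (ker μ (q * ρ) (l * z + b) / K + q) with hg
  have hpos : ∀ y, 0 < ker μ (q * ρ) y / K + q := fun y =>
    add_pos (div_pos (ker_pos μ hqρ y) hK) hq
  have haff : Continuous fun z : ℝ => l * z + b := by fun_prop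
  have hgc : Continuous g :=
    ((((continuous_ker μ hqρ).comp haff).div_const K).add continuous_const).log fun z => (hpos _).ne'
  have hlz : ∀ z, |l * z| / ρ ≤ |z| := by
    intro z
    rw [abs_mul, div_le_iff₀ hρ, mul_comm]
    gcongr
  have hB : ∀ᵐ z ∂μ, |g z| ≤ B := by
    filter_upwards [hRμ] with z hz
    have a1 : ker μ (q * ρ) (l * z + b) ≤ exp R * K := by
      refine (ker_mono μ hqρ (by nlinarith) _).trans ((ker_le_exp_mul μ hρ _ b).trans ?_)
      rw [add_sub_cancel_right]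
      exact mul_le_mul_of_nonneg_right (exp_le_exp.2 ((hlz z).trans hz)) hK.le
    have a2 : ker μ (q * ρ) (l * z + b) / K + q ≤ exp (R + 1) := by
      rw [← div_le_iff₀ hK] at a1
      have a3 := one_le_exp hR0
      have a4 := add_one_le_exp (1 : ℝ)
      rw [exp_add]
      nlinarith
    have a3 : g z ≤ R + 1 := (log_le_iff_le_exp (hpos _)).2 a2
    have a4 : log q ≤ g z := log_le_log hq (le_add_of_nonneg_left (div_pos (ker_pos μ hqρ _) hK).le)
    rw [one_div, log_inv] at hB2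
    rw [abs_le]
    constructor <;> linarith
  have hθB' : θ * B ≤ 1 := by
    have : 1 ≤ B := by linarith
    calc θ * B ≤ θ * B ^ 2 := by gcongr; nlinarith
      _ ≤ 1 := hθB
  have h1 := integral_exp_le hgc.measurable hθ.le hθB' hB
  have h2 : ∫ z, ker μ (q * ρ) (l * z + b) ^ θ ∂μ ≤ K ^ θ * ∫ z, exp (θ * g z) ∂μ := by
    rw [← integral_const_mul]
    refine integral_mono_of_nonneg (ae_of_all _ fun z => rpow_nonneg (ker_pos μ hqρ _).le _)
      ((integrable_of_continuous hRμ (by fun_prop)).const_mul _) (ae_of_all _ fun z => ?_)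
    have a1 : ker μ (q * ρ) (l * z + b) ≤ K * (ker μ (q * ρ) (l * z + b) / K + q) := by
      rw [mul_add, mul_div_cancel₀ _ hK.ne']
      exact le_add_of_nonneg_right (by positivity)
    calc ker μ (q * ρ) (l * z + b) ^ θ ≤ (K * (ker μ (q * ρ) (l * z + b) / K + q)) ^ θ :=
          rpow_le_rpow (ker_pos μ hqρ _).le a1 hθ.le
      _ = K ^ θ * exp (θ * g z) := by
          rw [mul_rpow hK.le (hpos _).le, rpow_def_of_pos (hpos _), mul_comm (log _)]
  have h3 : K ^ θ ≤ exp (θ * R) * ∫ z, ker μ ρ (l * z + b) ^ θ ∂μ := by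
    rw [← integral_const_mul]
    have : K ^ θ = ∫ _, K ^ θ ∂μ := by simp
    rw [this]
    refine integral_mono_ae (integrable_const _) ((integrable_of_continuous hRμ
      (((continuous_ker μ hρ).comp haff).rpow_const fun z => Or.inr hθ.le)).const_mul _) ?_
    filter_upwards [hRμ] with z hz
    have a1 : K ≤ exp R * ker μ ρ (l * z + b) := by
      refine (ker_le_exp_mul μ hρ b (l * z + b)).trans ?_
      have : b - (l * z + b) = -(l * z) := by ring
      rw [this, abs_neg]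
      exact mul_le_mul_of_nonneg_right (exp_le_exp.2 ((hlz z).trans hz)) (ker_pos μ hρ _).le
    calc K ^ θ ≤ (exp R * ker μ ρ (l * z + b)) ^ θ := rpow_le_rpow hK.le a1 hθ.le
      _ = _ := by rw [mul_rpow (exp_pos _).le (ker_pos μ hρ _).le, ← exp_mul, mul_comm R]
  have h4 : ∫ z, exp (θ * g z) ∂μ ≤ exp (θ * (H + 1)) := by
    refine h1.trans (exp_le_exp.2 ?_)
    have : θ * ∫ z, g z ∂μ ≤ θ * H := mul_le_mul_of_nonneg_left hH hθ.le
    nlinarith
  calc _ ≤ K ^ θ * ∫ z, exp (θ * g z) ∂μ := h2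
    _ ≤ K ^ θ * exp (θ * (H + 1)) := mul_le_mul_of_nonneg_left h4 (rpow_nonneg hK.le _)
    _ ≤ (exp (θ * R) * ∫ z, ker μ ρ (l * z + b) ^ θ ∂μ) * exp (θ * (H + 1)) :=
        mul_le_mul_of_nonneg_right h3 (exp_pos _).le
    _ = _ := by
        rw [mul_right_comm, ← exp_add]
        congr 2
        ring

/-- **Cut-set induction.** Prove by induction on `j` the claim for all `l, b` with
`κ₀ ρ ≤ |l|` and `|l| κ ^ j ≤ ρ`: if `|l| ≤ ρ` use `h`; otherwise expand both integrals with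
`integral_selfSimilar` (`l (r i z + t i) + b = (l r i) z + (l t i + b)`, `κ₀ ρ ≤ |l r i|`). -/
theorem cutset {r t p : ι → ℝ} (hp : ∀ i, 0 ≤ p i) {μ : Measure ℝ}
    (hμ : IsSelfSimilarMeasure r t p μ) {R κ κ₀ ρ β : ℝ} (hRμ : ∀ᵐ z ∂μ, |z| ≤ R)
    (hκ : ∀ i, |r i| ≤ κ) (hκ1 : κ < 1) (hκ₀ : ∀ i, κ₀ ≤ |r i|) (hρ : 0 < ρ) {f g : ℝ → ℝ}
    (hf : Continuous f) (hg : Continuous g)
    (h : ∀ l b, κ₀ * ρ ≤ |l| → |l| ≤ ρ → ∫ z, f (l * z + b) ∂μ ≤ β * ∫ z, g (l * z + b) ∂μ)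
    {l b : ℝ} (hl : κ₀ * ρ ≤ |l|) : ∫ z, f (l * z + b) ∂μ ≤ β * ∫ z, g (l * z + b) ∂μ := by
  have hκ' : ∀ i, |r i| ≤ max κ 0 := fun i => (hκ i).trans (le_max_left _ _)
  have hκ0 : 0 ≤ max κ 0 := le_max_right _ _
  have hκ1' : max κ 0 < 1 := max_lt hκ1 one_pos
  generalize max κ 0 = κ' at hκ' hκ0 hκ1'
  have key : ∀ (j : ℕ) (l b : ℝ), κ₀ * ρ ≤ |l| → |l| * κ' ^ j ≤ ρ →
      ∫ z, f (l * z + b) ∂μ ≤ β * ∫ z, g (l * z + b) ∂μ := by
    intro j
    induction j with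
    | zero => intro l b h1 h2; exact h l b h1 (by simpa using h2)
    | succ j ih =>
      intro l b h1 h2
      by_cases h3 : |l| ≤ ρ
      · exact h l b h1 h3
      rw [integral_selfSimilar hp hμ hRμ (g := fun z => f (l * z + b)) (by fun_prop),
        integral_selfSimilar hp hμ hRμ (g := fun z => g (l * z + b)) (by fun_prop), Finset.mul_sum]
      refine Finset.sum_le_sum fun i _ => ?_
      have e : ∀ z, l * (r i * z + t i) + b = l * r i * z + (l * t i + b) := fun z => by ring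
      simp only [e]
      rw [mul_left_comm]
      refine mul_le_mul_of_nonneg_left (ih _ _ ?_ ?_) (hp i)
      · rw [abs_mul]
        calc κ₀ * ρ ≤ |r i| * ρ := by gcongr; exact hκ₀ i
          _ ≤ |r i| * |l| := by gcongr; exact le_of_not_ge h3
          _ = _ := mul_comm _ _
      · rw [abs_mul]
        calc |l| * |r i| * κ' ^ j ≤ |l| * κ' * κ' ^ j := by gcongr; exact hκ' i
          _ = |l| * κ' ^ (j + 1) := by ring
          _ ≤ ρ := h2
  obtain ⟨j, hj⟩ := exists_pow_lt_of_lt_one (x := ρ / (|l| + 1)) (by positivity) hκ1'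
  refine key j l b hl ?_
  rw [lt_div_iff₀ (by positivity)] at hj
  nlinarith [pow_nonneg hκ0 j]

/-- Let `R` come from `exists_invariant`, `κ₀ = min |r i|`, `κ₁ = max |r i| < 1`, and
`C₀ = 3 R + 4 + log (6 / κ₀)`. With `B = max (R + 1) (log (1 / q))`, `θ = 1 / B ^ 2`,
`integral_log_ker_le`, `moment_step` and `cutset` (with `κ₁`, `ρ = q ^ k ≤ 1`, `l = 1`, `b = 0`)
give `F (k + 1) ≤ q ^ (θ s) * exp (-θ) * F k` for `F k = ∫ z, ker μ (q ^ k) z ^ θ ∂μ`, and
`F 0 ≤ 1`. Conclude with `le_dimH_of_moment`. -/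
theorem frost [Nonempty ι] {r t p : ι → ℝ} (hr : ∀ i, r i ≠ 0 ∧ |r i| < 1) (hp : ∀ i, 0 ≤ p i)
    (hp₁ : ∑ i, p i = 1) {μ : Measure ℝ} (hμ : IsSelfSimilarMeasure r t p μ) :
    ∃ C₀ : ℝ, ∀ (q s κ : ℝ) (N : ℕ), 0 < q → q ≤ 1 / 2 → 0 < s → (∀ i, |r i| ≤ κ) → κ ^ N ≤ q →
      s * log (1 / q) + C₀ ≤ Hs (PN r t p N) q → ENNReal.ofReal s ≤ lowerHausdorffDim μ := by
  have := hμ.1
  obtain ⟨R, hR1, hR⟩ := exists_invariant t fun i => (hr i).2
  have hR0 : 0 ≤ R := by linarith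
  have hRμ := ae_abs_le (fun i => (hr i).2) hp hp₁ hμ hR
  obtain ⟨i₀, hi₀⟩ := Finite.exists_min fun i => |r i|
  obtain ⟨i₁, hi₁⟩ := Finite.exists_max fun i => |r i|
  have hκ₀ : 0 < |r i₀| := abs_pos.2 (hr i₀).1
  refine ⟨3 * R + 4 + log (6 / |r i₀|), fun q s κ N hq hq' hs hκ hN hH => ?_⟩
  set B := max (R + 1) (log (1 / q)) with hB
  have hB1 : R + 1 ≤ B := le_max_left _ _
  have hB0 : 0 < B := by linarith
  set θ := 1 / B ^ 2 with hθd
  have hθ : 0 < θ := by positivity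
  have hθB : θ * B ^ 2 ≤ 1 := by rw [hθd]; field_simp; rfl
  have hq1 : q < 1 := by linarith
  have hβ : 0 ≤ q ^ (θ * s) * exp (-θ) := by positivity
  have step : ∀ k : ℕ, ∫ z, ker μ (q ^ (k + 1)) z ^ θ ∂μ
      ≤ q ^ (θ * s) * exp (-θ) * ∫ z, ker μ (q ^ k) z ^ θ ∂μ := by
    intro k
    have hρ : 0 < q ^ k := by positivity
    have := cutset hp hμ hRμ hi₁ (hr i₁).2 hi₀ hρ (β := q ^ (θ * s) * exp (-θ))
      (f := fun y => ker μ (q * q ^ k) y ^ θ) (g := fun y => ker μ (q ^ k) y ^ θ)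
      ((continuous_ker μ (mul_pos hq hρ)).rpow_const fun z => Or.inr hθ.le)
      ((continuous_ker μ hρ).rpow_const fun z => Or.inr hθ.le) ?_ (l := 1) (b := 0) ?_
    · simpa [pow_succ'] using this
    · intro l b hl hl'
      have h1 := integral_log_ker_le hp hp₁ hμ hR0 hR hRμ hκ hκ₀ hq hq' hN hρ hl hl' (b := b)
      have h2 := moment_step hR0 hRμ hq hq' hρ hl' hB1 (le_max_right _ _) hθ hθB h1
      refine h2.trans (mul_le_mul_of_nonneg_right ?_
        (integral_nonneg fun z => rpow_nonneg (ker_pos μ hρ _).le _))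
      rw [rpow_def_of_pos hq, ← exp_add]
      refine exp_le_exp.2 ?_
      rw [one_div, log_inv] at hH
      have : 2 * R + 2 + log (6 / |r i₀|) - Hs (PN r t p N) q + R + 1 ≤ log q * s - 1 := by
        linarith
      nlinarith
    · rw [abs_one]
      exact mul_le_one₀ (hr i₀).2.le hρ.le (pow_le_one₀ hq.le hq1.le)
  have hF : ∀ k : ℕ, ∫ z, ker μ (q ^ k) z ^ θ ∂μ ≤ (q ^ (θ * s) * exp (-θ)) ^ k := by
    intro k
    induction k with
    | zero =>
      rw [pow_zero, pow_zero]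
      calc ∫ z, ker μ 1 z ^ θ ∂μ ≤ ∫ _, (1 : ℝ) ∂μ :=
            integral_mono_of_nonneg (ae_of_all _ fun z => rpow_nonneg (ker_pos μ one_pos _).le _)
              (integrable_const _) (ae_of_all _ fun z =>
                rpow_le_one (ker_pos μ one_pos _).le (ker_le_one μ one_pos _) hθ.le)
        _ = 1 := by simp
    | succ k ih =>
      refine (step k).trans ?_
      rw [pow_succ']
      exact mul_le_mul_of_nonneg_left ih hβ
  unfold lowerHausdorffDim
  exact le_iInf fun E => le_iInf fun hE => le_iInf fun hE0 =>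
    le_dimH_of_moment μ hq hq1 hs hθ hF hE hE0

end Crest.Agent.R98
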