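import Crest.Agent.R98.Glue

/-!
# R98: entropy of the composed map versus entropy in the model
-/

set_option autoImplicit false

open scoped NNReal
open Real MeasureTheory Crest.AnalysisR

namespace Crest.Agent.R98

variable {ι : Type*} [Fintype ι] {T : Type} [Fintype T] [DecidableEq T]

namespace Fits

variable {r t p : ι → ℝ} {cls : ι → T} {M : Model T}

omit [DecidableEq T] in
theorem GlueE_ex_E (M : Model T) (ξ : FM) (n : ℕ) (f : ℝ → List T → ℝ) :
    ex ξ (fun s => M.E n (f s)) = M.E n fun τ => ex ξ fun s => f s τ := by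
  induction n generalizing f with
  | zero => rfl
  | succ n ih =>
    simp only [Model.E_succ]
    rw [ex_fun_sum]
    refine Finset.sum_congr rfl fun θ _ => ?_
    rw [ex_fun_mul, ih fun s τ => f s (θ :: τ)]

omit [Fintype ι] in
theorem GlueE_map_cons (r t : ι → ℝ) (i : ι) (l : List ι) (x : ℝ) :
    affineWordMap r t (i :: l) x = r i * affineWordMap r t l x + t i := rfl

omit [Fintype ι] in
theorem GlueE_map_eq (r t : ι → ℝ) (l : List ι) (x : ℝ) :
    affineWordMap r t l x = (l.map r).prod * x + affineWordMap r t l 0 := by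
  induction l with
  | nil => simp [affineWordMap]
  | cons i l ih => rw [GlueE_map_cons, GlueE_map_cons, ih, List.map_cons, List.prod_cons]; ring

theorem GlueE_E_ind (M : Model T) (τ₀ : List T) (c : ℝ) :
    M.E τ₀.length (fun τ => if τ = τ₀ then c else 0) = (τ₀.map M.pr).prod * c := by
  induction τ₀ with
  | nil => simp
  | cons θ₀ τ₀ ih =>
    rw [List.length_cons, Model.E_succ, Finset.sum_eq_single θ₀]
    · simp only [List.cons.injEq, true_and, ih, List.map_cons, List.prod_cons, mul_assoc]
    · intro θ _ hθ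
      simp [hθ]
    · simp

omit [DecidableEq T] in
theorem GlueE_prod_pos (M : Model T) (h : ∀ θ, 0 < M.pr θ) (τ : List T) :
    0 < (τ.map M.pr).prod := by
  induction τ with
  | nil => simp
  | cons θ τ ih => rw [List.map_cons, List.prod_cons]; exact mul_pos (h θ) ih

omit [DecidableEq T] in
theorem GlueE_E_log (M : Model T) (h : ∀ θ, 0 < M.pr θ) (n : ℕ) :
    M.E n (fun τ => -log (τ.map M.pr).prod) = n * ∑ θ, M.pr θ * -log (M.pr θ) := by
  induction n with
  | zero => simp
  | succ n ih =>
    have e (θ : T) : (fun τ : List T => -log ((θ :: τ).map M.pr).prod) =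
        fun τ => -log (M.pr θ) + -log (τ.map M.pr).prod := by
      funext τ
      rw [List.map_cons, List.prod_cons, log_mul (h θ).ne' (GlueE_prod_pos M h τ).ne']
      ring
    simp only [Model.E_succ, e, Model.E_add, Model.E_const, ih, mul_add, Finset.sum_add_distrib,
      Model.sum_pr_mul]
    push_cast
    ring

omit [DecidableEq T] in
theorem GlueE_ent_le (M : Model T) (h : ∀ θ, 0 < M.pr θ) :
    ∑ θ, M.pr θ * -log (M.pr θ) ≤ log (Fintype.card T) := by
  have hN : (0 : ℝ) < Fintype.card T := by
    rcases isEmpty_or_nonempty T with hT | hT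
    · have := M.pr_sum
      simp at this
    · exact_mod_cast Fintype.card_pos
  have h1 (θ : T) : M.pr θ * -log (M.pr θ) ≤
      M.pr θ * log (Fintype.card T) + ((Fintype.card T : ℝ)⁻¹ - M.pr θ) := by
    have h2 := log_le_sub_one_of_pos (inv_pos.2 (mul_pos (h θ) hN))
    rw [log_inv, log_mul (h θ).ne' hN.ne'] at h2
    have h3 := mul_le_mul_of_nonneg_left h2 (h θ).le
    have h4 : M.pr θ * ((M.pr θ * Fintype.card T)⁻¹ - 1) = (Fintype.card T : ℝ)⁻¹ - M.pr θ := by
      have := (h θ).ne'
      field_simp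
    rw [h4] at h3
    linarith
  refine (Finset.sum_le_sum fun θ _ => h1 θ).trans_eq ?_
  rw [Finset.sum_add_distrib, Model.sum_pr_mul, Finset.sum_sub_distrib, M.pr_sum, Finset.sum_const,
    Finset.card_univ, nsmul_eq_mul, mul_inv_cancel₀ hN.ne']
  ring

theorem GlueE_ex_ind (ν : FM) (y₀ : ℝ) :
    ex ν (fun y => if y = y₀ then 1 else 0) = ν.coeff y₀ := by
  rw [ex_eq_sum, Finset.sum_eq_single y₀]
  · simp
  · intro y _ hy
    simp [hy]
  · intro hy
    rw [Finsupp.notMem_support_iff.1 hy]
    simp

/-- Induction on `n`, generalizing `F`, with `Fin.consEquiv`, `List.ofFn_succ`, `nu_cons`,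
`ex_mul`, `ex_sc`, `sum_ex` (and commuting `ex (η θ)` with `E n`). -/
theorem sum_words (h : Fits r t p cls M) (n : ℕ) (F : List T → ℝ → ℝ) :
    ∑ w : Fin n → ι, (∏ j, p (w j)) * F ((List.ofFn w).map cls) (affineWordMap r t (List.ofFn w) 0)
      = M.E n fun τ => ex (M.nu τ) (F τ) := by
  induction n generalizing F with
  | zero => simp [affineWordMap]
  | succ n ih =>
    rw [← (Fin.consEquiv fun _ : Fin (n + 1) => ι).sum_comp, Fintype.sum_prod_type, Model.E_succ]
    have e (θ : T) : (M.E n fun τ => ex (M.nu (θ :: τ)) (F (θ :: τ))) =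
        ex (M.η θ) fun s => M.E n fun τ => ex (M.nu τ) fun y => F (θ :: τ) (s + M.ρ θ * y) := by
      rw [GlueE_ex_E]
      refine M.E_congr fun τ _ => ?_
      rw [Model.nu_cons, ex_mul]
      simp only [ex_sc]
    simp only [e]
    rw [h.sum_ex fun θ s => M.E n fun τ => ex (M.nu τ) fun y => F (θ :: τ) (s + M.ρ θ * y)]
    refine Finset.sum_congr rfl fun i _ => ?_
    rw [← ih fun τ y => F (cls i :: τ) (t i + M.ρ (cls i) * y), Finset.mul_sum]
    refine Finset.sum_congr rfl fun w _ => ?_
    simp only [Fin.consEquiv_apply, Fin.prod_univ_succ, List.ofFn_succ, Fin.cons_zero,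
      Fin.cons_succ, List.map_cons, GlueE_map_cons, h.ρ_cls, mul_assoc]
    rw [add_comm (t i)]

/-- For a word `w` let `τ w = (ofFn w).map cls`, `y w = affineWordMap r t (ofFn w) 0` and
`π τ = (τ.map pr).prod > 0`. Words with the same `τ` and `y` have the same map (the ratio is
`lam τ`), so the inner sum `Q w` of `finiteLawEntropy` is at least
`∑ w' with τ w' = τ w ∧ y w' = y w, p w' = π (τ w) * (nu (τ w)).coeff (y w)` (`sum_words` with an
indicator; `E n (fun τ => if τ = τ₀ then c else 0) = π τ₀ * c` for `τ₀.length = n`), and this is at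
least `∏ p (w j) > 0`. So `-log (Q w) ≤ -log (π (τ w)) - log ((nu (τ w)).coeff (y w))`; sum with
`sum_words`: `ex ν (fun y => -log (ν.coeff y)) = ent ν`, and
`E n (fun τ => -log (π τ)) = n * ∑ θ, negMulLog (pr θ) ≤ n * log (card T)`. -/
theorem entropy_le (h : Fits r t p cls M) (hp : ∀ i, 0 < p i) (n : ℕ) :
    composedMapEntropy r t p n - n * log (Fintype.card T) ≤ M.E n fun τ => ent (M.nu τ) := by
  classical
  have hq : ∀ w : Fin n → ι, 0 < ∏ j, p (w j) := fun w => Finset.prod_pos fun j _ => hp _
  have key : ∀ w : Fin n → ι,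
      -log (∑ w', ({b : Fin n → ι | affineWordMap r t (List.ofFn b) =
          affineWordMap r t (List.ofFn w)} : Set (Fin n → ι)).indicator
          (fun w : Fin n → ι => ∏ j, p (w j)) w') ≤
        -log (((List.ofFn w).map cls).map M.pr).prod +
          -log ((M.nu ((List.ofFn w).map cls)).coeff (affineWordMap r t (List.ofFn w) 0)) := by
    intro w
    set τ₀ := (List.ofFn w).map cls with hτ₀
    set y₀ := affineWordMap r t (List.ofFn w) 0 with hy₀
    have hlen : τ₀.length = n := by simp [hτ₀]
    have h1 := h.sum_words n fun τ y => if τ = τ₀ ∧ y = y₀ then 1 else 0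
    have h2 : (M.E n fun τ => ex (M.nu τ) fun y => if τ = τ₀ ∧ y = y₀ then (1 : ℝ) else 0) =
        (τ₀.map M.pr).prod * (M.nu τ₀).coeff y₀ := by
      rw [← GlueE_E_ind, hlen]
      refine M.E_congr fun τ _ => ?_
      by_cases hτ : τ = τ₀
      · subst hτ
        simp only [true_and, if_true]
        exact GlueE_ex_ind _ _
      · simp only [hτ, false_and, if_false]
        rw [ex_fun_const, zero_mul]
    rw [h2] at h1
    have h3 : 0 < (τ₀.map M.pr).prod * (M.nu τ₀).coeff y₀ := by
      rw [← h1]
      refine lt_of_lt_of_le (hq w) ?_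
      refine le_trans (le_of_eq ?_) (Finset.single_le_sum (f := fun w' : Fin n → ι =>
        (∏ j, p (w' j)) * if (List.ofFn w').map cls = τ₀ ∧
          affineWordMap r t (List.ofFn w') 0 = y₀ then (1 : ℝ) else 0)
        (fun w' _ => mul_nonneg (hq w').le (by split_ifs <;> simp)) (Finset.mem_univ w))
      rw [if_pos ⟨rfl, rfl⟩, mul_one]
    have h4 : (τ₀.map M.pr).prod * (M.nu τ₀).coeff y₀ ≤
        ∑ w', ({b : Fin n → ι | affineWordMap r t (List.ofFn b) =
          affineWordMap r t (List.ofFn w)} : Set (Fin n → ι)).indicator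
          (fun w : Fin n → ι => ∏ j, p (w j)) w' := by
      rw [← h1]
      refine Finset.sum_le_sum fun w' _ => ?_
      split_ifs with hw'
      · rw [mul_one, Set.indicator_of_mem]
        have hr : r = M.ρ ∘ cls := funext fun i => (h.ρ_cls i).symm
        have h5 : ((List.ofFn w').map r).prod = ((List.ofFn w).map r).prod := by
          rw [hr, ← List.map_map, ← List.map_map, hw'.1]
        funext x
        rw [GlueE_map_eq r t (List.ofFn w'), GlueE_map_eq r t (List.ofFn w), h5, hw'.2]
      · rw [mul_zero]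
        exact Set.indicator_nonneg (fun b _ => (hq b).le) _
    have h6 := log_le_log h3 h4
    have h7 := GlueE_prod_pos M h.pr_pos τ₀
    rw [log_mul h7.ne' (right_ne_zero_of_mul h3.ne')] at h6
    linarith
  have h8 := h.sum_words n fun τ y => -log (τ.map M.pr).prod + -log ((M.nu τ).coeff y)
  have h9 : (M.E n fun τ => ex (M.nu τ) fun y =>
      -log (τ.map M.pr).prod + -log ((M.nu τ).coeff y)) =
      n * (∑ θ, M.pr θ * -log (M.pr θ)) + M.E n fun τ => ent (M.nu τ) := by
    rw [← GlueE_E_log M h.pr_pos, ← Model.E_add]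
    refine M.E_congr fun τ _ => ?_
    rw [ex_fun_add, ex_fun_const, M.tot_nu, mul_one, EntB_ex_neg_log]
  have h10 : composedMapEntropy r t p n ≤
      n * (∑ θ, M.pr θ * -log (M.pr θ)) + M.E n fun τ => ent (M.nu τ) := by
    rw [← h9, ← h8, composedMapEntropy, finiteLawEntropy, ← Finset.sum_neg_distrib]
    refine Finset.sum_le_sum fun w _ => ?_
    rw [← mul_neg]
    exact mul_le_mul_of_nonneg_left (key w) (hq w).le
  have h11 := mul_le_mul_of_nonneg_left (GlueE_ent_le M h.pr_pos) (Nat.cast_nonneg (α := ℝ) n)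
  linarith

end Fits

end Crest.Agent.R98
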