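import Crest.Agent.R98.Iter

/-!
# R98: identifying equal maps; signs of entropy and Lyapunov exponent
-/

set_option autoImplicit false

open Real MeasureTheory Crest.AnalysisR

namespace Crest.Agent.R98

variable {ι : Type*} [Fintype ι]

/-- Each inner sum lies in `[0, 1]`. -/
theorem finiteLawEntropy_nonneg {α β : Type*} [Fintype α] {q : α → ℝ} (hq : ∀ a, 0 ≤ q a)
    (hq₁ : ∑ a, q a = 1) (Z : α → β) : 0 ≤ finiteLawEntropy q Z := by
  unfold finiteLawEntropy
  rw [neg_nonneg]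
  refine Finset.sum_nonpos fun a _ => mul_nonpos_of_nonneg_of_nonpos (hq a) (Real.log_nonpos
    (Finset.sum_nonneg fun b _ => Set.indicator_nonneg (fun c _ => hq c) b) ?_)
  rw [← hq₁]
  exact Finset.sum_le_sum fun b _ => Set.indicator_le_self' (fun c _ => hq c) b

/-- `ciInf_le` with `finiteLawEntropy_nonneg`, `sum_itR`. -/
theorem rwEntropyRate_mul_le {p : ι → ℝ} (r t : ι → ℝ) (hp : ∀ i, 0 ≤ p i) (hp₁ : ∑ i, p i = 1)
    {n : ℕ} (hn : 1 ≤ n) : rwEntropyRate r t p * n ≤ composedMapEntropy r t p n := by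
  obtain ⟨m, rfl⟩ := Nat.exists_eq_add_of_le' hn
  have h0 : ∀ k, 0 ≤ composedMapEntropy r t p k := fun k =>
    finiteLawEntropy_nonneg (q := itR p k) (fun w => Finset.prod_nonneg fun j _ => hp _)
      (by rw [sum_itR, hp₁, one_pow]) _
  have h1 : rwEntropyRate r t p ≤ composedMapEntropy r t p (m + 1) / ((m : ℝ) + 1) :=
    ciInf_le ⟨0, by rintro _ ⟨k, rfl⟩; exact div_nonneg (h0 _) (by positivity)⟩ m
  rw [le_div_iff₀ (by positivity)] at h1
  exact_mod_cast h1

/-- **Identifying equal maps.** Let `φ i = (r i, t i) : ℝ × ℝ`, `J = ↥(Finset.univ.image φ)`,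
`r' = Prod.fst`, `t' = Prod.snd`, `p' j = ∑ i with φ i = j, p i` (`Finset.sum_fiberwise`). Two maps
`x ↦ r i * x + t i` agree exactly when `φ` agrees (evaluate at `0` and `1`). -/
theorem exists_quotient [Nonempty ι] {r t p : ι → ℝ} (hr : ∀ i, r i ≠ 0 ∧ |r i| < 1)
    (hp : ∀ i, 0 < p i) (hp₁ : ∑ i, p i = 1) {μ : Measure ℝ} (hμ : IsSelfSimilarMeasure r t p μ) :
    ∃ (J : Type) (_ : Fintype J) (_ : Nonempty J) (r' t' p' : J → ℝ),
      (∀ j, r' j ≠ 0 ∧ |r' j| < 1) ∧ (∀ j, 0 < p' j) ∧ ∑ j, p' j = 1 ∧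
      IsSelfSimilarMeasure r' t' p' μ ∧ lyapunovExp r' p' = lyapunovExp r p ∧
      ∑ j, negMulLog (p' j) = finiteLawEntropy p fun i => fun x : ℝ => r i * x + t i := by
  classical
  set φ : ι → ℝ × ℝ := fun i => (r i, t i) with hφ
  let ψ : ι → ↥(Finset.univ.image φ) := fun i => ⟨φ i, Finset.mem_image_of_mem φ (Finset.mem_univ i)⟩
  have hψ : Function.Surjective ψ := by
    rintro ⟨_, hj⟩
    obtain ⟨i, -, rfl⟩ := Finset.mem_image.1 hj
    exact ⟨i, rfl⟩
  set p' : ↥(Finset.univ.image φ) → ℝ := fun j => ∑ i with ψ i = j, p i with hp'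
  have hsum : ∀ X : ↥(Finset.univ.image φ) → ℝ, ∑ j, p' j * X j = ∑ i, p i * X (ψ i) := by
    intro X
    rw [← Finset.sum_fiberwise Finset.univ ψ]
    refine Finset.sum_congr rfl fun j _ => ?_
    rw [hp', Finset.sum_mul]
    exact Finset.sum_congr rfl fun i hi => by rw [(Finset.mem_filter.1 hi).2]
  refine ⟨↥(Finset.univ.image φ), inferInstance, ⟨ψ (Classical.arbitrary ι)⟩, fun j => j.1.1,
    fun j => j.1.2, p', fun j => ?_, fun j => ?_, ?_, ⟨hμ.1, ?_⟩, ?_, ?_⟩
  · obtain ⟨i, rfl⟩ := hψ j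
    exact hr i
  · obtain ⟨i, rfl⟩ := hψ j
    exact Finset.sum_pos (fun i _ => hp i) ⟨i, by simp⟩
  · simpa [hp₁] using hsum fun _ => 1
  · refine hμ.2.trans ?_
    rw [← Finset.sum_fiberwise Finset.univ ψ]
    refine Finset.sum_congr rfl fun j _ => ?_
    rw [hp', ENNReal.ofReal_sum_of_nonneg fun i _ => (hp i).le, Finset.sum_smul]
    refine Finset.sum_congr rfl fun i hi => ?_
    rw [← (Finset.mem_filter.1 hi).2]
  · unfold lyapunovExp
    rw [hsum fun j => Real.log |j.1.1|]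
  · unfold finiteLawEntropy
    simp only [negMulLog, neg_mul, Finset.sum_neg_distrib]
    rw [hsum fun j => Real.log (p' j)]
    congr 1
    refine Finset.sum_congr rfl fun i _ => ?_
    congr 2
    refine (Finset.sum_filter _ _).trans (Finset.sum_congr rfl fun a _ => ?_)
    rw [Set.indicator_apply]
    refine if_congr ⟨fun h => ?_, fun h => ?_⟩ rfl rfl
    · have h1 : φ a = φ i := congrArg Subtype.val h
      have h2 : r a = r i := congrArg Prod.fst h1
      have h3 : t a = t i := congrArg Prod.snd h1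
      simp only [Set.mem_setOf_eq, h2, h3]
    · have h0 := congrFun h 0
      have h1 := congrFun h 1
      simp only [mul_zero, zero_add, mul_one] at h0 h1
      exact Subtype.ext (Prod.ext (by simp only [ψ, hφ]; linarith) h0)

/-- Each term `-p i log |r i|` is positive. -/
theorem lyapunovExp_pos [Nonempty ι] {r p : ι → ℝ} (hr : ∀ i, r i ≠ 0 ∧ |r i| < 1)
    (hp : ∀ i, 0 < p i) : 0 < lyapunovExp r p := by
  unfold lyapunovExp
  rw [neg_pos]
  exact Finset.sum_neg (fun i _ => mul_neg_of_pos_of_neg (hp i)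
    (Real.log_neg (abs_pos.2 (hr i).1) (hr i).2)) Finset.univ_nonempty

end Crest.Agent.R98
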