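import Crest.Agent.R98.Kap
import Crest.Agent.R98.SS
import Crest.Agent.R98.Quot

/-!
# R98: the upper bound for the lower Hausdorff dimension
-/

set_option autoImplicit false

open Real MeasureTheory Crest.AnalysisR

namespace Crest.Agent.R98

variable {ι : Type*} [Fintype ι]

/-- `exp_le_quad`: for small `θ > 0`,
`∑ p i exp (θ X i) ≤ 1 + θ ∑ p i X i + θ ^ 2 ∑ p i X i ^ 2 < 1`. -/
theorem exists_tilt {p X : ι → ℝ} (hp : ∀ i, 0 ≤ p i) (hp₁ : ∑ i, p i = 1)
    (hX : ∑ i, p i * X i < 0) : ∃ θ : ℝ, 0 < θ ∧ ∑ i, p i * exp (θ * X i) < 1 := by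
  have hd : HasDerivAt (fun θ : ℝ => ∑ i, p i * exp (θ * X i)) (∑ i, p i * X i) 0 := by
    refine HasDerivAt.fun_sum fun i _ => ?_
    have := (((hasDerivAt_id (0 : ℝ)).mul_const (X i)).exp).const_mul (p i)
    simpa using this
  obtain ⟨θ, h1, h2⟩ := ((hd.tendsto_slope_zero_right.eventually (gt_mem_nhds hX)).and
    self_mem_nhdsWithin).exists
  have hθ : 0 < θ := h2
  refine ⟨θ, hθ, ?_⟩
  simp only [zero_add, zero_mul, exp_zero, mul_one, hp₁, smul_eq_mul] at h1
  have := neg_of_mul_neg_right h1 (inv_pos.2 hθ).le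
  linarith

/-- Let `X i = s log |r i| - log (p i)`; `∑ p i X i < 0`. Take `θ` from `exists_tilt` and
`β = ∑ p i exp (θ X i)`. A word with `itR p n w < |itR r n w| ^ s` has `∑ j, X (w j) > 0`, so its
weight is at most `∏ j, p (w j) exp (θ X (w j))`; sum with `sum_itR`. -/
theorem exists_typical {r p : ι → ℝ} (hr : ∀ i, r i ≠ 0) (hp : ∀ i, 0 < p i)
    (hp₁ : ∑ i, p i = 1) {s : ℝ} (hs : ∑ i, negMulLog (p i) < s * lyapunovExp r p) :
    ∃ β : ℝ, 0 ≤ β ∧ β < 1 ∧ ∀ n : ℕ,
      ∑ w : Fin n → ι, (if itR p n w < |itR r n w| ^ s then itR p n w else 0) ≤ β ^ n := by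
  have hX : ∑ i, p i * (s * log |r i| - log (p i)) < 0 := by
    have e : ∑ i, p i * (s * log |r i| - log (p i)) =
        ∑ i, negMulLog (p i) - s * lyapunovExp r p := by
      rw [lyapunovExp, mul_neg, sub_neg_eq_add, Finset.mul_sum, ← Finset.sum_add_distrib]
      refine Finset.sum_congr rfl fun i _ => ?_
      rw [negMulLog]
      ring
    linarith
  obtain ⟨θ, hθ, hβ⟩ := exists_tilt (fun i => (hp i).le) hp₁ hX
  refine ⟨_, Finset.sum_nonneg fun i _ => mul_nonneg (hp i).le (exp_pos _).le, hβ, fun n => ?_⟩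
  rw [← sum_itR]
  refine Finset.sum_le_sum fun w _ => ?_
  have e : itR (fun i => p i * exp (θ * (s * log |r i| - log (p i)))) n w =
      itR p n w * exp (θ * (s * log |itR r n w| - log (itR p n w))) := by
    simp only [itR]
    rw [Finset.prod_mul_distrib, ← exp_sum, Finset.abs_prod,
      log_prod fun j _ => (abs_pos.2 (hr (w j))).ne', log_prod fun j _ => (hp (w j)).ne',
      Finset.mul_sum, ← Finset.sum_sub_distrib, Finset.mul_sum]
  rw [e]
  have h0 := itR_pos hp n w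
  split_ifs with h
  · have h1 : 0 < |itR r n w| := abs_pos.2 (Finset.prod_ne_zero_iff.2 fun j _ => hr _)
    have h2 := log_lt_log h0 h
    rw [log_rpow h1] at h2
    exact le_mul_of_one_le_right h0.le (one_le_exp (mul_nonneg hθ.le (by linarith)))
  · positivity

/-- Let `R` come from `exists_invariant`, `ae_abs_le`. Call `w : Fin n → ι` typical if
`|itR r n w| ^ s ≤ itR p n w`; let `I w = closedBall (itT r t n w) (|itR r n w| * R)` and
`A n = ⋃ w typical, I w` (closed). By `selfSimilar_iter`, `μ (A n)ᶜ ≤ β ^ n` (a typical `w` has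
`μ.map φ_w (A n)ᶜ = 0`). Pick `n₀` with `∑_{n ≥ n₀} β ^ n < 1`, and let `A = ⋂ n ≥ n₀, A n`;
then `0 < μ A`. `Measure.hausdorffMeasure_le_liminf_sum` (covers indexed by the typical words of
length `n + n₀`, diameters at most `2 R κ ^ n`, sums at most `(2 R) ^ s ∑ itR p n w ≤ (2 R) ^ s`)
gives `μH[s] A ≠ ∞`; `dimH_le_of_hausdorffMeasure_ne_top`. -/
theorem upper_of_lt [Nonempty ι] {r t p : ι → ℝ} (hr : ∀ i, r i ≠ 0 ∧ |r i| < 1)
    (hp : ∀ i, 0 < p i) (hp₁ : ∑ i, p i = 1) {μ : Measure ℝ} (hμ : IsSelfSimilarMeasure r t p μ)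
    {s : ℝ} (hs0 : 0 ≤ s) (hs : ∑ i, negMulLog (p i) < s * lyapunovExp r p) :
    lowerHausdorffDim μ ≤ ENNReal.ofReal s := by
  classical
  have hprob := hμ.1
  have hs1 : 0 < s := by
    refine hs0.lt_of_ne fun h => ?_
    rw [← h, zero_mul] at hs
    refine absurd hs (not_lt.2 (Finset.sum_nonneg fun i _ => negMulLog_nonneg (hp i).le ?_))
    rw [← hp₁]
    exact Finset.single_le_sum (fun j _ => (hp j).le) (Finset.mem_univ i)
  obtain ⟨R, hR1, hR⟩ := exists_invariant t fun i => (hr i).2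
  have hae := ae_abs_le (fun i => (hr i).2) (fun i => (hp i).le) hp₁ hμ hR
  obtain ⟨β, hβ0, hβ1, hβ⟩ := exists_typical (fun i => (hr i).1) hp hp₁ hs
  obtain ⟨i₀, hi₀⟩ := Finite.exists_max fun i => |r i|
  let C : ∀ n : ℕ, (Fin n → ι) → Set ℝ := fun n w =>
    if |itR r n w| ^ s ≤ itR p n w then
      Set.Icc (itT r t n w - |itR r n w| * R) (itT r t n w + |itR r n w| * R) else ∅
  have hCm : ∀ n, MeasurableSet (⋃ w, C n w) := fun n => MeasurableSet.iUnion fun w => by
    simp only [C]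
    split_ifs
    · exact measurableSet_Icc
    · exact MeasurableSet.empty
  have hA : ∀ n, μ (⋃ w, C n w)ᶜ ≤ ENNReal.ofReal (β ^ n) := by
    intro n
    refine le_trans ?_ (ENNReal.ofReal_le_ofReal (hβ n))
    rw [ENNReal.ofReal_sum_of_nonneg fun w _ => by
      split_ifs
      · exact (itR_pos hp n w).le
      · exact le_rfl]
    conv_lhs => rw [(selfSimilar_iter (fun i => (hp i).le) hμ n).2]
    rw [Measure.finsetSum_apply]
    refine Finset.sum_le_sum fun w _ => ?_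
    rw [Measure.smul_apply, smul_eq_mul, Measure.map_apply (by fun_prop) (hCm n).compl]
    split_ifs with h
    · exact mul_le_of_le_one_right' prob_le_one
    · rw [measure_mono_null (t := {z | ¬ |z| ≤ R}) ?_ (ae_iff.1 hae), mul_zero]
      · exact zero_le
      intro z hz hzR
      refine hz (Set.mem_iUnion.2 ⟨w, ?_⟩)
      simp only [C, if_pos (not_lt.1 h)]
      have h1 : |itR r n w * z| ≤ |itR r n w| * R := by
        rw [abs_mul]
        exact mul_le_mul_of_nonneg_left hzR (abs_nonneg _)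
      obtain ⟨h2, h3⟩ := abs_le.1 h1
      exact ⟨by linarith, by linarith⟩
  have hev : ∀ᵐ x ∂μ, ∀ᶠ n in Filter.atTop, x ∉ (⋃ w, C n w)ᶜ :=
    ae_eventually_notMem (ne_top_of_le_ne_top
      (summable_geometric_of_lt_one hβ0 hβ1).tsum_ofReal_ne_top (ENNReal.tsum_le_tsum hA))
  obtain ⟨n₀, hn₀⟩ : ∃ n₀, 0 < μ (⋂ n, ⋂ _ : n₀ ≤ n, ⋃ w, C n w) := by
    by_contra h
    push Not at h
    have h1 : ∀ᵐ x ∂μ, x ∉ ⋃ n₀, ⋂ n, ⋂ _ : n₀ ≤ n, ⋃ w, C n w :=
      measure_eq_zero_iff_ae_notMem.1 (measure_iUnion_null fun n₀ => nonpos_iff_eq_zero.1 (h n₀))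
    obtain ⟨x, hx1, hx2⟩ := (h1.and hev).exists
    obtain ⟨n₀, hn₀⟩ := Filter.eventually_atTop.1 hx2
    exact hx1 (Set.mem_iUnion.2 ⟨n₀, Set.mem_iInter₂.2 fun n hn => not_not.1 (hn₀ n hn)⟩)
  have hR0 : 0 ≤ 2 * R := by linarith
  have hdiam : ∀ n w, Metric.ediam (C n w) ≤ ENNReal.ofReal (2 * R * |itR r n w|) := by
    intro n w
    simp only [C]
    split_ifs
    · rw [Real.ediam_Icc]
      exact ENNReal.ofReal_le_ofReal (le_of_eq (by ring))
    · simp
  have hH := Measure.hausdorffMeasure_le_liminf_sum s (⋂ n, ⋂ _ : n₀ ≤ n, ⋃ w, C n w)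
    (l := Filter.atTop) (fun n => ENNReal.ofReal (2 * R * |r i₀| ^ n)) (by
      have := ENNReal.tendsto_ofReal ((tendsto_pow_atTop_nhds_zero_of_lt_one (abs_nonneg _)
        (hr i₀).2).const_mul (2 * R))
      simpa using this) C
    (Filter.Eventually.of_forall fun n w => (hdiam n w).trans (ENNReal.ofReal_le_ofReal (by
      refine mul_le_mul_of_nonneg_left ?_ hR0
      rw [itR, Finset.abs_prod]
      refine (Finset.prod_le_prod (fun j _ => abs_nonneg _) fun j _ => hi₀ (w j)).trans ?_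
      simp)))
    (Filter.eventually_atTop.2 ⟨n₀, fun n hn x hx => Set.mem_iInter₂.1 hx n hn⟩)
  have hsum : ∀ n, ∑ w, Metric.ediam (C n w) ^ s ≤ ENNReal.ofReal ((2 * R) ^ s) := by
    intro n
    have e : (2 * R) ^ s = ∑ w, (2 * R) ^ s * itR p n w := by
      rw [← Finset.mul_sum, sum_itR, hp₁, one_pow, mul_one]
    rw [e, ENNReal.ofReal_sum_of_nonneg fun w _ =>
      mul_nonneg (rpow_nonneg hR0 s) (itR_pos hp n w).le]
    refine Finset.sum_le_sum fun w _ => ?_
    by_cases h : |itR r n w| ^ s ≤ itR p n w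
    · refine (ENNReal.rpow_le_rpow (hdiam n w) hs0).trans ?_
      rw [ENNReal.ofReal_rpow_of_nonneg (by positivity) hs0, mul_rpow hR0 (abs_nonneg _)]
      exact ENNReal.ofReal_le_ofReal (mul_le_mul_of_nonneg_left h (rpow_nonneg hR0 s))
    · simp only [C, if_neg h]
      simp [hs1]
  have hne : Measure.hausdorffMeasure s (⋂ n, ⋂ _ : n₀ ≤ n, ⋃ w, C n w) ≠ ⊤ :=
    ne_top_of_le_ne_top ENNReal.ofReal_ne_top (hH.trans
      (Filter.liminf_le_of_frequently_le' (Filter.Frequently.of_forall hsum)))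
  refine (iInf₂_le_of_le _ (MeasurableSet.iInter fun n => MeasurableSet.iInter fun _ => hCm n)
    (iInf_le _ hn₀)).trans ?_
  lift s to NNReal using hs0
  rw [ENNReal.ofReal_coe_nnreal]
  exact dimH_le_of_hausdorffMeasure_ne_top hne

/-- `≤ 1`: take `E = univ`, `Real.dimH_univ`. For `s > rwEntropyRate / lyapunovExp` (note
`rwEntropyRate ≥ 0`, `finiteLawEntropy_nonneg`) some `n ≥ 1` has
`composedMapEntropy r t p n < s * (n * lyapunovExp r p)` (`exists_lt_of_ciInf_lt`); apply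
`selfSimilar_iter`, `exists_quotient` (`affineWordMap_ofFn` identifies the entropy),
`lyapunovExp_iter`, `upper_of_lt`. Let `s` decrease (`ENNReal.le_of_forall_pos_le_add` or
`le_of_forall_gt_imp_ge_of_dense`). -/
theorem upper [Nonempty ι] {r t p : ι → ℝ} (hr : ∀ i, r i ≠ 0 ∧ |r i| < 1)
    (hp : ∀ i, 0 < p i) (hp₁ : ∑ i, p i = 1) {μ : Measure ℝ} (hμ : IsSelfSimilarMeasure r t p μ) :
    lowerHausdorffDim μ ≤ ENNReal.ofReal (min 1 (rwEntropyRate r t p / lyapunovExp r p)) := by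
  have hprob := hμ.1
  rcases min_choice 1 (rwEntropyRate r t p / lyapunovExp r p) with h | h <;> rw [h]
  · refine (iInf₂_le_of_le Set.univ MeasurableSet.univ (iInf_le _ (by simp))).trans ?_
    rw [Real.dimH_univ, ENNReal.ofReal_one]
  refine le_of_forall_gt_imp_ge_of_dense fun a ha => ?_
  by_cases hat : a = ⊤
  · rw [hat]
    exact le_top
  lift a to NNReal using hat
  rw [← ENNReal.ofReal_coe_nnreal] at ha ⊢
  have h1 : rwEntropyRate r t p / lyapunovExp r p < a :=
    lt_of_not_ge fun h => absurd ha (not_lt.2 (ENNReal.ofReal_le_ofReal h))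
  rw [div_lt_iff₀ (lyapunovExp_pos hr hp)] at h1
  obtain ⟨m, hm⟩ := exists_lt_of_ciInf_lt h1
  rw [div_lt_iff₀ (by positivity)] at hm
  obtain ⟨J, _, _, r', t', p', hr', hp', hp₁', hμ', hl, he⟩ := exists_quotient
    (itR_spec hr (Nat.le_add_left 1 m)) (itR_pos hp (m + 1))
    (by rw [sum_itR, hp₁, one_pow]) (selfSimilar_iter (fun i => (hp i).le) hμ (m + 1))
  refine upper_of_lt hr' hp' hp₁' hμ' a.2 ?_
  rw [he, hl, lyapunovExp_iter (fun i => (hr i).1) hp₁]
  have e : (finiteLawEntropy (itR p (m + 1)) fun w => fun x : ℝ =>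
      itR r (m + 1) w * x + itT r t (m + 1) w) = composedMapEntropy r t p (m + 1) := by
    simp only [composedMapEntropy, affineWordMap_ofFn]
    rfl
  rw [e]
  push_cast
  linarith

end Crest.Agent.R98
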