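import Crest.Agent.R98.Main
import Crest.Agent.R98.Frost
import Crest.Agent.R98.Upper
import Crest.Agent.R98.GlueE

/-!
# R98: the dimension formula
-/

set_option autoImplicit false

open Real MeasureTheory Crest.AnalysisR Filter Topology

namespace Crest.Agent.R98

variable {ι : Type*} [Fintype ι] [Nonempty ι] {r t p : ι → ℝ}

theorem exists_log_lt {c : ℝ} (hc : 0 < c) (k : ℕ) :
    ∃ n : ℕ, 1 ≤ n ∧ k * log (n + 1) < c * n := by
  have h1 : Tendsto (fun n : ℕ => log ((n : ℝ) + 1) / ((n : ℝ) + 1)) atTop (𝓝 0) := by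
    have := (isLittleO_log_id_atTop.tendsto_div_nhds_zero).comp
      (tendsto_atTop_add_const_right atTop (1 : ℝ) tendsto_natCast_atTop_atTop)
    exact this
  obtain ⟨n, hn, hn1⟩ := ((h1.eventually (gt_mem_nhds
    (show (0 : ℝ) < c / (2 * (k + 1)) by positivity))).and (eventually_ge_atTop 1)).exists
  refine ⟨n, hn1, ?_⟩
  have h2 : (1 : ℝ) ≤ n := by exact_mod_cast hn1
  have h3 : 0 ≤ log ((n : ℝ) + 1) := log_nonneg (by linarith)
  rw [div_lt_div_iff₀ (by positivity) (by positivity)] at hn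
  nlinarith

theorem lower_of_lt (hr : ∀ i, r i ≠ 0 ∧ |r i| < 1) (hp : ∀ i, 0 < p i) (hp₁ : ∑ i, p i = 1)
    {μ : Measure ℝ} (hμ : IsSelfSimilarMeasure r t p μ) {s : ℝ} (hs0 : 0 < s) (hs1 : s < 1)
    (hs : s * lyapunovExp r p < rwEntropyRate r t p) :
    ENNReal.ofReal s ≤ lowerHausdorffDim μ := by
  classical
  obtain ⟨n, hn, hlog⟩ := exists_log_lt (sub_pos.2 hs) (Fintype.card ι)
  have hr' := itR_spec hr hn
  have hp' := itR_pos hp n
  have hp₁' : ∑ w, itR p n w = 1 := by rw [sum_itR, hp₁, one_pow]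
  have hμ' := selfSimilar_iter (fun i => (hp i).le) hμ n
  obtain ⟨cls, M, hM⟩ := exists_fits (itT r t n) hr' hp' hp₁'
  obtain ⟨C₀, hC⟩ := frost hr' (fun w => (hp' w).le) hp₁' hμ'
  have hcard : log (Fintype.card ↥(Finset.univ.image (itR r n)))
      ≤ Fintype.card ι * log (n + 1) := by
    rw [Fintype.card_coe, ← log_pow]
    refine log_le_log ?_ (by exact_mod_cast card_image_itR r n)
    exact_mod_cast (Finset.univ_nonempty.image _).card_pos
  obtain ⟨q, N, hq, hq', hN, hE⟩ := M.main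
    (h := rwEntropyRate r t p * n - log (Fintype.card ↥(Finset.univ.image (itR r n)))) (s := s)
    (fun k hk => by
      refine le_trans ?_ (hM.entropy_le hp' k)
      have := rwEntropyRate_mul_le r t (fun i => (hp i).le) hp₁ (n := k * n) (Nat.mul_pos hk hn)
      rw [composedMapEntropy_iter]
      push_cast at this
      linarith) hs1
    (by rw [hM.chi_eq, lyapunovExp_iter (fun i => (hr i).1) hp₁]; linarith) C₀
  exact hC q s _ N hq hq' hs0 hM.abs_le hN (hE.trans (hM.E_Hs_le (fun w => (hp' w).le) N hq))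

theorem dim_eq (hr : ∀ i, r i ≠ 0 ∧ |r i| < 1) (hp : ∀ i, 0 < p i) (hp₁ : ∑ i, p i = 1)
    {μ : Measure ℝ} (hμ : IsSelfSimilarMeasure r t p μ) :
    lowerHausdorffDim μ = ENNReal.ofReal (min 1 (rwEntropyRate r t p / lyapunovExp r p)) := by
  refine le_antisymm (upper hr hp hp₁ hμ) (le_of_forall_lt_imp_le_of_dense fun a ha => ?_)
  have ha' : a ≠ ⊤ := ha.ne_top
  rw [← ENNReal.ofReal_toReal ha'] at ha ⊢
  rcases (ENNReal.toReal_nonneg (a := a)).eq_or_lt with h0 | h0
  · simp [← h0]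
  rw [ENNReal.ofReal_lt_ofReal_iff_of_nonneg h0.le, lt_min_iff,
    lt_div_iff₀ (lyapunovExp_pos hr hp)] at ha
  exact lower_of_lt hr hp hp₁ hμ h0 ha.1 ha.2

end Crest.Agent.R98
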