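import Crest.Agent.R98.EntB

/-!
# R98: convolving with a two-point measure lowers the integrated deficiency
-/

set_option autoImplicit false

open scoped NNReal
open Real MeasureTheory

namespace Crest.Agent.R98

/-- Induction with `NN_add_shift` (`NN ν r 0 = 0`). -/
theorem NN_nsmul_shift (ν : FM) (r d : ℝ) (k : ℕ) : NN ν r (k * d) ≤ k * NN ν r d := by
  induction k with
  | zero => simp [NN]
  | succ k ih =>
    have := NN_add_shift ν r (k * d) d
    push_cast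
    rw [add_mul, one_mul, add_mul, one_mul]
    linarith

/-- Induction with `NN_add_scale` (`mass ν 0 x = 0`). -/
theorem NN_nsmul_scale (ν : FM) {r : ℝ} (hr : 0 ≤ r) (d : ℝ) (k : ℕ) :
    NN ν (k * r) d ≤ k * NN ν r d := by
  induction k with
  | zero =>
    have h (x : ℝ) : mass ν 0 x = 0 := by
      rw [mass, ex_congr (g := fun _ => 0), ex_fun_const, zero_mul]
      intro y _
      exact if_neg fun h => by linarith [h.1, h.2]
    simp [NN, h]
  | succ k ih =>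
    have := NN_add_scale ν (r := k * r) (r' := r) (by positivity) hr d
    push_cast
    rw [add_mul, one_mul, add_mul, one_mul]
    linarith

/-- Let `e = |d|` (`NN_neg`), `k = ⌊R / e⌋₊`, `j = ⌊R / r⌋₊`. Then
`2 η R ≤ NN θ R R ≤ k NN θ R e + 2 e` (`NN_add_shift`, `NN_nsmul_shift`, `NN_le_shift`), so
`η R ≤ (R / e) NN θ R e`, i.e. `η e ≤ NN θ R e`. Next
`NN θ R e ≤ j NN θ r e + 2 r ≤ (R / r) NN θ r e + η e / 2` (`NN_add_scale`, `NN_nsmul_scale`,
`NN_le_scale`). -/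
theorem NN_transfer {θ : FM} (hθ : tot θ = 1) {η R r d : ℝ} (hη : 0 < η) (hr : 0 < r) (hd : d ≠ 0)
    (hdR : 2 * |d| ≤ η * R) (hrd : 4 * r ≤ η * |d|) (hN : η ≤ NN θ R R / (2 * R)) :
    η * |d| / (4 * R) ≤ NN θ r d / (2 * r) := by
  have habs : NN θ r d = NN θ r |d| := by
    rcases abs_choice d with h | h <;> rw [h]
    rw [NN_neg]
  rw [habs]
  obtain ⟨e, he⟩ : ∃ e, e = |d| := ⟨_, rfl⟩
  rw [← he] at hdR hrd ⊢
  have he0 : 0 < e := he ▸ abs_pos.2 hd
  have hR : 0 < R := pos_of_mul_pos_left (b := η) (by nlinarith) hη.le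
  rw [le_div_iff₀ (by positivity)] at hN
  have h1 : η * e ≤ NN θ R e := by
    have k1 : (⌊R / e⌋₊ : ℝ) ≤ R / e := Nat.floor_le (by positivity)
    have k2 : R / e < ⌊R / e⌋₊ + 1 := Nat.lt_floor_add_one _
    obtain ⟨k, hk⟩ : ∃ k : ℕ, k = ⌊R / e⌋₊ := ⟨_, rfl⟩
    rw [← hk] at k1 k2
    rw [le_div_iff₀ he0] at k1
    rw [div_lt_iff₀ he0] at k2
    have a1 := NN_add_shift θ R (k * e) (R - k * e)
    rw [add_sub_cancel] at a1
    have a2 := NN_nsmul_shift θ R e k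
    have a3 := NN_le_shift θ hR.le (R - k * e)
    rw [hθ, abs_of_nonneg (by linarith)] at a3
    have a4 := NN_nonneg θ R e
    have a5 : η * R ≤ k * NN θ R e := by linarith
    have a6 : η * R * e ≤ R * NN θ R e := by nlinarith
    nlinarith
  have k1 : (⌊R / r⌋₊ : ℝ) ≤ R / r := Nat.floor_le (by positivity)
  have k2 : R / r < ⌊R / r⌋₊ + 1 := Nat.lt_floor_add_one _
  obtain ⟨k, hk⟩ : ∃ k : ℕ, k = ⌊R / r⌋₊ := ⟨_, rfl⟩
  rw [← hk] at k1 k2
  rw [le_div_iff₀ hr] at k1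
  rw [div_lt_iff₀ hr] at k2
  have a1 := NN_add_scale θ (r := k * r) (r' := R - k * r) (by positivity) (by linarith) e
  rw [add_sub_cancel] at a1
  have a2 := NN_nsmul_scale θ hr.le e k
  have a3 := NN_le_scale θ (r := R - k * r) (by linarith) e
  rw [hθ] at a3
  have a4 := NN_nonneg θ r e
  have a5 : η * e / 2 ≤ k * NN θ r e := by linarith
  rw [div_le_div_iff₀ (by positivity) (by positivity)]
  nlinarith

/-- `NN_le_JS` with `β = τ / 2`. -/
theorem sq_le_JS {θ : FM} (hθ : tot θ = 1) {r d τ : ℝ} (hr : 0 < r) (hτ : 0 < τ)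
    (h : τ ≤ NN θ r d / (2 * r)) : τ ^ 2 / 4 ≤ JS θ r d := by
  have h1 := NN_le_JS θ (β := τ / 2) hr (by positivity) d
  rw [hθ] at h1
  have h2 : τ / 2 ≤ JS θ r d / (τ / 2) := by linarith
  rw [le_div_iff₀ (by positivity)] at h2
  linarith

/-- `DD_eq` for both measures, `JS_eq` under the integrals (`intervalIntegrable_Hu`). -/
theorem DD_two_mul {θ : FM} (hθ : tot θ = 1) (d y₁ y₂ : ℝ) :
    DD (two d * θ) y₁ y₂ = DD θ y₁ y₂ - (∫ v in (y₂ - log 2)..y₂, JS θ (exp (-v)) d)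
      + ∫ v in (y₁ - log 2)..y₁, JS θ (exp (-v)) d := by
  have h2 : tot (two d * θ) = 1 := by rw [tot_mul, tot_two, hθ, mul_one]
  have h (y : ℝ) : ∫ v in (y - log 2)..y, JS θ (exp (-v)) d = HH (two d * θ) y - HH θ y := by
    rw [HH, HH, ← intervalIntegral.integral_sub (intervalIntegrable_Hu h2.le _ _)
      (intervalIntegrable_Hu hθ.le _ _)]
    simp only [JS_eq, Hu]
  rw [h, h, DD_eq h2, DD_eq hθ]
  ring

/-- **Window lemma.** Take `c₂ = log (4 / η)`, so that `R = exp (-v) ≥ (4 / η) exp (-y)` gives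
`2 |d| ≤ η R`, while `|d| / R ≥ exp (-c₂ - a) / 2`; put `τ = η * exp (-c₂ - a) / 8`.
For `v' ≥ y + log (8 / η)` the scale `r = exp (-v')` has `4 r ≤ η |d|`, so `NN_transfer` and
`sq_le_JS` give `JS θ r d ≥ τ ^ 2 / 4`. For `v' ≤ y - c₁`, `JS_le_NN` and `NN_le_shift` give
`JS θ (exp (-v')) d ≤ log 2 * |d| * exp v' ≤ 2 log 2 * exp (-c₁)`. Choose `c₁ ≥ 0` with
`2 log 2 * exp (-c₁) ≤ τ ^ 2 / 8`, `Wd = c₁ + log (8 / η) + log 2`, `δ = log 2 * τ ^ 2 / 8`, and
use `DD_two_mul` (the integrands are differences of `Hu`, hence interval integrable). -/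
theorem window_gain {η a : ℝ} (hη : 0 < η) (hη1 : η ≤ 1) (ha : 0 ≤ a) :
    ∃ δ c₁ c₂ Wd : ℝ, 0 < δ ∧ 0 < Wd ∧ ∀ (θ : FM) (y d v : ℝ), tot θ = 1 →
      exp (-y) / 2 ≤ |d| → |d| ≤ 2 * exp (-y) → y - c₂ - a ≤ v → v ≤ y - c₂ → η ≤ Tu θ v →
      DD (two d * θ) (y - c₁) (y - c₁ + Wd) ≤ DD θ (y - c₁) (y - c₁ + Wd) - δ := by
  have hl : 0 < log 2 := log_pos one_lt_two
  have hl1 : log 2 ≤ 1 := by have := Real.log_two_lt_d9; linarith
  obtain ⟨c₂, hc₂⟩ : ∃ c₂, c₂ = log (4 / η) := ⟨_, rfl⟩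
  obtain ⟨c₃, hc₃⟩ : ∃ c₃, c₃ = log (8 / η) := ⟨_, rfl⟩
  have e2 : exp c₂ = 4 / η := by rw [hc₂, exp_log (by positivity)]
  have e3 : exp c₃ = 8 / η := by rw [hc₃, exp_log (by positivity)]
  have hc₃0 : 0 ≤ c₃ := by
    rw [hc₃]; exact log_nonneg (by rw [le_div_iff₀ hη]; linarith)
  obtain ⟨τ, hτ⟩ : ∃ τ, τ = η * exp (-c₂ - a) / 8 := ⟨_, rfl⟩
  have hτ0 : 0 < τ := by rw [hτ]; positivity
  obtain ⟨c₁, hc₁⟩ : ∃ c₁, c₁ = 16 / τ ^ 2 := ⟨_, rfl⟩
  have hc₁0 : 0 < c₁ := by rw [hc₁]; positivity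
  have e1 : exp (-c₁) ≤ τ ^ 2 / 16 := by
    rw [exp_neg, inv_le_comm₀ (exp_pos _) (by positivity), inv_div, ← hc₁]
    linarith [add_one_le_exp c₁]
  refine ⟨log 2 * τ ^ 2 / 8, c₁, c₂, c₁ + c₃ + log 2, by positivity, by positivity, ?_⟩
  intro θ y d v hθ hd1 hd2 hv1 hv2 hT
  have h2 : tot (two d * θ) = 1 := by rw [tot_mul, tot_two, hθ, mul_one]
  have hi (s t : ℝ) : IntervalIntegrable (fun v => JS θ (exp (-v)) d) volume s t := by
    have := (intervalIntegrable_Hu h2.le s t).sub (intervalIntegrable_Hu hθ.le s t)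
    simpa only [JS_eq, Hu] using this
  have hd0 : 0 < |d| := lt_of_lt_of_le (by positivity) hd1
  have hdR : 2 * |d| ≤ η * exp (-v) := by
    have : exp (-y) * exp c₂ ≤ exp (-v) := by rw [← exp_add]; exact exp_le_exp.2 (by linarith)
    rw [e2] at this
    have h3 := mul_le_mul_of_nonneg_left this hη.le
    have h4 : η * (exp (-y) * (4 / η)) = 4 * exp (-y) := by field_simp
    linarith
  have hτR : τ ≤ η * |d| / (4 * exp (-v)) := by
    rw [le_div_iff₀ (by positivity), hτ]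
    have : exp (-c₂ - a) * exp (-v) ≤ exp (-y) := by
      rw [← exp_add]; exact exp_le_exp.2 (by linarith)
    nlinarith
  have low : ∫ _ in (y - c₁ + (c₁ + c₃ + log 2) - log 2)..(y - c₁ + (c₁ + c₃ + log 2)), τ ^ 2 / 4
      ≤ ∫ v in (y - c₁ + (c₁ + c₃ + log 2) - log 2)..(y - c₁ + (c₁ + c₃ + log 2)),
        JS θ (exp (-v)) d := by
    refine intervalIntegral.integral_mono_on (by linarith) intervalIntegrable_const (hi _ _)
      fun v' hv' => sq_le_JS hθ (exp_pos _) hτ0 (hτR.trans ?_)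
    refine NN_transfer hθ hη (exp_pos _) (abs_pos.1 hd0) hdR ?_ hT
    have : exp (-v') * exp c₃ ≤ exp (-y) := by
      rw [← exp_add]; exact exp_le_exp.2 (by linarith [hv'.1])
    rw [e3] at this
    have h3 := mul_le_mul_of_nonneg_left this hη.le
    have h4 : η * (exp (-v') * (8 / η)) = 8 * exp (-v') := by field_simp
    nlinarith
  have up : ∫ v in (y - c₁ - log 2)..(y - c₁), JS θ (exp (-v)) d
      ≤ ∫ _ in (y - c₁ - log 2)..(y - c₁), τ ^ 2 / 8 := by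
    refine intervalIntegral.integral_mono_on (by linarith) (hi _ _) intervalIntegrable_const
      fun v' hv' => (JS_le_NN θ (exp_pos _) d).trans ?_
    have h3 := NN_le_shift θ (exp_pos (-v')).le d
    rw [hθ] at h3
    have h4 : exp (-y) ≤ exp (-c₁) * exp (-v') := by
      rw [← exp_add]; exact exp_le_exp.2 (by linarith [hv'.2])
    have h5 : NN θ (exp (-v')) d / (2 * exp (-v')) ≤ τ ^ 2 / 8 := by
      rw [div_le_iff₀ (by positivity)]
      have := exp_pos (-v')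
      nlinarith
    have h6 : 0 ≤ NN θ (exp (-v')) d / (2 * exp (-v')) :=
      div_nonneg (NN_nonneg _ _ _) (by positivity)
    nlinarith
  rw [intervalIntegral.integral_const, smul_eq_mul] at low up
  rw [DD_two_mul hθ]
  nlinarith

end Crest.Agent.R98
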