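import Crest.Agent.R98.Env
import Crest.Agent.R98.SS

/-!
# R98: the model of an iterated function system (condition on the contraction ratios)
-/

set_option autoImplicit false

open scoped NNReal
open Real MeasureTheory Crest.AnalysisR

namespace Crest.Agent.R98

variable {ι : Type*} [Fintype ι] {T : Type} [Fintype T] [DecidableEq T]

/-- `M` is the system `(r, t, p)` conditioned on the class `cls i` of the letter. -/
structure Fits (r t p : ι → ℝ) (cls : ι → T) (M : Model T) : Prop where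
  ρ_cls : ∀ i, M.ρ (cls i) = r i
  pr_pos : ∀ θ, 0 < M.pr θ
  ex_η : ∀ (θ : T) (g : ℝ → ℝ),
    M.pr θ * ex (M.η θ) g = ∑ i, if cls i = θ then p i * g (t i) else 0

open Classical in
theorem glue_ex_ind (ν : FM) (y : ℝ) :
    ex ν (fun z => if z = y then 1 else 0) = (ν.coeff y : ℝ) := by
  rw [ex_eq_sum]
  simp only [mul_ite, mul_one, mul_zero, Finset.sum_ite_eq', Finsupp.mem_support_iff]
  split_ifs with h
  · rfl
  · rw [not_not.1 h]; rfl

theorem glue_ext {a b : FM} (h : ∀ g, ex a g = ex b g) : a = b := by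
  classical
  ext y
  have := h fun z => if z = y then 1 else 0
  rwa [glue_ex_ind, glue_ex_ind] at this

/-- `T = ↥(Finset.univ.image r)`, `cls i = ⟨r i, _⟩`, `pr θ = ∑ i with cls i = θ, p i > 0`,
`ρ θ = θ`, `η θ = ∑ i with cls i = θ, (p i / pr θ).toNNReal • dir (t i)`, `m = Fintype.card ι`,
`R` from `exists_invariant`, `amin`/`amax` the least/largest value of `-log |r i|`
(`Finset.exists_min_image`). The support of `η θ` lies in the image under `t` of the class. -/
theorem exists_fits [Nonempty ι] {r p : ι → ℝ} (t : ι → ℝ) (hr : ∀ i, r i ≠ 0 ∧ |r i| < 1)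
    (hp : ∀ i, 0 < p i) (hp₁ : ∑ i, p i = 1) :
    ∃ (cls : ι → ↥(Finset.univ.image r)) (M : Model ↥(Finset.univ.image r)), Fits r t p cls M := by
  classical
  let cls : ι → ↥(Finset.univ.image r) := fun i =>
    ⟨r i, Finset.mem_image_of_mem r (Finset.mem_univ i)⟩
  have hsurj : ∀ θ, ∃ i, cls i = θ := fun θ => by
    obtain ⟨i, -, hi⟩ := Finset.mem_image.1 θ.2
    exact ⟨i, Subtype.ext hi⟩
  let pr : ↥(Finset.univ.image r) → ℝ := fun θ => ∑ i, if cls i = θ then p i else 0
  have hpr : ∀ θ, 0 < pr θ := fun θ => by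
    obtain ⟨i, hi⟩ := hsurj θ
    refine Finset.sum_pos' (fun j _ => ?_) ⟨i, Finset.mem_univ i, ?_⟩
    · split_ifs
      · exact (hp j).le
      · exact le_rfl
    · rw [if_pos hi]; exact hp i
  let η : ↥(Finset.univ.image r) → FM := fun θ =>
    ∑ i, if cls i = θ then (p i / pr θ).toNNReal • dir (t i) else 0
  have hη : ∀ θ (g : ℝ → ℝ), pr θ * ex (η θ) g = ∑ i, if cls i = θ then p i * g (t i) else 0 :=
    fun θ g => by
      rw [ex_sum, Finset.mul_sum]
      refine Finset.sum_congr rfl fun i _ => ?_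
      split_ifs
      · rw [ex_smul, ex_dir, Real.coe_toNNReal _ (div_pos (hp i) (hpr θ)).le, ← mul_assoc,
          mul_div_cancel₀ _ (hpr θ).ne']
      · rw [ex_zero, mul_zero]
  have hsupp : ∀ θ, ∀ y ∈ (η θ).coeff.support, ∃ i, cls i = θ ∧ t i = y := fun θ y hy => by
    by_contra hn
    push Not at hn
    have h1 := hη θ fun z => if z = y then 1 else 0
    rw [glue_ex_ind, Finset.sum_eq_zero fun i _ => by
      split_ifs with h2 h3
      · exact absurd h3 (hn i h2)
      · exact mul_zero _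
      · rfl] at h1
    exact Finsupp.mem_support_iff.1 hy
      (NNReal.coe_eq_zero.1 ((mul_eq_zero.1 h1).resolve_left (hpr θ).ne'))
  obtain ⟨R, hR1, hR⟩ := exists_invariant t fun i => (hr i).2
  obtain ⟨i₀, -, h₀⟩ := Finset.exists_min_image Finset.univ (fun i => -log |r i|)
    Finset.univ_nonempty
  obtain ⟨i₁, -, h₁⟩ := Finset.exists_max_image Finset.univ (fun i => -log |r i|)
    Finset.univ_nonempty
  refine ⟨cls, ⟨pr, fun θ => θ.1, η, -log |r i₀|, -log |r i₁|, R, Fintype.card ι,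
    fun θ => (hpr θ).le, ?_, fun θ => ?_, ?_, fun θ => ?_, fun θ => ?_, fun θ => ?_, fun θ => ?_,
    by linarith, fun θ y hy => ?_⟩, fun _ => rfl, hpr, hη⟩
  · rw [← hp₁, Finset.sum_comm]
    exact Finset.sum_congr rfl fun i _ => by simp
  · obtain ⟨i, rfl⟩ := hsurj θ
    exact (hr i).1
  · exact neg_pos.2 (log_neg (abs_pos.2 (hr i₀).1) (hr i₀).2)
  · obtain ⟨i, rfl⟩ := hsurj θ
    exact h₀ i (Finset.mem_univ i)
  · obtain ⟨i, rfl⟩ := hsurj θ
    exact h₁ i (Finset.mem_univ i)
  · have := hη θ fun _ => 1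
    simp only [mul_one] at this
    exact mul_left_cancel₀ (hpr θ).ne' (this.trans (mul_one _).symm)
  · refine (Finset.card_le_card (t := Finset.univ.image t) fun y hy => ?_).trans
      Finset.card_image_le
    obtain ⟨i, -, rfl⟩ := hsupp θ y hy
    exact Finset.mem_image_of_mem t (Finset.mem_univ i)
  · obtain ⟨i, rfl, rfl⟩ := hsupp θ y hy
    exact (hR i).le

namespace Fits

variable {r t p : ι → ℝ} {cls : ι → T} {M : Model T}

/-- `ex_η` for each class, `Finset.sum_comm`. -/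
theorem sum_ex (h : Fits r t p cls M) (F : T → ℝ → ℝ) :
    ∑ θ, M.pr θ * ex (M.η θ) (F θ) = ∑ i, p i * F (cls i) (t i) := by
  simp only [h.ex_η]
  rw [Finset.sum_comm]
  exact Finset.sum_congr rfl fun i _ => by simp

/-- `sum_ex` with `F θ _ = M.a θ` (`ex_fun_const`, `tot_η`). -/
theorem chi_eq (h : Fits r t p cls M) : M.chi = lyapunovExp r p := by
  have := h.sum_ex fun θ _ => M.a θ
  simp only [ex_fun_const, M.tot_η, mul_one] at this
  rw [Model.chi, this, lyapunovExp, ← Finset.sum_neg_distrib]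
  exact Finset.sum_congr rfl fun i _ => by rw [Model.a, h.ρ_cls, mul_neg]

theorem abs_le (h : Fits r t p cls M) (i : ι) : |r i| ≤ exp (-M.amin) := by
  rw [← h.ρ_cls, M.abs_ρ]
  exact exp_le_exp.2 (neg_le_neg (M.amin_le_a _))

/-- Two elements of `FM` with the same `ex` are equal (test with indicators of points); use
`ex_PN_succ`, `ex_sum`, `ex_smul`, `ex_mul`, `ex_sc`, `sum_ex`. -/
theorem PN_succ (h : Fits r t p cls M) (hp : ∀ i, 0 ≤ p i) (N : ℕ) :
    PN r t p (N + 1) = ∑ θ, (M.pr θ).toNNReal • (M.η θ * sc (M.ρ θ) (PN r t p N)) := by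
  refine glue_ext fun g => ?_
  rw [ex_PN_succ r t hp, ex_sum]
  simp only [ex_smul, ex_mul, ex_sc, Real.coe_toNNReal _ (M.pr_nonneg _)]
  rw [h.sum_ex fun θ y => ex (PN r t p N) fun z => g (y + M.ρ θ * z)]
  simp only [h.ρ_cls, add_comm]

/-- Prove `E N (Hs (ξ * sc c (nu τ)) q) ≤ Hs (ξ * sc c (PN N)) q` for all `ξ : FM`, `c : ℝ` by
induction on `N`: by `PN_succ`,
`ξ * sc c (PN (N+1)) = ∑ θ, pr θ • ((ξ * sc c (η θ)) * sc (c * ρ θ) (PN N))`; `Hs_concave`. -/
theorem E_Hs_le (h : Fits r t p cls M) (hp : ∀ i, 0 ≤ p i) (N : ℕ) {q : ℝ} (hq : 0 < q) :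
    M.E N (fun τ => Hs (M.nu τ) q) ≤ Hs (PN r t p N) q := by
  have key : ∀ (N : ℕ) (ξ : FM) (c : ℝ),
      M.E N (fun τ => Hs (ξ * sc c (M.nu τ)) q) ≤ Hs (ξ * sc c (PN r t p N)) q := by
    intro N
    induction N with
    | zero => intro ξ c; exact le_rfl
    | succ N ih =>
      intro ξ c
      have e : ξ * sc c (PN r t p (N + 1)) = ∑ θ, (M.pr θ).toNNReal •
          ((ξ * sc c (M.η θ)) * sc (c * M.ρ θ) (PN r t p N)) := by
        rw [h.PN_succ hp, map_sum, Finset.mul_sum]
        refine Finset.sum_congr rfl fun θ _ => ?_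
        rw [map_smul, map_mul, sc_sc, mul_smul_comm, mul_assoc]
      rw [e, M.E_succ]
      refine le_trans ?_ (Hs_concave Finset.univ (fun θ => (M.pr θ).toNNReal) ?_ _ hq.le)
      · simp only [Real.coe_toNNReal _ (M.pr_nonneg _)]
        refine M.sum_pr_mono fun θ => le_of_eq_of_le ?_ (ih _ _)
        simp only [M.nu_cons, map_mul, sc_sc, mul_assoc]
      · simp only [Real.coe_toNNReal _ (M.pr_nonneg _), M.pr_sum]
  simpa using key N 1 1

end Fits

end Crest.Agent.R98
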