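import Crest.Prelude.Def_SelfSimilar

/-!
# R98: iterating an iterated function system
-/

set_option autoImplicit false

open Real MeasureTheory Crest.AnalysisR

namespace Crest.Agent.R98

variable {ι : Type*}

/-- Ratio of a word. -/
noncomputable def itR (r : ι → ℝ) (n : ℕ) (w : Fin n → ι) : ℝ := ∏ j, r (w j)

/-- Translation part of a word. -/
noncomputable def itT (r t : ι → ℝ) (n : ℕ) (w : Fin n → ι) : ℝ := affineWordMap r t (List.ofFn w) 0

theorem affineWordMap_cons (r t : ι → ℝ) (i : ι) (w : List ι) (x : ℝ) :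
    affineWordMap r t (i :: w) x = r i * affineWordMap r t w x + t i := rfl

theorem affineWordMap_eq (r t : ι → ℝ) (w : List ι) (x : ℝ) :
    affineWordMap r t w x = (w.map r).prod * x + affineWordMap r t w 0 := by
  induction w with
  | nil => simp [affineWordMap]
  | cons i w ih => rw [affineWordMap_cons, affineWordMap_cons, ih, List.map_cons, List.prod_cons]; ring

theorem affineWordMap_ofFn (r t : ι → ℝ) (n : ℕ) (w : Fin n → ι) :
    affineWordMap r t (List.ofFn w) = fun x => itR r n w * x + itT r t n w := by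
  funext x
  rw [affineWordMap_eq, List.map_ofFn, List.prod_ofFn]
  rfl

theorem itR_cons (r : ι → ℝ) (n : ℕ) (i : ι) (w : Fin n → ι) :
    itR r (n + 1) (Fin.cons i w) = r i * itR r n w := by
  simp [itR, Fin.prod_univ_succ]

theorem itT_cons (r t : ι → ℝ) (n : ℕ) (i : ι) (w : Fin n → ι) :
    itT r t (n + 1) (Fin.cons i w) = r i * itT r t n w + t i := by
  simp [itT, List.ofFn_succ, affineWordMap_cons]

theorem itR_spec {r : ι → ℝ} (hr : ∀ i, r i ≠ 0 ∧ |r i| < 1) {n : ℕ} (hn : 1 ≤ n) (w : Fin n → ι) :
    itR r n w ≠ 0 ∧ |itR r n w| < 1 := by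
  refine ⟨Finset.prod_ne_zero_iff.2 fun _ _ => (hr _).1, ?_⟩
  obtain ⟨n, rfl⟩ : ∃ m, n = m + 1 := ⟨n - 1, by omega⟩
  rw [itR, Finset.abs_prod, Fin.prod_univ_succ]
  exact mul_lt_one_of_nonneg_of_lt_one_left (abs_nonneg _) (hr _).2
    (Finset.prod_le_one (fun _ _ => abs_nonneg _) fun _ _ => (hr _).2.le)

theorem itR_pos {p : ι → ℝ} (hp : ∀ i, 0 < p i) (n : ℕ) (w : Fin n → ι) : 0 < itR p n w :=
  Finset.prod_pos fun _ _ => hp _

theorem affineWordMap_append (r t : ι → ℝ) (u v : List ι) (x : ℝ) :
    affineWordMap r t (u ++ v) x = affineWordMap r t u (affineWordMap r t v x) := by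
  induction u with
  | nil => rfl
  | cons i u ih => rw [List.cons_append, affineWordMap_cons, affineWordMap_cons, ih]

theorem affineWordMap_flatten (r t : ι → ℝ) (n : ℕ) (W : List (Fin n → ι)) :
    affineWordMap (itR r n) (itT r t n) W = affineWordMap r t (W.map List.ofFn).flatten := by
  funext x
  induction W with
  | nil => rfl
  | cons u W ih =>
    rw [affineWordMap_cons, List.map_cons, List.flatten_cons, affineWordMap_append, ih,
      affineWordMap_ofFn]

theorem finiteLawEntropy_equiv {α α' β : Type*} [Fintype α] [Fintype α'] (e : α ≃ α') (q : α' → ℝ)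
    (Z : α' → β) : finiteLawEntropy (fun a => q (e a)) (fun a => Z (e a)) = finiteLawEntropy q Z := by
  unfold finiteLawEntropy
  rw [← e.sum_comp]
  congr 1
  refine Finset.sum_congr rfl fun a _ => ?_
  rw [← e.sum_comp]
  rfl

variable [Fintype ι]

theorem sum_words_succ {M : Type*} [AddCommMonoid M] (n : ℕ) (f : (Fin (n + 1) → ι) → M) :
    ∑ w, f w = ∑ i, ∑ w : Fin n → ι, f (Fin.cons i w) := by
  rw [← (Fin.consEquiv fun _ => ι).sum_comp, Fintype.sum_prod_type]
  rfl

theorem sum_itR (p : ι → ℝ) (n : ℕ) : ∑ w, itR p n w = (∑ i, p i) ^ n := by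
  induction n with
  | zero => simp [itR]
  | succ n ih =>
    simp only [sum_words_succ, itR_cons, ← Finset.mul_sum, ih, ← Finset.sum_mul, pow_succ']

theorem map_finsetSum {κ : Type*} (s : Finset κ) (μ : κ → Measure ℝ) {f : ℝ → ℝ}
    (hf : Measurable f) : (∑ i ∈ s, μ i).map f = ∑ i ∈ s, (μ i).map f := by
  classical
  induction s using Finset.induction_on with
  | empty => simp
  | insert i s hi ih => rw [Finset.sum_insert hi, Finset.sum_insert hi, Measure.map_add _ _ hf, ih]

theorem selfSimilar_iter {r t p : ι → ℝ} (hp : ∀ i, 0 ≤ p i) {μ : Measure ℝ}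
    (hμ : IsSelfSimilarMeasure r t p μ) (n : ℕ) :
    IsSelfSimilarMeasure (itR r n) (itT r t n) (itR p n) μ := by
  refine ⟨hμ.1, ?_⟩
  induction n with
  | zero => simp [itR, itT, affineWordMap]
  | succ n ih =>
    rw [sum_words_succ]
    conv_lhs => rw [hμ.2]
    refine Finset.sum_congr rfl fun i _ => ?_
    conv_lhs => rw [ih]
    rw [map_finsetSum _ _ (by fun_prop), Finset.smul_sum]
    refine Finset.sum_congr rfl fun w _ => ?_
    rw [Measure.map_smul, Measure.map_map (by fun_prop) (by fun_prop), smul_smul, itR_cons,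
      itR_cons, itT_cons, ENNReal.ofReal_mul (hp i)]
    congr 2
    funext x
    simp only [Function.comp]
    ring

theorem lyapunovExp_iter {r p : ι → ℝ} (hr : ∀ i, r i ≠ 0) (hp₁ : ∑ i, p i = 1) (n : ℕ) :
    lyapunovExp (itR r n) (itR p n) = n * lyapunovExp r p := by
  induction n with
  | zero => simp [lyapunovExp, itR]
  | succ n ih =>
    have h (i : ι) (w : Fin n → ι) : p i * itR p n w * log |r i * itR r n w|
        = p i * log |r i| * itR p n w + p i * (itR p n w * log |itR r n w|) := by
      have : itR r n w ≠ 0 := Finset.prod_ne_zero_iff.2 fun _ _ => hr _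
      rw [abs_mul, log_mul (abs_ne_zero.2 (hr i)) (abs_ne_zero.2 this)]
      ring
    unfold lyapunovExp at ih ⊢
    simp only [sum_words_succ, itR_cons, h, Finset.sum_add_distrib, ← Finset.mul_sum, sum_itR, hp₁,
      one_pow, mul_one, ← Finset.sum_mul]
    push_cast
    linarith

theorem composedMapEntropy_iter (r t p : ι → ℝ) (n k : ℕ) :
    composedMapEntropy (itR r n) (itT r t n) (itR p n) k = composedMapEntropy r t p (k * n) := by
  unfold composedMapEntropy
  rw [← finiteLawEntropy_equiv ((Equiv.arrowCongr finProdFinEquiv.symm (Equiv.refl ι)).trans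
    (Equiv.curry (Fin k) (Fin n) ι))]
  congr 1
  · funext w
    rw [← finProdFinEquiv.prod_comp, Fintype.prod_prod_type]
    rfl
  · funext w
    rw [affineWordMap_flatten, List.map_ofFn, List.ofFn_mul]
    congr 3
    funext i
    simp only [Function.comp]
    congr 1
    funext j
    simp only [Equiv.trans_apply, Equiv.curry_apply, Function.curry_apply, Equiv.arrowCongr_apply,
      Equiv.symm_symm, Equiv.coe_refl, Function.comp, id]
    congr 1
    ext
    simp [mul_comm, add_comm]

theorem card_image_itR [DecidableEq ι] (r : ι → ℝ) (n : ℕ) :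
    (Finset.univ.image (itR r n)).card ≤ (n + 1) ^ Fintype.card ι := by
  calc (Finset.univ.image (itR r n)).card
      ≤ ((Fintype.piFinset fun _ : ι => Finset.range (n + 1)).image
          fun c => ∏ i, r i ^ c i).card := by
        refine Finset.card_le_card fun z hz => ?_
        obtain ⟨w, -, rfl⟩ := Finset.mem_image.1 hz
        refine Finset.mem_image.2 ⟨fun i => (Finset.univ.filter fun j => w j = i).card,
          Fintype.mem_piFinset.2 fun i => Finset.mem_range.2 (Nat.lt_succ_of_le ?_), ?_⟩
        · exact (Finset.card_filter_le _ _).trans_eq (by simp)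
        · rw [itR, ← Finset.prod_fiberwise' Finset.univ w r]
          simp
    _ ≤ (n + 1) ^ Fintype.card ι := Finset.card_image_le.trans_eq (by simp)

end Crest.Agent.R98
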