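import Crest.Agent.R98.Basic

/-!
# R98: real inequalities for `negMulLog` and `kap`; atoms of convolution powers
-/

set_option autoImplicit false

open scoped NNReal
open Real

namespace Crest.Agent.R98

theorem kap_comm (a b : ℝ) : kap a b = kap b a := by
  simp only [kap, add_comm]

@[simp] theorem kap_zero : kap 0 0 = 0 := by simp [kap]

theorem kap_mul (c a b : ℝ) : kap (c * a) (c * b) = c * kap a b := by
  rw [kap, kap, show (c * a + c * b) / 2 = c * ((a + b) / 2) by ring, negMulLog_mul, negMulLog_mul,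
    negMulLog_mul]
  ring

theorem kap_eq (a b : ℝ) :
    kap a b = (a + b) / 2 * log 2 - (negMulLog a + negMulLog b - negMulLog (a + b)) / 2 := by
  have h : negMulLog (2⁻¹ : ℝ) = log 2 / 2 := by rw [negMulLog, log_inv]; ring
  rw [kap, div_eq_mul_inv (a + b), negMulLog_mul, h]
  ring

theorem negMulLog_add_le {a b : ℝ} (ha : 0 ≤ a) (hb : 0 ≤ b) :
    negMulLog (a + b) ≤ negMulLog a + negMulLog b := by
  have h {a b : ℝ} (ha : 0 ≤ a) (hb : 0 ≤ b) : a * log a ≤ a * log (a + b) := by
    rcases ha.eq_or_lt with rfl | ha'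
    · simp
    · exact mul_le_mul_of_nonneg_left (log_le_log ha' (by linarith)) ha
  have h1 := h ha hb
  have h2 := h hb ha
  rw [add_comm b a] at h2
  simp only [negMulLog]
  linarith

/-- The variational inequality behind the log-sum inequality. -/
theorem mul_log_ge {a m l : ℝ} (ha : 0 ≤ a) (hm : 0 < a → 0 < m) (hm0 : 0 ≤ m) (hl : 0 < l) :
    a * log l + a - l * m ≤ a * log a - a * log m := by
  rcases ha.eq_or_lt with rfl | ha'
  · simpa using mul_nonneg hl.le hm0
  have hm' := hm ha'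
  have h := log_le_sub_one_of_pos (show 0 < l * m / a by positivity)
  rw [log_div (by positivity) ha'.ne', log_mul hl.ne' hm'.ne'] at h
  have h2 := mul_le_mul_of_nonneg_left h ha
  rw [mul_sub a (l * m / a), mul_div_cancel₀ _ ha'.ne'] at h2
  linarith

theorem logsum {a m a' m' : ℝ} (ha : 0 ≤ a) (hm : a ≤ 2 * m) (ha' : 0 ≤ a') (hm' : a' ≤ 2 * m') :
    (a + a') * log (a + a') - (a + a') * log (m + m')
      ≤ (a * log a - a * log m) + (a' * log a' - a' * log m') := by
  rcases (add_nonneg ha ha').eq_or_lt with h | h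
  · obtain rfl : a = 0 := by linarith
    obtain rfl : a' = 0 := by linarith
    simp
  have hM : 0 < m + m' := by linarith
  have h1 := mul_log_ge ha (fun _ => by linarith) (by linarith : 0 ≤ m) (div_pos h hM)
  have h2 := mul_log_ge ha' (fun _ => by linarith) (by linarith : 0 ≤ m') (div_pos h hM)
  rw [log_div h.ne' hM.ne'] at h1 h2
  have h3 : (a + a') / (m + m') * m + (a + a') / (m + m') * m' = a + a' := by field_simp
  linarith

theorem kap_eq' (a b : ℝ) : 2 * kap a b
    = (a * log a - a * log ((a + b) / 2)) + (b * log b - b * log ((a + b) / 2)) := by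
  simp only [kap, negMulLog]
  ring

theorem kap_nonneg {a b : ℝ} (ha : 0 ≤ a) (hb : 0 ≤ b) : 0 ≤ kap a b := by
  have h1 := mul_log_ge ha (m := (a + b) / 2) (fun _ => by linarith) (by linarith) one_pos
  have h2 := mul_log_ge hb (m := (a + b) / 2) (fun _ => by linarith) (by linarith) one_pos
  rw [log_one] at h1 h2
  linarith [kap_eq' a b]

theorem kap_add_le {a b a' b' : ℝ} (ha : 0 ≤ a) (hb : 0 ≤ b) (ha' : 0 ≤ a') (hb' : 0 ≤ b') :
    kap (a + a') (b + b') ≤ kap a b + kap a' b' := by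
  have h1 := logsum ha (m := (a + b) / 2) (by linarith) ha' (m' := (a' + b') / 2) (by linarith)
  have h2 := logsum hb (m := (a + b) / 2) (by linarith) hb' (m' := (a' + b') / 2) (by linarith)
  have h3 := kap_eq' (a + a') (b + b')
  rw [show (a + a' + (b + b')) / 2 = (a + b) / 2 + (a' + b') / 2 by ring] at h3
  linarith [kap_eq' a b, kap_eq' a' b']

theorem kap_le {a b : ℝ} (ha : 0 ≤ a) (hb : 0 ≤ b) : kap a b ≤ log 2 / 2 * |a - b| := by
  wlog h : b ≤ a generalizing a b
  · rw [kap_comm, abs_sub_comm]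
    exact this hb ha (not_le.1 h).le
  have h1 := kap_add_le hb hb (sub_nonneg.2 h) le_rfl
  have h2 : kap b b = 0 := by simp [kap]
  rw [add_sub_cancel, add_zero, h2, kap_eq (a - b) 0] at h1
  rw [abs_of_nonneg (sub_nonneg.2 h)]
  simp only [add_zero, negMulLog_zero, sub_self] at h1
  linarith

theorem sq_le_kap {a b : ℝ} (ha : 0 ≤ a) (hb : 0 ≤ b) : (√a - √b) ^ 2 / 4 ≤ kap a b := by
  have h {a m : ℝ} (ha : 0 ≤ a) (hm : a ≤ 2 * m) :
      2 * a - 2 * (√a * √m) ≤ a * log a - a * log m := by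
    have hm0 : 0 ≤ m := by linarith
    have h1 := mul_log_ge (sqrt_nonneg a) (m := √m)
      (fun h => sqrt_pos.2 (by linarith [sqrt_pos.1 h])) (sqrt_nonneg m) one_pos
    rw [log_one, log_sqrt ha, log_sqrt hm0] at h1
    have h2 := mul_le_mul_of_nonneg_left h1 (sqrt_nonneg a)
    have h3 := mul_self_sqrt ha
    calc 2 * a - 2 * (√a * √m) = 2 * (√a * (√a * 0 + √a - 1 * √m)) := by
          linear_combination (-2) * h3
      _ ≤ 2 * (√a * (√a * (log a / 2) - √a * (log m / 2))) := by linarith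
      _ = a * log a - a * log m := by linear_combination (log a - log m) * h3
  have h1 := h ha (m := (a + b) / 2) (by linarith)
  have h2 := h hb (m := (a + b) / 2) (by linarith)
  have h3 := kap_eq' a b
  have h4 := mul_self_sqrt ha
  have h5 := mul_self_sqrt hb
  have h6 := mul_self_sqrt (show 0 ≤ (a + b) / 2 by linarith)
  nlinarith [sq_nonneg (√((a + b) / 2) - (√a + √b) / 2)]

theorem abs_sub_le_kap {a b β : ℝ} (ha : 0 ≤ a) (hb : 0 ≤ b) (hβ : 0 < β) :
    |a - b| ≤ 2 * kap a b / β + β * (a + b) := by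
  have h1 := sq_le_kap ha hb
  have h4 := mul_self_sqrt ha
  have h5 := mul_self_sqrt hb
  have h2 : |a - b| = |√a - √b| * (√a + √b) := by
    rw [← abs_of_nonneg (add_nonneg (sqrt_nonneg a) (sqrt_nonneg b)), ← abs_mul]
    congr 1
    linear_combination h5 - h4
  have h3 : (√a - √b) ^ 2 / (2 * β) ≤ 2 * kap a b / β := by
    rw [div_le_div_iff₀ (by positivity) hβ]
    nlinarith
  have h6 : |√a - √b| * (√a + √b) ≤ (√a - √b) ^ 2 / (2 * β) + β * (√a + √b) ^ 2 / 2 := by
    rw [← sq_abs (√a - √b), ← sub_nonneg]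
    have : |√a - √b| ^ 2 / (2 * β) + β * (√a + √b) ^ 2 / 2 - |√a - √b| * (√a + √b)
        = (|√a - √b| - β * (√a + √b)) ^ 2 / (2 * β) := by field_simp; ring
    rw [this]
    positivity
  have h7 : (√a + √b) ^ 2 / 2 ≤ a + b := by nlinarith [sq_nonneg (√a - √b)]
  have h8 := mul_le_mul_of_nonneg_left h7 hβ.le
  rw [h2]
  linarith [mul_div_assoc β ((√a + √b) ^ 2) 2]

theorem negMulLog_split_le {a b : ℝ} (ha : 0 ≤ a) (hb : 0 ≤ b) :
    negMulLog a + negMulLog b - negMulLog (a + b) ≤ 4 * √(a * b) := by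
  have h {a b : ℝ} (ha : 0 ≤ a) (hb : 0 ≤ b) : a * log (a + b) - a * log a ≤ 2 * (√a * √b) := by
    rcases ha.eq_or_lt with rfl | ha'
    · simp
    have hx := sqrt_pos.2 ha'
    have hy := sqrt_nonneg b
    have h4 := mul_self_sqrt ha
    have h5 := mul_self_sqrt hb
    have h1 : log (a + b) ≤ 2 * log (√a + √b) := by
      rw [← log_rpow (by positivity), rpow_two]
      exact log_le_log (by linarith) (by nlinarith [mul_nonneg hx.le hy])
    have h2 := log_le_sub_one_of_pos (show 0 < (√a + √b) / √a by positivity)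
    rw [log_div (by positivity) hx.ne', log_sqrt ha, add_div, div_self hx.ne'] at h2
    have h3 : a * (√b / √a) = √a * √b := by
      field_simp
      linear_combination (-√b) * h4
    nlinarith
  have h1 := h ha hb
  have h2 := h hb ha
  rw [add_comm b a] at h2
  rw [sqrt_mul ha]
  simp only [negMulLog]
  linarith

theorem exp_le_quad {x : ℝ} (hx : |x| ≤ 1) : exp x ≤ 1 + x + x ^ 2 := by
  have := (abs_le.1 (abs_exp_sub_one_sub_id_le hx)).2
  linarith

theorem sqrt_le_dyadic {w : ℝ} (h0 : 0 ≤ w) (h1 : w ≤ 1) {j₀ j₁ : ℕ} (h : j₀ ≤ j₁) :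
    √w ≤ 2 ^ j₀ * w + (∑ j ∈ Finset.Ico j₀ j₁, 2 * (1 / 2) ^ j * (1 - (1 - w) ^ 4 ^ (j + 1)))
      + (1 / 2) ^ j₁ := by
  have hs := sqrt_nonneg w
  have hw := mul_self_sqrt h0
  have hterm (j : ℕ) : 0 ≤ 1 - (1 - w) ^ 4 ^ (j + 1) :=
    sub_nonneg.2 (pow_le_one₀ (by linarith) (by linarith))
  · have aux : ∀ j₁, j₀ ≤ j₁ → min √w ((1 / 2) ^ j₀) ≤
        (∑ j ∈ Finset.Ico j₀ j₁, 2 * (1 / 2) ^ j * (1 - (1 - w) ^ 4 ^ (j + 1)))
          + min √w ((1 / 2) ^ j₁) := by
      intro j₁ h
      induction j₁, h using Nat.le_induction with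
      | base => simp
      | succ j hj ih =>
        rw [Finset.sum_Ico_succ_top hj, add_assoc]
        refine ih.trans (add_le_add le_rfl ?_)
        have hp : (0 : ℝ) < (1 / 2) ^ j := by positivity
        rcases le_total √w ((1 / 2) ^ (j + 1)) with h2 | h2
        · rw [min_eq_left h2]
          have := mul_nonneg (mul_nonneg zero_le_two hp.le) (hterm j)
          linarith [min_le_left √w ((1 / 2) ^ j)]
        · have h3 : 1 ≤ w * 4 ^ (j + 1) := by
            have h4 : ((1 / 2 : ℝ) ^ (j + 1) * (1 / 2) ^ (j + 1)) * 4 ^ (j + 1) = 1 := by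
              rw [← mul_pow, ← mul_pow]; norm_num
            rw [← h4, ← hw]
            gcongr
          have h5 : (1 - w) ^ 4 ^ (j + 1) ≤ 1 / 2 := by
            calc (1 - w) ^ 4 ^ (j + 1) ≤ exp (-w) ^ 4 ^ (j + 1) :=
                  pow_le_pow_left₀ (by linarith) (by linarith [add_one_le_exp (-w)]) _
              _ = exp (-(w * 4 ^ (j + 1))) := by rw [← exp_nat_mul]; push_cast; ring_nf
              _ ≤ exp (-1) := exp_le_exp.2 (by linarith)
              _ ≤ 1 / 2 := by
                  rw [exp_neg, one_div]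
                  exact inv_anti₀ two_pos (by linarith [add_one_le_exp (1 : ℝ)])
          have h6 : 0 ≤ min √w ((1 / 2) ^ (j + 1)) := le_min hs (by positivity)
          nlinarith [min_le_right √w ((1 / 2 : ℝ) ^ j)]
    have h2 := aux j₁ h
    have h3 : √w ≤ 2 ^ j₀ * w + min √w ((1 / 2) ^ j₀) := by
      rcases le_total √w ((1 / 2) ^ j₀) with h4 | h4
      · rw [min_eq_left h4]
        have : 0 ≤ 2 ^ j₀ * w := by positivity
        linarith
      · have h5 : (1 : ℝ) ≤ 2 ^ j₀ * √w := by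
          have : (2 : ℝ) ^ j₀ * (1 / 2) ^ j₀ = 1 := by rw [← mul_pow]; norm_num
          rw [← this]
          gcongr
        have h6 : 0 ≤ min √w ((1 / 2) ^ j₀) := le_min hs (by positivity)
        have h7 := mul_le_mul_of_nonneg_right h5 hs
        rw [mul_assoc, hw] at h7
        linarith
    linarith [min_le_right √w ((1 / 2 : ℝ) ^ j₁)]

theorem tail_small {ε : ℝ} (hε : 0 < ε) : ∃ j₀ : ℕ, ∀ j₁ : ℕ,
    ∑ j ∈ Finset.Ico j₀ j₁, 2 * (1 / 2 : ℝ) ^ j * log (((4 ^ (j + 1) : ℕ) : ℝ) + 1) ≤ ε := by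
  have hs : Summable fun j : ℕ => 2 * (1 / 2 : ℝ) ^ j * log (((4 ^ (j + 1) : ℕ) : ℝ) + 1) := by
    have h1 : Summable fun j : ℕ => (j : ℝ) ^ 1 * (1 / 2 : ℝ) ^ j :=
      summable_pow_mul_geometric_of_norm_lt_one 1 (by norm_num)
    have h2 : Summable fun j : ℕ => (1 / 2 : ℝ) ^ j := summable_geometric_two
    refine ((h1.mul_left 6).add (h2.mul_left 12)).of_nonneg_of_le (fun j => ?_) fun j => ?_
    · exact mul_nonneg (by positivity) (log_nonneg (le_add_of_nonneg_left (by positivity)))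
    · have h3 : log (((4 ^ (j + 1) : ℕ) : ℝ) + 1) ≤ (j + 2) * 3 := by
        have h4 : (((4 ^ (j + 1) : ℕ) : ℝ) + 1) ≤ 4 ^ (j + 2) := by
          push_cast
          have : (1 : ℝ) ≤ 4 ^ (j + 1) := one_le_pow₀ (by norm_num)
          rw [pow_succ (4 : ℝ) (j + 1)]
          linarith
        refine (log_le_log (by positivity) h4).trans ?_
        rw [log_pow]
        push_cast
        exact mul_le_mul_of_nonneg_left
          (by linarith [log_le_sub_one_of_pos (show (0 : ℝ) < 4 by norm_num)]) (by positivity)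
      have hp : (0 : ℝ) < (1 / 2) ^ j := by positivity
      nlinarith
  obtain ⟨s, hs'⟩ := summable_iff_vanishing_norm.1 hs ε hε
  obtain ⟨j₀, hj₀⟩ := s.exists_nat_subset_range
  refine ⟨j₀, fun j₁ => (le_abs_self _).trans (hs' _ ?_).le⟩
  refine Finset.disjoint_left.2 fun j hj hj' => ?_
  have := Finset.mem_range.1 (hj₀ hj')
  have := (Finset.mem_Ico.1 hj).1
  omega

theorem natoms_pow_le (η : FM) (k : ℕ) : natoms (η ^ k) ≤ (k + 1) ^ natoms η := by
  classical
  have h (k : ℕ) : ∀ z ∈ (η ^ k).coeff.support, ∃ n : η.coeff.support → ℕ,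
      (∀ y, n y ≤ k) ∧ ∑ y, (n y : ℝ) * (y : ℝ) = z := by
    induction k with
    | zero =>
      intro z hz
      have : z = 0 := by simpa [AddMonoidAlgebra.one_def] using hz
      exact ⟨0, fun _ => le_rfl, by simp [this]⟩
    | succ k ih =>
      intro z hz
      rw [pow_succ] at hz
      obtain ⟨u, hu, v, hv, rfl⟩ :=
        Finset.mem_add.1 (AddMonoidAlgebra.support_coeff_mul_subset _ _ hz)
      obtain ⟨n, hn, rfl⟩ := ih u hu
      refine ⟨fun y => n y + if y = ⟨v, hv⟩ then 1 else 0, fun y => ?_, ?_⟩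
      · have := hn y
        dsimp only
        split_ifs <;> omega
      · simp [add_mul, Finset.sum_add_distrib]
  calc natoms (η ^ k) ≤ ((Fintype.piFinset fun _ : η.coeff.support => Finset.range (k + 1)).image
        fun n => ∑ y : η.coeff.support, (n y : ℝ) * (y : ℝ)).card := by
        refine Finset.card_le_card fun z hz => ?_
        obtain ⟨n, hn, rfl⟩ := h k z hz
        exact Finset.mem_image_of_mem _ (Fintype.mem_piFinset.2 fun y =>
          Finset.mem_range.2 (Nat.lt_succ_of_le (hn y)))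
    _ ≤ (k + 1) ^ natoms η := Finset.card_image_le.trans_eq (by simp [natoms])

end Crest.Agent.R98
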