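import Mathlib

/-!
# R98: the exponential kernel
-/

set_option autoImplicit false

open Real MeasureTheory

namespace Crest.Agent.R98

/-- The mass of `μ` near `y` at scale `r`, measured with the kernel `exp (-|·|)`. -/
noncomputable def ker (μ : Measure ℝ) (r y : ℝ) : ℝ := ∫ z, exp (-(|y - z| / r)) ∂μ

variable (μ : Measure ℝ) [IsProbabilityMeasure μ]

/-- The integrand is continuous with values in `(0, 1]`. -/
theorem integrable_ker {r : ℝ} (hr : 0 < r) (y : ℝ) :
    Integrable (fun z => exp (-(|y - z| / r))) μ := by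
  refine Integrable.of_bound (by fun_prop) 1 (ae_of_all _ fun z => ?_)
  rw [Real.norm_eq_abs, abs_of_pos (exp_pos _), exp_le_one_iff, neg_nonpos]
  positivity

/-- `integral_pos_iff_support_of_nonneg` (or `integral_exp_pos`). -/
theorem ker_pos {r : ℝ} (hr : 0 < r) (y : ℝ) : 0 < ker μ r y := by
  exact integral_exp_pos (integrable_ker μ hr y)

theorem ker_le_one {r : ℝ} (hr : 0 < r) (y : ℝ) : ker μ r y ≤ 1 := by
  calc ker μ r y ≤ ∫ _, (1 : ℝ) ∂μ := by
        refine integral_mono (integrable_ker μ hr y) (integrable_const _) fun z => ?_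
        rw [exp_le_one_iff, neg_nonpos]
        positivity
    _ = 1 := by simp

theorem ker_mono {r r' : ℝ} (hr : 0 < r) (h : r ≤ r') (y : ℝ) : ker μ r y ≤ ker μ r' y := by
  refine integral_mono (integrable_ker μ hr y) (integrable_ker μ (hr.trans_le h) y) fun z => ?_
  exact exp_le_exp.2 (neg_le_neg (div_le_div_of_nonneg_left (abs_nonneg _) hr h))

/-- Harnack inequality: `|y' - z| ≤ |y - z| + |y - y'|`. -/
theorem ker_le_exp_mul {r : ℝ} (hr : 0 < r) (y y' : ℝ) :
    ker μ r y ≤ exp (|y - y'| / r) * ker μ r y' := by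
  unfold ker
  rw [← integral_const_mul]
  refine integral_mono (integrable_ker μ hr y) ((integrable_ker μ hr y').const_mul _) fun z => ?_
  simp only
  rw [← exp_add, exp_le_exp, ← neg_div, ← neg_div, ← add_div]
  refine div_le_div_of_nonneg_right ?_ hr.le
  have := abs_sub_le y' y z
  rw [abs_sub_comm y' y] at this
  linarith

/-- `continuous_of_dominated`. -/
theorem continuous_ker {r : ℝ} (hr : 0 < r) : Continuous (ker μ r) := by
  refine continuous_of_dominated (bound := fun _ => 1) (fun y => by fun_prop)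
    (fun y => ae_of_all _ fun z => ?_) (integrable_const _) (ae_of_all _ fun z => by fun_prop)
  rw [Real.norm_eq_abs, abs_of_pos (exp_pos _), exp_le_one_iff, neg_nonpos]
  positivity

/-- `∫ y, exp (-(|y - b| / c)) = 2 c` (`integral_exp_neg_abs`-type lemma, or
`integral_comp_abs` with `integral_exp_mul_Ioi`). -/
theorem integral_exp_neg_abs_div {c : ℝ} (hc : 0 < c) (b : ℝ) :
    Integrable (fun y => exp (-(|y - b| / c))) ∧ ∫ y, exp (-(|y - b| / c)) = 2 * c := by
  have h : ∫ y, exp (-(|y - b| / c)) = 2 * c := by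
    rw [integral_sub_right_eq_self (fun y => exp (-(|y| / c))) b,
      integral_comp_abs (f := fun y => exp (-(y / c)))]
    have h1 := integral_exp_mul_Ioi (a := -c⁻¹) (neg_neg_of_pos (inv_pos.2 hc)) 0
    have h2 : (fun y => exp (-(y / c))) = fun y => exp (-c⁻¹ * y) := by
      funext y
      congr 1
      ring
    rw [h2, h1]
    simp
  exact ⟨Integrable.of_integral_ne_zero (by rw [h]; positivity), h⟩

/-- The integrand is at most `exp (-(|y - b| / ρ))`. By the triangle inequality
`exp (-(|y - z| / (q ρ))) * exp (-(|y - b| / ρ)) ≤ exp (-(|b - z| / ρ)) * exp (-(|y - z| / (2 q ρ)))`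
(`1 / q - 1 ≥ 1 / (2 q)`); Fubini (`integral_integral_swap`, or `lintegral_lintegral_swap`). -/
theorem integral_ker_mul {q ρ : ℝ} (hq : 0 < q) (hq' : q ≤ 1 / 2) (hρ : 0 < ρ) (b : ℝ) :
    Integrable (fun y => ker μ (q * ρ) y * exp (-(|y - b| / ρ))) ∧
      ∫ y, ker μ (q * ρ) y * exp (-(|y - b| / ρ)) ≤ 4 * (q * ρ) * ker μ ρ b := by
  have hqρ : 0 < q * ρ := mul_pos hq hρ
  have h2 : 0 < 2 * (q * ρ) := by positivity
  have hi : Integrable (fun y => ker μ (q * ρ) y * exp (-(|y - b| / ρ))) := by
    refine (integral_exp_neg_abs_div hρ b).1.mono'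
      ((continuous_ker μ hqρ).mul (by fun_prop)).aestronglyMeasurable (ae_of_all _ fun y => ?_)
    rw [Real.norm_eq_abs, abs_of_pos (mul_pos (ker_pos μ hqρ y) (exp_pos _))]
    exact mul_le_of_le_one_left (exp_pos _).le (ker_le_one μ hqρ y)
  refine ⟨hi, ?_⟩
  set h : ℝ → ℝ → ℝ := fun y z => exp (-(|b - z| / ρ)) * exp (-(|y - z| / (2 * (q * ρ)))) with hh
  have hin : ∀ z, ∫ y, h y z = 4 * (q * ρ) * exp (-(|b - z| / ρ)) := by
    intro z
    simp only [hh]
    rw [integral_const_mul, (integral_exp_neg_abs_div h2 z).2]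
    ring
  have hint : Integrable (Function.uncurry h) (volume.prod μ) := by
    rw [integrable_prod_iff' (by simp only [hh]; fun_prop)]
    refine ⟨ae_of_all _ fun z =>
      (integral_exp_neg_abs_div h2 z).1.const_mul (exp (-(|b - z| / ρ))), ?_⟩
    have : (fun z => ∫ y, ‖Function.uncurry h (y, z)‖) =
        fun z => 4 * (q * ρ) * exp (-(|b - z| / ρ)) := by
      funext z
      rw [← hin z]
      refine integral_congr_ae (ae_of_all _ fun y => ?_)
      simp only [hh, Function.uncurry_apply_pair]
      exact Real.norm_of_nonneg (by positivity)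
    rw [this]
    exact (integrable_ker μ hρ b).const_mul _
  calc ∫ y, ker μ (q * ρ) y * exp (-(|y - b| / ρ)) ≤ ∫ y, ∫ z, h y z ∂μ := by
        refine integral_mono hi hint.integral_prod_left fun y => ?_
        simp only [ker]
        rw [← integral_mul_const]
        refine integral_mono ((integrable_ker μ hqρ y).mul_const _) ?_ fun z => ?_
        · refine Integrable.of_bound (by simp only [hh]; fun_prop) 1 (ae_of_all _ fun z => ?_)
          simp only [hh]
          rw [Real.norm_eq_abs, abs_of_pos (by positivity), ← exp_add, exp_le_one_iff]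
          have : 0 ≤ |b - z| / ρ := by positivity
          have : 0 ≤ |y - z| / (2 * (q * ρ)) := by positivity
          linarith
        · simp only [hh]
          rw [← exp_add, ← exp_add, exp_le_exp]
          have a1 : |b - z| / ρ ≤ |y - b| / ρ + |y - z| / ρ := by
            rw [← add_div]
            refine div_le_div_of_nonneg_right ?_ hρ.le
            have := abs_sub_le b y z
            rwa [abs_sub_comm b y] at this
          have a2 : |y - z| / ρ ≤ |y - z| / (2 * (q * ρ)) :=
            div_le_div_of_nonneg_left (abs_nonneg _) h2 (by nlinarith)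
          have a3 : |y - z| / (q * ρ) = 2 * (|y - z| / (2 * (q * ρ))) := by field_simp
          linarith
    _ = ∫ z, (∫ y, h y z) ∂μ := integral_integral_swap hint
    _ = 4 * (q * ρ) * ker μ ρ b := by
        simp only [hin]
        rw [integral_const_mul, ker]

/-- On the ball the kernel is at least `exp (-1)` (`mul_meas_ge_le_integral_of_nonneg`). -/
theorem measureReal_closedBall_le {r : ℝ} (hr : 0 < r) (y : ℝ) :
    μ.real (Metric.closedBall y r) ≤ exp 1 * ker μ r y := by
  have h := mul_meas_ge_le_integral_of_nonneg (μ := μ) (f := fun z => exp (-(|y - z| / r)))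
    (ae_of_all _ fun z => (exp_pos _).le) (integrable_ker μ hr y) (exp (-1))
  have h2 : μ.real (Metric.closedBall y r) ≤ μ.real {z | exp (-1) ≤ exp (-(|y - z| / r))} := by
    refine measureReal_mono fun z hz => ?_
    rw [Metric.mem_closedBall, Real.dist_eq, abs_sub_comm] at hz
    exact exp_le_exp.2 (neg_le_neg ((div_le_one hr).2 hz))
  calc μ.real (Metric.closedBall y r) ≤ μ.real {z | exp (-1) ≤ exp (-(|y - z| / r))} := h2
    _ = exp 1 * (exp (-1) * μ.real {z | exp (-1) ≤ exp (-(|y - z| / r))}) := by
        rw [← mul_assoc, ← exp_add]; simp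
    _ ≤ _ := mul_le_mul_of_nonneg_left h (exp_pos _).le

end Crest.Agent.R98
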