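import Crest.Agent.R98.Split

/-!
# R98: entropy at small scales forces moves (the key lemma)
-/

set_option autoImplicit false

open scoped NNReal
open Real MeasureTheory

namespace Crest.Agent.R98

/-- The interaction of neighbouring windows. -/
noncomputable def gam (ν : FM) (r : ℝ) : ℝ :=
  (∫ x, mass ν r x * mass ν r (x - r) / (mass ν r x + mass ν r (x - r))) / (2 * r)

theorem gam_nonneg (ν : FM) {r : ℝ} (hr : 0 ≤ r) : 0 ≤ gam ν r :=
  div_nonneg (integral_nonneg fun _ => div_nonneg (mul_nonneg (mass_nonneg _ _ _)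
    (mass_nonneg _ _ _)) (add_nonneg (mass_nonneg _ _ _) (mass_nonneg _ _ _))) (by positivity)

private theorem key_int_sum (ν : FM) {r : ℝ} (hr : 0 ≤ r) :
    ∫ x, (mass ν r x + mass ν r (x - r)) = 2 * r * tot ν := by
  rw [integral_add (integrable_mass ν r) ((integrable_mass ν r).comp_sub_right r),
    integral_sub_right_eq_self (fun x => mass ν r x) r, integral_mass ν hr]
  ring

private theorem key_integrable_sum (ν : FM) (r : ℝ) :
    Integrable fun x => mass ν r x + mass ν r (x - r) :=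
  (integrable_mass ν r).add ((integrable_mass ν r).comp_sub_right r)

private theorem key_integrable_hm (ν : FM) (r : ℝ) :
    Integrable fun x => mass ν r x * mass ν r (x - r) / (mass ν r x + mass ν r (x - r)) :=
  integrable_mass₂ ν ν r r r (fun a b => a * b / (a + b)) (by simp)

private theorem key_hm_le {a b : ℝ} (ha : 0 ≤ a) (hb : 0 ≤ b) : a * b / (a + b) ≤ 1 / 4 * (a + b) := by
  rcases (add_nonneg ha hb).eq_or_lt with h | h
  · rw [← h]; simp
  · rw [div_le_iff₀ h]
    nlinarith [sq_nonneg (a - b)]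

private theorem key_amgm {a b β : ℝ} (ha : 0 ≤ a) (hb : 0 ≤ b) (hβ : 0 < β) :
    2 * √(a * b) ≤ β⁻¹ * (a * b / (a + b)) + β * (a + b) := by
  rcases (add_nonneg ha hb).eq_or_lt with h | h
  · have h1 : a = 0 := by linarith
    have h2 : b = 0 := by linarith
    simp [h1, h2]
  · have h1 := Real.sq_sqrt (mul_nonneg ha hb)
    rw [← h1, Real.sqrt_sq (Real.sqrt_nonneg _)]
    generalize √(a * b) = s
    generalize a + b = t at h
    have : β⁻¹ * (s ^ 2 / t) + β * t - 2 * s = (s - β * t) ^ 2 / (β * t) := by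
      field_simp
      ring
    have h2 : 0 ≤ (s - β * t) ^ 2 / (β * t) := by positivity
    linarith

private theorem key_ex_mul_ex (ν : FM) (f g : ℝ → ℝ) :
    ex ν f * ex ν g = ex ν fun y => ex ν fun y' => f y * g y' := by
  simp only [ex_fun_mul]
  simp only [mul_comm _ (ex ν g), ex_fun_mul]

private theorem key_pow_integrable {ν : FM} (hν : tot ν = 1) (k : ℕ) (a b : ℝ) :
    IntervalIntegrable (fun v => 1 - (1 - Wu ν v) ^ k) volume a b := by
  refine intervalIntegrable_of_bdd (f := fun v => 1 - (1 - Wu ν v) ^ k)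
    (measurable_const.sub ((measurable_const.sub (measurable_Wu ν)).pow_const k)) (B := 1)
    (fun v => ?_) a b
  have h1 := Wu_nonneg ν v
  have h2 := (Wu_le ν v).trans hν.le
  have h3 : 0 ≤ (1 - Wu ν v) ^ k := pow_nonneg (by linarith) k
  have h4 : (1 - Wu ν v) ^ k ≤ 1 := pow_le_one₀ (by linarith) (by linarith)
  rw [abs_le]
  constructor <;> linarith

/-- `a b / (a + b) ≤ (a + b) / 4`, `integral_mass`, `integrable_mass₂`. -/
theorem gam_le_quarter {ν : FM} (hν : tot ν = 1) {r : ℝ} (hr : 0 < r) : gam ν r ≤ 1 / 4 := by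
  have h1 : ∫ x, mass ν r x * mass ν r (x - r) / (mass ν r x + mass ν r (x - r)) ≤
      ∫ x, 1 / 4 * (mass ν r x + mass ν r (x - r)) :=
    integral_mono (key_integrable_hm ν r) ((key_integrable_sum ν r).const_mul _) fun x =>
      key_hm_le (mass_nonneg _ _ _) (mass_nonneg _ _ _)
  rw [integral_const_mul, key_int_sum ν hr.le, hν] at h1
  rw [gam, div_le_iff₀ (by positivity)]
  linarith

/-- `measurable_mass`, `StronglyMeasurable.integral_prod_right'`. -/
theorem measurable_gam (ν : FM) : Measurable fun r => gam ν r := by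
  have h1 := measurable_mass ν
  have h2 : Measurable fun p : ℝ × ℝ => mass ν p.1 (p.2 - p.1) :=
    h1.comp (measurable_fst.prodMk (measurable_snd.sub measurable_fst))
  have h3 : Measurable fun p : ℝ × ℝ =>
      mass ν p.1 p.2 * mass ν p.1 (p.2 - p.1) / (mass ν p.1 p.2 + mass ν p.1 (p.2 - p.1)) :=
    (h1.mul h2).div (h1.add h2)
  exact (h3.stronglyMeasurable.integral_prod_right' (ν := volume)).measurable.div
    (measurable_id.const_mul 2)

/-- By `kap_eq`, `negMulLog_split_le`: `log 2 - JS ν r r ≤ (∫ x, 2 √(a b)) / r`. For every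
`β > 0`, `2 √(a b) ≤ a b / (a + b) / β + β (a + b)`, so the left side is at most
`2 gam / β + 2 β`; take `β = √gam` (and `β → 0` when `gam = 0`). -/
theorem deficit_le_gam {ν : FM} (hν : tot ν = 1) {r : ℝ} (hr : 0 < r) :
    log 2 - JS ν r r ≤ 4 * √(gam ν r) := by
  have key : ∀ β : ℝ, 0 < β → log 2 - JS ν r r ≤ 2 * β + 2 * gam ν r / β := by
    intro β hβ
    have h1 : ∫ x, ((log 2 / 2 - β) * (mass ν r x + mass ν r (x - r)) -
        β⁻¹ * (mass ν r x * mass ν r (x - r) / (mass ν r x + mass ν r (x - r)))) ≤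
        ∫ x, kap (mass ν r x) (mass ν r (x - r)) := by
      refine integral_mono (((key_integrable_sum ν r).const_mul _).sub
        ((key_integrable_hm ν r).const_mul _)) (integrable_mass₂ ν ν r r r kap kap_zero) fun x => ?_
      have ha := mass_nonneg ν r x
      have hb := mass_nonneg ν r (x - r)
      have h2 := negMulLog_split_le ha hb
      have h3 := key_amgm ha hb hβ
      simp only [kap_eq]
      linarith
    rw [integral_sub ((key_integrable_sum ν r).const_mul _) ((key_integrable_hm ν r).const_mul _),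
      integral_const_mul, integral_const_mul, key_int_sum ν hr.le, hν] at h1
    have h2 := div_le_div_of_nonneg_right h1 hr.le
    unfold JS gam
    refine le_trans (sub_le_sub_left h2 _) (le_of_eq ?_)
    field_simp
    ring
  rcases (gam_nonneg ν hr.le).eq_or_lt with h | h
  · rw [← h] at key ⊢
    rw [Real.sqrt_zero, mul_zero]
    refine le_of_forall_pos_le_add fun β hβ => ?_
    have := key (β / 2) (by positivity)
    simp only [mul_zero, zero_div] at this
    linarith
  · have h1 := Real.sqrt_pos.2 h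
    refine (key _ h1).trans (le_of_eq ?_)
    rw [mul_div_assoc, Real.div_sqrt]
    ring

/-- Translate `x` by `r`: with `a = mass ν r x`, `b = mass ν r (x + r)`, `a' = mass ν (r / 2) x`,
`b' = mass ν (r / 2) (x + r / 2)` one has `a b ≤ prs ν r x + a' b'` (a pair `y ∈ (x, x + r]`,
`y' ∈ (x - r, x]` with `y - y' ≤ r / 2` has `y ≤ x + r / 2` and `x - r / 2 < y'`; write `a b` as a
double `ex`), `a + b = mass ν (2 r) (x + r)` and `a' + b' ≤ a + b`, so
`a b / (a + b) ≤ prs / mass ν (2 r) (x + r) + a' b' / (a' + b')`. -/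
theorem gam_le (ν : FM) {r : ℝ} (hr : 0 < r) : gam ν r ≤ WW ν r / 2 + gam ν (r / 2) / 2 := by
  have h1 : ∫ x, mass ν r x * mass ν r (x - r) / (mass ν r x + mass ν r (x - r)) ≤
      (∫ x, prs ν r x / mass ν (2 * r) (x + r)) + ∫ x, mass ν (r / 2) x * mass ν (r / 2) (x - r / 2) /
        (mass ν (r / 2) x + mass ν (r / 2) (x - r / 2)) := by
    have i1 := (key_integrable_hm ν r).comp_add_right r
    have i2 := (key_integrable_hm ν (r / 2)).comp_add_right (r / 2)
    rw [← integral_add_right_eq_self _ r, ← integral_add_right_eq_self (fun x =>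
      mass ν (r / 2) x * mass ν (r / 2) (x - r / 2) /
        (mass ν (r / 2) x + mass ν (r / 2) (x - r / 2))) (r / 2),
      ← integral_add (integrable_prs_div ν hr) i2]
    refine integral_mono i1 ((integrable_prs_div ν hr).add i2) fun x => ?_
    simp only [add_sub_cancel_right]
    have hm : mass ν (2 * r) (x + r) = mass ν r (x + r) + mass ν r x := by
      rw [two_mul, mass_add_right ν hr.le hr.le, add_sub_cancel_right]
    have ha : mass ν (r / 2) x ≤ mass ν r x := by
      refine ex_mono fun y _ => ?_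
      split_ifs with h1 h2
      · exact le_rfl
      · exact absurd ⟨by linarith [h1.1], h1.2⟩ h2
      · exact zero_le_one
      · exact le_rfl
    have hb : mass ν (r / 2) (x + r / 2) ≤ mass ν r (x + r) := by
      refine ex_mono fun y _ => ?_
      split_ifs with h1 h2
      · exact le_rfl
      · exact absurd ⟨by linarith [h1.1], by linarith [h1.2]⟩ h2
      · exact zero_le_one
      · exact le_rfl
    have hp : mass ν r (x + r) * mass ν r x ≤
        prs ν r x + mass ν (r / 2) (x + r / 2) * mass ν (r / 2) x := by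
      unfold mass prs
      rw [key_ex_mul_ex, key_ex_mul_ex, ← ex_fun_add]
      refine ex_mono fun y _ => ?_
      rw [← ex_fun_add]
      refine ex_mono fun y' _ => ?_
      by_cases h1 : x + r - r < y ∧ y ≤ x + r
      swap
      · rw [if_neg h1, zero_mul]
        split_ifs <;> norm_num
      by_cases h2 : x - r < y' ∧ y' ≤ x
      swap
      · rw [if_neg h2, mul_zero]
        split_ifs <;> norm_num
      rw [if_pos h1, if_pos h2]
      by_cases h3 : r / 2 < y - y'
      · rw [if_pos ⟨by linarith [h1.1], h1.2, h2.1, h2.2, h3⟩]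
        split_ifs <;> norm_num
      · have h4 : x + r / 2 - r / 2 < y ∧ y ≤ x + r / 2 :=
          ⟨by linarith [h1.1], by linarith [h2.2]⟩
        have h5 : x - r / 2 < y' ∧ y' ≤ x := ⟨by linarith [h1.1], h2.2⟩
        rw [if_pos h4, if_pos h5]
        split_ifs <;> norm_num
    have ha0 := mass_nonneg ν (r / 2) x
    have hb0 := mass_nonneg ν (r / 2) (x + r / 2)
    rw [hm]
    refine (div_le_div_of_nonneg_right hp (by linarith)).trans ?_
    rw [add_div]
    refine add_le_add le_rfl ?_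
    rcases (add_nonneg hb0 ha0).eq_or_lt with h | h
    · have : mass ν (r / 2) x = 0 := by linarith
      simp [this]
    · exact div_le_div_of_nonneg_left (mul_nonneg hb0 ha0) h (add_le_add hb ha)
  unfold gam WW
  refine (div_le_div_of_nonneg_right h1 (by positivity)).trans (le_of_eq ?_)
  field_simp

/-- Let `g v = √(gam ν (exp (-v))) ∈ [0, 1 / 2]` and `I = ∫ v in y₀..y₁, g v`. By `gam_le`,
`g v ≤ (√(Wu ν v) + g (v + log 2)) / √2`, and `∫ v in y₀..y₁, g (v + log 2) ≤ I + log 2 / 2`.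
So `(√2 - 1) I ≤ ∫ √Wu + log 2 / 2`, with `√2 - 1 ≥ 2 / 5`; use `deficit_le_gam`. -/
theorem integral_deficit_le_sqrt {ν : FM} (hν : tot ν = 1) {y₀ y₁ : ℝ} (h : y₀ ≤ y₁) :
    ∫ v in y₀..y₁, (log 2 - Du ν v) ≤ 10 * (∫ v in y₀..y₁, √(Wu ν v)) + 10 := by
  set g : ℝ → ℝ := fun v => √(gam ν (exp (-v))) with hg
  have hg0 : ∀ v, 0 ≤ g v := fun v => Real.sqrt_nonneg _
  have hg1 : ∀ v, g v ≤ 1 / 2 := fun v => by
    refine Real.sqrt_le_iff.2 ⟨by norm_num, (gam_le_quarter hν (exp_pos _)).trans (by norm_num)⟩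
  have hgm : Measurable g :=
    ((measurable_gam ν).comp (by fun_prop : Measurable fun v : ℝ => exp (-v))).sqrt
  have hgi : ∀ a b, IntervalIntegrable g volume a b :=
    intervalIntegrable_of_bdd hgm (B := 1 / 2) fun v => (abs_of_nonneg (hg0 v)).trans_le (hg1 v)
  have hgi' : IntervalIntegrable (fun v => g (v + log 2)) volume y₀ y₁ :=
    intervalIntegrable_of_bdd (hgm.comp (measurable_id.add_const _)) (B := 1 / 2)
      (fun v => (abs_of_nonneg (hg0 _)).trans_le (hg1 _)) _ _
  have hWi : IntervalIntegrable (fun v => √(Wu ν v)) volume y₀ y₁ :=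
    intervalIntegrable_of_bdd (measurable_Wu ν).sqrt (B := 1)
      (fun v => (abs_of_nonneg (Real.sqrt_nonneg _)).trans_le
        (Real.sqrt_le_one.2 ((Wu_le ν v).trans hν.le))) _ _
  have hl : 0 < log 2 := log_pos one_lt_two
  have hl1 : log 2 ≤ 1 := by linarith [Real.log_two_lt_d9]
  have h1 : ∀ v, g v ≤ 5 / 7 * (√(Wu ν v) + g (v + log 2)) := by
    intro v
    have e : exp (-(v + log 2)) = exp (-v) / 2 := by
      rw [neg_add, exp_add, exp_neg (log 2), exp_log two_pos, div_eq_mul_inv]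
    have h2 := gam_le ν (exp_pos (-v))
    have h3 := Real.sq_sqrt (Wu_nonneg ν v)
    have h4 := Real.sq_sqrt (gam_nonneg ν (r := exp (-v) / 2) (by positivity))
    have h5 := Real.sqrt_nonneg (Wu ν v)
    have h6 := Real.sqrt_nonneg (gam ν (exp (-v) / 2))
    simp only [hg, e]
    refine Real.sqrt_le_iff.2 ⟨by positivity, h2.trans ?_⟩
    change Wu ν v / 2 + _ ≤ _
    nlinarith [mul_nonneg h5 h6, sq_nonneg √(Wu ν v), sq_nonneg √(gam ν (exp (-v) / 2))]
  have h2 : ∫ v in y₀..y₁, g (v + log 2) ≤ (∫ v in y₀..y₁, g v) + 1 / 2 := by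
    rw [intervalIntegral.integral_comp_add_right]
    have e1 := intervalIntegral.integral_add_adjacent_intervals (hgi y₀ (y₀ + log 2))
      (hgi (y₀ + log 2) (y₁ + log 2))
    have e2 := intervalIntegral.integral_add_adjacent_intervals (hgi y₀ y₁) (hgi y₁ (y₁ + log 2))
    have e3 : 0 ≤ ∫ v in y₀..(y₀ + log 2), g v :=
      intervalIntegral.integral_nonneg (by linarith) fun v _ => hg0 v
    have e4 : ∫ v in y₁..(y₁ + log 2), g v ≤ ∫ _v in y₁..(y₁ + log 2), (1 / 2 : ℝ) :=
      intervalIntegral.integral_mono_on (by linarith) (hgi _ _) intervalIntegrable_const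
        fun v _ => hg1 v
    rw [intervalIntegral.integral_const, smul_eq_mul] at e4
    linarith
  have h3 : ∫ v in y₀..y₁, g v ≤ ∫ v in y₀..y₁, 5 / 7 * (√(Wu ν v) + g (v + log 2)) :=
    intervalIntegral.integral_mono_on h (hgi _ _) ((hWi.add hgi').const_mul _) fun v _ => h1 v
  rw [intervalIntegral.integral_const_mul, intervalIntegral.integral_add hWi hgi'] at h3
  have h4 : ∫ v in y₀..y₁, (log 2 - Du ν v) ≤ ∫ v in y₀..y₁, 4 * g v :=
    intervalIntegral.integral_mono_on h (intervalIntegrable_const.sub (intervalIntegrable_Du ν _ _))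
      ((hgi _ _).const_mul _) fun v _ => deficit_le_gam hν (exp_pos _)
  rw [intervalIntegral.integral_const_mul] at h4
  linarith

/-- `move_WW`, `Move.pow`, `Move.le_deficit` give
`(1 - (1 - Wu ν v) ^ k) * (log 2 / 8) ≤ log 2 - Du (ν ^ k) (v - log 2)`; integrate with
`integral_deficit`, `HH_le_log`, `HH_nonneg`. -/
theorem integral_pow_le {ν : FM} (hν : tot ν = 1) (k : ℕ) {y₀ y₁ : ℝ} (h : y₀ ≤ y₁) :
    ∫ v in y₀..y₁, (1 - (1 - Wu ν v) ^ k) ≤ 8 * log (natoms (ν ^ k)) := by
  have hk : tot (ν ^ k) = 1 := by rw [tot_pow, hν, one_pow]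
  have hl : 0 < log 2 := log_pos one_lt_two
  have h1 : ∀ v, log 2 / 8 * (1 - (1 - Wu ν v) ^ k) ≤ log 2 - Du (ν ^ k) (v - log 2) := by
    intro v
    have e : exp (-(v - log 2)) = 2 * exp (-v) := by
      rw [neg_sub, sub_eq_add_neg, exp_add, exp_log two_pos]
    rw [Du, e, mul_comm]
    exact ((move_WW ν (exp_pos (-v))).pow hν k).le_deficit hk (exp_pos _)
  have h2 : ∫ v in y₀..y₁, log 2 / 8 * (1 - (1 - Wu ν v) ^ k) ≤
      ∫ v in y₀..y₁, (log 2 - Du (ν ^ k) (v - log 2)) := by
    refine intervalIntegral.integral_mono_on h ((key_pow_integrable hν k _ _).const_mul _)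
      (intervalIntegrable_const.sub ?_) fun v _ => h1 v
    exact intervalIntegrable_of_bdd ((measurable_Du _).comp (measurable_id.sub_const _))
      (fun v => (abs_of_nonneg (Du_nonneg _ _)).trans_le (Du_le _ _)) _ _
  rw [intervalIntegral.integral_const_mul,
    intervalIntegral.integral_comp_sub_right (fun v => log 2 - Du (ν ^ k) v),
    integral_deficit hk] at h2
  have h3 := HH_le_log hk (y₁ - log 2)
  have h4 := HH_nonneg hk.le (y₀ - log 2)
  refine le_of_mul_le_mul_left ?_ (show 0 < log 2 / 8 by positivity)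
  linarith

/-- **Key lemma.** Take `j₀` from `tail_small (ε / 80)` and `C = 10 * 2 ^ j₀`. Integrate
`sqrt_le_dyadic` with `integral_pow_le` at `k = 4 ^ (j + 1)`, choose `j₁ ≥ j₀` with
`(1 / 2) ^ j₁ * (y₁ - y₀) ≤ 1`, and use `integral_deficit_le_sqrt`. -/
theorem key {ε : ℝ} (hε : 0 < ε) : ∃ C : ℝ, 0 < C ∧ ∀ (ν : FM) (Nn y₀ y₁ : ℝ), tot ν = 1 →
    0 ≤ Nn → (∀ k : ℕ, log (natoms (ν ^ k)) ≤ Nn * log (k + 1)) → y₀ ≤ y₁ →
    ∫ v in y₀..y₁, (log 2 - Du ν v) ≤ C * (∫ v in y₀..y₁, Wu ν v) + ε * Nn + 20 := by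
  obtain ⟨j₀, hj₀⟩ := tail_small (ε := ε / 80) (by positivity)
  refine ⟨10 * 2 ^ j₀, by positivity, fun ν Nn y₀ y₁ hν hN hat h => ?_⟩
  obtain ⟨j₁, hj₁, hj⟩ : ∃ j₁, j₀ ≤ j₁ ∧ (y₁ - y₀) * (1 / 2 : ℝ) ^ j₁ ≤ 1 := by
    obtain ⟨n, hn⟩ := pow_unbounded_of_one_lt (y₁ - y₀) (one_lt_two (α := ℝ))
    refine ⟨max j₀ n, le_max_left _ _, ?_⟩
    have h2 : (2 : ℝ) ^ n ≤ 2 ^ max j₀ n := pow_le_pow_right₀ one_le_two (le_max_right _ _)
    rw [one_div, inv_pow, ← div_eq_mul_inv, div_le_one (by positivity)]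
    linarith
  have hWi : IntervalIntegrable (fun v => √(Wu ν v)) volume y₀ y₁ :=
    intervalIntegrable_of_bdd (measurable_Wu ν).sqrt (B := 1)
      (fun v => (abs_of_nonneg (Real.sqrt_nonneg _)).trans_le
        (Real.sqrt_le_one.2 ((Wu_le ν v).trans hν.le))) _ _
  have i1 : IntervalIntegrable (fun v => 2 ^ j₀ * Wu ν v) volume y₀ y₁ :=
    (intervalIntegrable_Wu ν _ _).const_mul _
  have i2 : ∀ j ∈ Finset.Ico j₀ j₁, IntervalIntegrable
      (fun v => 2 * (1 / 2 : ℝ) ^ j * (1 - (1 - Wu ν v) ^ 4 ^ (j + 1))) volume y₀ y₁ :=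
    fun j _ => (key_pow_integrable hν _ _ _).const_mul _
  have i3 : IntervalIntegrable (fun v => ∑ j ∈ Finset.Ico j₀ j₁,
      2 * (1 / 2 : ℝ) ^ j * (1 - (1 - Wu ν v) ^ 4 ^ (j + 1))) volume y₀ y₁ := by
    have := IntervalIntegrable.sum _ i2
    refine this.congr fun v _ => ?_
    simp
  have h1 : ∫ v in y₀..y₁, √(Wu ν v) ≤ ∫ v in y₀..y₁, (2 ^ j₀ * Wu ν v +
      (∑ j ∈ Finset.Ico j₀ j₁, 2 * (1 / 2) ^ j * (1 - (1 - Wu ν v) ^ 4 ^ (j + 1))) +
      (1 / 2) ^ j₁) :=
    intervalIntegral.integral_mono_on h hWi ((i1.add i3).add intervalIntegrable_const) fun v _ =>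
      sqrt_le_dyadic (Wu_nonneg ν v) ((Wu_le ν v).trans hν.le) hj₁
  rw [intervalIntegral.integral_add (i1.add i3) intervalIntegrable_const,
    intervalIntegral.integral_add i1 i3, intervalIntegral.integral_const_mul,
    intervalIntegral.integral_finsetSum i2, intervalIntegral.integral_const, smul_eq_mul] at h1
  have h2 : ∑ j ∈ Finset.Ico j₀ j₁, ∫ v in y₀..y₁,
      2 * (1 / 2 : ℝ) ^ j * (1 - (1 - Wu ν v) ^ 4 ^ (j + 1)) ≤ 8 * Nn * (ε / 80) := by
    refine le_trans ?_ (mul_le_mul_of_nonneg_left (hj₀ j₁) (by positivity))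
    rw [Finset.mul_sum]
    refine Finset.sum_le_sum fun j _ => ?_
    rw [intervalIntegral.integral_const_mul]
    have h3 := (integral_pow_le hν (4 ^ (j + 1)) h).trans
      (mul_le_mul_of_nonneg_left (hat (4 ^ (j + 1))) (by norm_num))
    refine (mul_le_mul_of_nonneg_left h3 (by positivity)).trans (le_of_eq ?_)
    ring
  have h3 := integral_deficit_le_sqrt hν h
  linarith

end Crest.Agent.R98
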