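import Crest.Agent.R98.Env

/-!
# R98: the limiting deficiency and its renewal function
-/

set_option autoImplicit false

open scoped NNReal
open Real MeasureTheory Filter Topology

namespace Crest.Agent.R98

namespace Model

variable {T : Type} [Fintype T] (M : Model T)

/-- Expected deficiency at depth `N`. -/
noncomputable def dN (N : ℕ) (v : ℝ) : ℝ := M.E N fun τ => Du (M.nu τ) v

/-- Limiting deficiency. -/
noncomputable def dinf (v : ℝ) : ℝ := ⨅ N, M.dN N v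

/-- Integrated limiting deficiency. -/
noncomputable def G (y : ℝ) : ℝ := ∫ v in (0 : ℝ)..y, M.dinf v

/-- The renewal function. -/
noncomputable def Θ (y : ℝ) : ℝ := M.G y - ∑ θ, M.pr θ * M.G (y - M.a θ)

/-- Its infimum. -/
noncomputable def Θinf : ℝ := ⨅ y, M.Θ y

theorem dN_nonneg (N : ℕ) (v : ℝ) : 0 ≤ M.dN N v := M.le_E fun _ _ => Du_nonneg _ _

theorem dN_le (N : ℕ) (v : ℝ) : M.dN N v ≤ log 2 :=
  M.E_le fun τ _ => by simpa [M.tot_nu] using Du_le (M.nu τ) v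

/-- `E_append N 1`, `nu_append`, `mul_comm`, `Du_mul_le`, `tot_sc`, `tot_nu`;
`antitone_nat_of_succ_le`. -/
theorem dN_antitone (v : ℝ) : Antitone fun N => M.dN N v := by
  refine antitone_nat_of_succ_le fun N => ?_
  unfold dN
  rw [M.E_append N 1]
  refine M.E_mono fun σ _ => M.E_le fun τ _ => ?_
  rw [M.nu_append, mul_comm]
  simpa [M.tot_nu] using Du_mul_le (sc (M.lam σ) (M.nu τ)) (M.nu σ) v

/-- `E_succ`, `nu_cons`, `Du_mul_le`, `Du_sc`. -/
theorem dN_succ_le (N : ℕ) (v : ℝ) : M.dN (N + 1) v ≤ ∑ θ, M.pr θ * M.dN N (v - M.a θ) := by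
  unfold dN
  rw [M.E_succ]
  refine M.sum_pr_mono fun θ => M.E_mono fun τ _ => ?_
  rw [M.nu_cons]
  have h := Du_mul_le (M.η θ) (sc (M.ρ θ) (M.nu τ)) v
  rw [M.tot_η, one_mul, Du_sc (M.ρ_ne θ)] at h
  simpa [a] using h

theorem dinf_le_dN (N : ℕ) (v : ℝ) : M.dinf v ≤ M.dN N v :=
  ciInf_le ⟨0, by rintro _ ⟨N, rfl⟩; exact M.dN_nonneg N v⟩ N

theorem dinf_nonneg (v : ℝ) : 0 ≤ M.dinf v := le_ciInf fun N => M.dN_nonneg N v

theorem dinf_le (v : ℝ) : M.dinf v ≤ log 2 := (M.dinf_le_dN 0 v).trans (M.dN_le 0 v)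

/-- `tendsto_atTop_ciInf`. -/
theorem tendsto_dN (v : ℝ) : Tendsto (fun N => M.dN N v) atTop (𝓝 (M.dinf v)) := by
  exact tendsto_atTop_ciInf (M.dN_antitone v) ⟨0, by rintro _ ⟨N, rfl⟩; exact M.dN_nonneg N v⟩

theorem measurable_dN (N : ℕ) : Measurable (M.dN N) :=
  M.measurable_E N (f := fun v τ => Du (M.nu τ) v) fun _ => measurable_Du _

theorem intervalIntegrable_dN (N : ℕ) (a b : ℝ) : IntervalIntegrable (M.dN N) volume a b :=
  intervalIntegrable_of_bdd (M.measurable_dN N)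
    (fun v => (abs_of_nonneg (M.dN_nonneg N v)).trans_le (M.dN_le N v)) a b

/-- `measurable_E`, `measurable_Du`, `Measurable.iInf`. -/
theorem measurable_dinf : Measurable M.dinf := by
  exact Measurable.iInf fun N =>
    M.measurable_E N (f := fun v τ => Du (M.nu τ) v) fun τ => measurable_Du _

theorem intervalIntegrable_dinf (a b : ℝ) : IntervalIntegrable M.dinf volume a b :=
  intervalIntegrable_of_bdd M.measurable_dinf
    (fun v => (abs_of_nonneg (M.dinf_nonneg v)).trans_le (M.dinf_le v)) a b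

/-- Pass to the limit in `dN_succ_le`. -/
theorem dinf_le_sum (v : ℝ) : M.dinf v ≤ ∑ θ, M.pr θ * M.dinf (v - M.a θ) := by
  have h1 : Tendsto (fun N => ∑ θ, M.pr θ * M.dN N (v - M.a θ)) atTop
      (𝓝 (∑ θ, M.pr θ * M.dinf (v - M.a θ))) :=
    tendsto_finsetSum _ fun θ _ => (M.tendsto_dN _).const_mul _
  exact ge_of_tendsto' h1 fun N => (M.dinf_le_dN (N + 1) v).trans (M.dN_succ_le N v)

theorem G_sub (y₁ y₂ : ℝ) : M.G y₂ - M.G y₁ = ∫ v in y₁..y₂, M.dinf v :=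
  intervalIntegral.integral_interval_sub_left (M.intervalIntegrable_dinf _ _)
    (M.intervalIntegrable_dinf _ _)

theorem G_zero : M.G 0 = 0 := intervalIntegral.integral_same

theorem integral_dinf_le {y₁ y₂ : ℝ} (h : y₁ ≤ y₂) :
    ∫ v in y₁..y₂, M.dinf v ≤ (y₂ - y₁) * log 2 := by
  have := intervalIntegral.integral_mono_on h (M.intervalIntegrable_dinf _ _)
    (intervalIntegrable_const (c := log 2)) fun v _ => M.dinf_le v
  rwa [intervalIntegral.integral_const, smul_eq_mul] at this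

theorem Θ_eq (y : ℝ) : M.Θ y = ∑ θ, M.pr θ * ∫ v in (y - M.a θ)..y, M.dinf v := by
  simp only [← M.G_sub, mul_sub, Finset.sum_sub_distrib, M.sum_pr_mul, Θ]

theorem sum_affine (c y B : ℝ) :
    ∑ θ, M.pr θ * (c * (y - M.a θ) - B) = c * y - c * M.chi - B := by
  have (θ : T) : M.pr θ * (c * (y - M.a θ) - B) = M.pr θ * (c * y - B) - c * (M.pr θ * M.a θ) := by
    ring
  simp only [this, Finset.sum_sub_distrib, M.sum_pr_mul, ← Finset.mul_sum, chi]
  ring

theorem E_DD (N : ℕ) (y₁ y₂ : ℝ) :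
    M.E N (fun τ => DD (M.nu τ) y₁ y₂) = ∫ v in y₁..y₂, M.dN N v :=
  (M.integral_E N (f := fun v τ => Du (M.nu τ) v) fun _ => intervalIntegrable_Du _ _ _).symm

/-- `E_DD`, `G_sub`, `intervalIntegral.tendsto_integral_filter_of_dominated_convergence`. -/
theorem tendsto_DD (y₁ y₂ : ℝ) :
    Tendsto (fun N => M.E N fun τ => DD (M.nu τ) y₁ y₂) atTop (𝓝 (M.G y₂ - M.G y₁)) := by
  simp only [M.E_DD, M.G_sub]
  refine intervalIntegral.tendsto_integral_filter_of_dominated_convergence (fun _ => log 2) ?_ ?_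
    intervalIntegrable_const ?_
  · exact Eventually.of_forall fun N => (M.measurable_dN N).aestronglyMeasurable
  · exact Eventually.of_forall fun N => Eventually.of_forall fun v _ =>
      (Real.norm_of_nonneg (M.dN_nonneg N v)).trans_le (M.dN_le N v)
  · exact Eventually.of_forall fun v _ => M.tendsto_dN v

/-- `E_DD`, `G_sub`, `dinf_le_dN`. -/
theorem G_sub_le (N : ℕ) {y₁ y₂ : ℝ} (h : y₁ ≤ y₂) :
    M.G y₂ - M.G y₁ ≤ M.E N fun τ => DD (M.nu τ) y₁ y₂ := by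
  rw [M.E_DD, M.G_sub]
  exact intervalIntegral.integral_mono_on h (M.intervalIntegrable_dinf _ _)
    (M.intervalIntegrable_dN N _ _) fun v _ => M.dinf_le_dN N v

/-- For `y₁ ≤ y₂`,
`Θ y₂ - Θ y₁ = ∫ v in y₁..y₂, (dinf v - ∑ θ, pr θ * dinf (v - a θ)) ≤ 0` (`G_sub`,
`intervalIntegral.integral_comp_sub_right`, `dinf_le_sum`). -/
theorem Θ_antitone : Antitone M.Θ := by
  intro y₁ y₂ h
  have hi (θ : T) : IntervalIntegrable (fun v => M.pr θ * M.dinf (v - M.a θ)) volume y₁ y₂ :=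
    (intervalIntegrable_of_bdd (M.measurable_dinf.comp (measurable_id.sub_const (M.a θ)))
      (fun v => (abs_of_nonneg (M.dinf_nonneg _)).trans_le (M.dinf_le _)) y₁ y₂).const_mul _
  have h1 : ∑ θ, M.pr θ * M.G (y₂ - M.a θ) - ∑ θ, M.pr θ * M.G (y₁ - M.a θ)
      = ∫ v in y₁..y₂, ∑ θ, M.pr θ * M.dinf (v - M.a θ) := by
    rw [intervalIntegral.integral_finsetSum fun θ _ => hi θ, ← Finset.sum_sub_distrib]
    refine Finset.sum_congr rfl fun θ _ => ?_
    rw [intervalIntegral.integral_const_mul, intervalIntegral.integral_comp_sub_right,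
      ← M.G_sub, mul_sub]
  have h2 : ∫ v in y₁..y₂, M.dinf v ≤ ∫ v in y₁..y₂, ∑ θ, M.pr θ * M.dinf (v - M.a θ) := by
    refine intervalIntegral.integral_mono_on h (M.intervalIntegrable_dinf _ _) ?_
      fun v _ => M.dinf_le_sum v
    have := IntervalIntegrable.sum (Finset.univ : Finset T) fun θ _ => hi θ
    rwa [Finset.sum_fn] at this
  have h3 := M.G_sub y₁ y₂
  unfold Θ
  linarith

/-- `Θ y = ∑ θ, pr θ * (G y - G (y - a θ))`, `G_sub`. -/
theorem Θ_nonneg (y : ℝ) : 0 ≤ M.Θ y := by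
  rw [M.Θ_eq]
  exact Finset.sum_nonneg fun θ _ => mul_nonneg (M.pr_nonneg θ)
    (intervalIntegral.integral_nonneg (by linarith [M.a_pos θ]) fun v _ => M.dinf_nonneg v)

/-- `Θ y = ∑ θ, pr θ * ∫ v in (y - a θ)..y, dinf v` and `dinf ≥ 0`, `a θ ≤ amax`. -/
theorem Θ_le_integral (y : ℝ) : M.Θ y ≤ ∫ v in (y - M.amax)..y, M.dinf v := by
  rw [M.Θ_eq]
  refine (M.sum_pr_mono fun θ => ?_).trans_eq (M.sum_pr_mul _)
  exact intervalIntegral.integral_mono_interval (by linarith [M.a_le_amax θ])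
    (by linarith [M.a_pos θ]) le_rfl (Eventually.of_forall fun v => M.dinf_nonneg v)
    (M.intervalIntegrable_dinf _ _)

theorem Θinf_le (y : ℝ) : M.Θinf ≤ M.Θ y :=
  ciInf_le ⟨0, by rintro _ ⟨y, rfl⟩; exact M.Θ_nonneg y⟩ y

theorem Θinf_nonneg : 0 ≤ M.Θinf := le_ciInf M.Θ_nonneg

/-- `Θ_le_integral`, `dinf_le`. -/
theorem Θinf_le_amax : M.Θinf ≤ M.amax * log 2 := by
  refine (M.Θinf_le 0).trans ((M.Θ_le_integral 0).trans ?_)
  have := M.integral_dinf_le (y₁ := 0 - M.amax) (y₂ := 0) (by linarith [M.amax_pos])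
  simpa using this

/-- `exists_lt_of_ciInf_lt` and `Θ_antitone`. -/
theorem exists_Θ_le {ε : ℝ} (hε : 0 < ε) : ∃ y₀, ∀ y, y₀ ≤ y → M.Θ y ≤ M.Θinf + ε := by
  obtain ⟨y₀, hy₀⟩ := exists_lt_of_ciInf_lt (f := M.Θ) (a := M.Θinf + ε)
    (lt_add_of_pos_right _ hε)
  exact ⟨y₀, fun y hy => (M.Θ_antitone hy).trans hy₀.le⟩

/-- `renewal` at `y₀ = 0`: for `y ∈ [-amax, 0]`, `G y ≥ -amax log 2`; for `y > 0`,
`G y = Θ y + ∑ θ, pr θ * G (y - a θ) ≥ Θinf + Θinf / chi * (y - chi) - amax log 2`. -/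
theorem G_lower {y : ℝ} (hy : 0 ≤ y) : M.Θinf / M.chi * y - M.amax * log 2 ≤ M.G y := by
  have hc : 0 ≤ M.Θinf / M.chi := div_nonneg M.Θinf_nonneg M.chi_pos.le
  refine M.renewal (P := fun y => M.Θinf / M.chi * y - M.amax * log 2 ≤ M.G y) 0 ?_ ?_
    (by linarith [M.amax_pos])
  · intro y h1 h2
    have h3 := M.integral_dinf_le h2
    rw [← M.G_sub, M.G_zero] at h3
    have h4 : M.Θinf / M.chi * y ≤ 0 := mul_nonpos_of_nonneg_of_nonpos hc h2
    have h5 : (0 - y) * log 2 ≤ M.amax * log 2 :=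
      mul_le_mul_of_nonneg_right (by linarith) (log_nonneg one_le_two)
    linarith
  · intro y _ h
    have h1 := M.sum_pr_mono h
    rw [M.sum_affine] at h1
    have h2 := M.Θinf_le y
    have h3 : M.Θinf / M.chi * M.chi = M.Θinf := div_mul_cancel₀ _ M.chi_pos.ne'
    unfold Θ at h2
    linarith

/-- `renewal` at `y₀ ≥ amax` from `exists_Θ_le`, with `C = y₀ log 2`; for `0 ≤ y ≤ y₀` one has
`G y ≤ y₀ log 2`. -/
theorem G_upper {ε : ℝ} (hε : 0 < ε) :
    ∃ C, ∀ y, 0 ≤ y → M.G y ≤ (M.Θinf + ε) / M.chi * y + C := by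
  obtain ⟨y₀, hy₀⟩ := M.exists_Θ_le hε
  have hc : 0 ≤ (M.Θinf + ε) / M.chi := div_nonneg (by linarith [M.Θinf_nonneg]) M.chi_pos.le
  have h0 (y : ℝ) (h1 : 0 ≤ y) (h2 : y ≤ max y₀ M.amax) :
      M.G y ≤ (M.Θinf + ε) / M.chi * y + max y₀ M.amax * log 2 := by
    have h3 := M.integral_dinf_le h1
    rw [← M.G_sub, M.G_zero] at h3
    have h4 : 0 ≤ (M.Θinf + ε) / M.chi * y := mul_nonneg hc h1
    have h5 : (y - 0) * log 2 ≤ max y₀ M.amax * log 2 :=
      mul_le_mul_of_nonneg_right (by linarith) (log_nonneg one_le_two)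
    linarith
  refine ⟨max y₀ M.amax * log 2, fun y hy => ?_⟩
  rcases le_total y (max y₀ M.amax) with h | h
  · exact h0 y hy h
  refine M.renewal (P := fun y => M.G y ≤ (M.Θinf + ε) / M.chi * y + max y₀ M.amax * log 2)
    (max y₀ M.amax) ?_ ?_ (by linarith [M.amax_pos])
  · intro y h1 h2
    exact h0 y (by linarith [le_max_right y₀ M.amax]) h2
  · intro y hy h
    have h1 := M.sum_pr_mono h
    simp only [← sub_neg_eq_add _ (max y₀ M.amax * log 2)] at h1
    rw [M.sum_affine] at h1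
    have h2 := hy₀ y ((le_max_left _ _).trans hy.le)
    have h3 : (M.Θinf + ε) / M.chi * M.chi = M.Θinf + ε := div_mul_cancel₀ _ M.chi_pos.ne'
    unfold Θ at h2
    linarith

/-- By `Θ_le_integral` some `v ∈ [y - amax, y]` has `dinf v ≥ Θinf / (2 amax)` (otherwise the
integral is at most `Θinf / 2`). Then `Θinf / (2 amax) ≤ dN N v ≤ log 2 * E N Tu` (`Du_le_Tu`), so
`2 η ≤ E N Tu ≤ η + E N (indicator)`, as `Tu ≤ η + indicator` (`Tu_le`, `tot_nu`). -/
theorem exists_Tu (hΘ : 0 < M.Θinf) {η : ℝ} (hη : η = M.Θinf / (4 * M.amax * log 2)) (y : ℝ) :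
    ∃ v, y - M.amax ≤ v ∧ v ≤ y ∧
      ∀ N, η ≤ M.E N fun τ => if η ≤ Tu (M.nu τ) v then 1 else 0 := by
  have ha := M.amax_pos
  have hl : 0 < log 2 := log_pos one_lt_two
  have hv : ∃ v, y - M.amax ≤ v ∧ v ≤ y ∧ M.Θinf / (2 * M.amax) ≤ M.dinf v := by
    by_contra hcon
    push Not at hcon
    have h1 : ∫ v in (y - M.amax)..y, M.dinf v
        ≤ ∫ _ in (y - M.amax)..y, M.Θinf / (2 * M.amax) :=
      intervalIntegral.integral_mono_on (by linarith) (M.intervalIntegrable_dinf _ _)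
        intervalIntegrable_const fun v hv => (hcon v hv.1 hv.2).le
    rw [intervalIntegral.integral_const, smul_eq_mul] at h1
    have h2 : (y - (y - M.amax)) * (M.Θinf / (2 * M.amax)) = M.Θinf / 2 := by
      field_simp
      ring
    have h3 := (M.Θinf_le y).trans (M.Θ_le_integral y)
    linarith
  obtain ⟨v, h1, h2, h3⟩ := hv
  refine ⟨v, h1, h2, fun N => ?_⟩
  have hη0 : 0 < η := by rw [hη]; positivity
  have h4 : M.dN N v ≤ log 2 * (η + M.E N fun τ => if η ≤ Tu (M.nu τ) v then 1 else 0) := by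
    have : (log 2 * (η + M.E N fun τ => if η ≤ Tu (M.nu τ) v then 1 else 0))
        = M.E N fun τ => log 2 * (η + if η ≤ Tu (M.nu τ) v then 1 else 0) := by
      rw [M.E_mul, M.E_add, M.E_const]
    rw [this]
    refine M.E_mono fun τ _ => (Du_le_Tu _ _).trans (mul_le_mul_of_nonneg_left ?_ hl.le)
    split_ifs with h
    · have := Tu_le (M.nu τ) v
      rw [M.tot_nu] at this
      linarith
    · linarith [not_le.1 h]
  have h5 : M.Θinf / (2 * M.amax) = log 2 * (2 * η) := by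
    rw [hη]
    field_simp
    ring
  have h6 := (h5.symm.trans_le h3).trans ((M.dinf_le_dN N v).trans h4)
  have h7 := le_of_mul_le_mul_left h6 hl
  linarith

/-- Let `α = 1 - Θinf / (chi log 2) > s`; pick `ε > 0` with
`s' := 1 - (Θinf + ε) / (chi log 2) > s` and `C'` from `G_upper`. For `y ≥ log 2` and `N` large,
`E N (DD (nu τ) 0 y) ≤ G y + 1` (`tendsto_DD`, `G 0 = 0`) and `y ≤ amin N`; by `DD_eq`, `HH_nonneg`,
`E N (HH (nu τ) y) ≥ y log 2 - G y - 1 ≥ s' y log 2 - C' - 1`. Take `y ≥ 2 log 2` so large that this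
is more than `log 2 * (s y + |s| log 2 + C)`. As `E N HH = ∫ v in (y - log 2)..y, E N (Hu (nu τ) v)`
(`integral_E`), some `v ∈ [y - log 2, y]` has `E N (Hu (nu τ) v) ≥ s y + |s| log 2 + C ≥ s v + C`.
Take `q = exp (-v)`. -/
theorem entropy_of_lt {s : ℝ} (hs : s < 1 - M.Θinf / (M.chi * log 2)) (C : ℝ) :
    ∃ (q : ℝ) (N : ℕ), 0 < q ∧ q ≤ 1 / 2 ∧ exp (-M.amin) ^ N ≤ q ∧
      s * log (1 / q) + C ≤ M.E N fun τ => Hs (M.nu τ) q := by
  have hl : 0 < log 2 := log_pos one_lt_two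
  have hchi := M.chi_pos
  obtain ⟨δ, hδ⟩ : ∃ δ, δ = 1 - M.Θinf / (M.chi * log 2) - s := ⟨_, rfl⟩
  have hδ0 : 0 < δ := by rw [hδ]; linarith
  obtain ⟨C', hC'⟩ := M.G_upper (ε := δ / 2 * (M.chi * log 2)) (by positivity)
  have hslope : (M.Θinf + δ / 2 * (M.chi * log 2)) / M.chi = log 2 * (1 - s - δ / 2) := by
    have : M.Θinf = (1 - s - δ) * (M.chi * log 2) := by
      rw [hδ]
      field_simp
      ring
    rw [this]
    field_simp
    ring
  rw [hslope] at hC'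
  obtain ⟨y, hy1, hy2⟩ : ∃ y : ℝ, 2 * log 2 ≤ y ∧
      C' + 1 + log 2 * (|s| * log 2 + C) < log 2 * (δ / 2) * y := by
    refine ⟨max (2 * log 2) ((C' + 1 + log 2 * (|s| * log 2 + C) + 1) / (log 2 * (δ / 2))),
      le_max_left _ _, ?_⟩
    have hp : 0 < log 2 * (δ / 2) := by positivity
    have := (div_le_iff₀ hp).1
      (le_max_right (2 * log 2) ((C' + 1 + log 2 * (|s| * log 2 + C) + 1) / (log 2 * (δ / 2))))
    linarith
  have hy0 : 0 ≤ y := by linarith
  have e1 : ∀ᶠ N in atTop, M.E N (fun τ => DD (M.nu τ) 0 y) < M.G y - M.G 0 + 1 :=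
    (M.tendsto_DD 0 y).eventually (gt_mem_nhds (lt_add_one _))
  have e2 : ∀ᶠ N : ℕ in atTop, y / M.amin ≤ (N : ℝ) :=
    tendsto_natCast_atTop_atTop.eventually (eventually_ge_atTop _)
  obtain ⟨N, hN1, hN2⟩ := (e1.and e2).exists
  rw [M.G_zero, sub_zero] at hN1
  rw [div_le_iff₀ M.amin_pos] at hN2
  have h1 : y * log 2 - M.E N (fun τ => DD (M.nu τ) 0 y) ≤ M.E N fun τ => HH (M.nu τ) y := by
    have : y * log 2 - M.E N (fun τ => DD (M.nu τ) 0 y)
        = M.E N fun τ => y * log 2 - DD (M.nu τ) 0 y := by rw [M.E_sub, M.E_const]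
    rw [this]
    refine M.E_mono fun τ _ => ?_
    rw [DD_eq (M.tot_nu τ)]
    linarith [HH_nonneg (M.tot_nu τ).le 0]
  have hI (τ : List T) : IntervalIntegrable (fun v => Hu (M.nu τ) v) volume (y - log 2) y :=
    intervalIntegrable_Hu (M.tot_nu τ).le _ _
  have h2 : M.E N (fun τ => HH (M.nu τ) y)
      = ∫ v in (y - log 2)..y, M.E N fun τ => Hu (M.nu τ) v :=
    (M.integral_E N (f := fun v τ => Hu (M.nu τ) v) hI).symm
  have hv : ∃ v, y - log 2 ≤ v ∧ v ≤ y ∧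
      s * y + |s| * log 2 + C ≤ M.E N fun τ => Hu (M.nu τ) v := by
    by_contra hcon
    push Not at hcon
    have h3 : (∫ v in (y - log 2)..y, M.E N fun τ => Hu (M.nu τ) v)
        ≤ ∫ _ in (y - log 2)..y, (s * y + |s| * log 2 + C) :=
      intervalIntegral.integral_mono_on (by linarith)
        (M.intervalIntegrable_E N (f := fun v τ => Hu (M.nu τ) v) hI)
        intervalIntegrable_const fun v hv => (hcon v hv.1 hv.2).le
    rw [intervalIntegral.integral_const, smul_eq_mul] at h3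
    have h4 := hC' y hy0
    nlinarith
  obtain ⟨v, hv1, hv2, hv3⟩ := hv
  refine ⟨exp (-v), N, exp_pos _, ?_, ?_, ?_⟩
  · rw [show (1 / 2 : ℝ) = exp (-log 2) by rw [exp_neg, exp_log two_pos]; norm_num]
    exact exp_le_exp.2 (by linarith)
  · rw [← exp_nat_mul]
    exact exp_le_exp.2 (by linarith)
  · rw [one_div, ← exp_neg, neg_neg, log_exp]
    have h5 : s * (v - y) ≤ |s| * log 2 := by
      refine (le_abs_self _).trans ?_
      rw [abs_mul]
      exact mul_le_mul_of_nonneg_left (abs_le.2 ⟨by linarith, by linarith⟩) (abs_nonneg _)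
    have h6 : (M.E N fun τ => Hu (M.nu τ) v) = M.E N fun τ => Hs (M.nu τ) (exp (-v)) := rfl
    linarith

end Model

end Crest.Agent.R98
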