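import Crest.Agent.R98.Key
import Crest.Agent.R98.Theta

/-!
# R98: the probability of seeing a move at the target scale
-/

set_option autoImplicit false

open scoped NNReal
open Real MeasureTheory Filter Topology

namespace Crest.Agent.R98

namespace Model

variable {T : Type} [Fintype T] (M : Model T)

/-- The mass of moves of size `exp (-(y + L))` in the block `σ`, if the block ends before `y`. -/
noncomputable def gg (L y : ℝ) (σ : List T) : ℝ := if M.A σ ≤ y then Wu (M.nu σ) (y + L) else 0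

/-- The probability that one of the first `K` blocks of length `n` makes a move. -/
noncomputable def zz (n : ℕ) (L : ℝ) : ℕ → ℝ → ℝ
  | 0, _ => 0
  | K + 1, y => M.E n fun σ => M.gg L y σ + (1 - M.gg L y σ) * zz n L K (y - M.A σ)

theorem gg_nonneg (L y : ℝ) (σ : List T) : 0 ≤ M.gg L y σ := by
  unfold gg; split_ifs
  exacts [Wu_nonneg _ _, le_rfl]

theorem gg_le (L y : ℝ) (σ : List T) : M.gg L y σ ≤ 1 := by
  unfold gg; split_ifs
  exacts [(Wu_le _ _).trans_eq (M.tot_nu σ), zero_le_one]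

/-- Induction on `K` (`A_nonneg`). -/
theorem zz_of_neg (n : ℕ) (L : ℝ) (K : ℕ) {y : ℝ} (hy : y < 0) : M.zz n L K y = 0 := by
  induction K generalizing y with
  | zero => rfl
  | succ K ih =>
    have h (σ : List T) : M.gg L y σ + (1 - M.gg L y σ) * M.zz n L K (y - M.A σ) = 0 := by
      have hA := M.A_nonneg σ
      rw [ih (y := y - M.A σ) (by linarith), gg, if_neg (by linarith)]
      simp
    simp only [zz, h, E_const]

/-- Induction on `K`. -/
theorem zz_mem (n : ℕ) (L : ℝ) (K : ℕ) (y : ℝ) : 0 ≤ M.zz n L K y ∧ M.zz n L K y ≤ 1 := by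
  induction K generalizing y with
  | zero => exact ⟨le_rfl, zero_le_one⟩
  | succ K ih =>
    refine ⟨M.le_E fun σ _ => ?_, M.E_le fun σ _ => ?_⟩
    · have h1 := M.gg_nonneg L y σ
      have h2 := M.gg_le L y σ
      have h3 := (ih (y - M.A σ)).1
      exact add_nonneg h1 (mul_nonneg (by linarith) h3)
    · have h2 := M.gg_le L y σ
      have h3 := (ih (y - M.A σ)).2
      nlinarith

/-- `Measurable.ite`, `measurable_Wu`. -/
theorem measurable_gg (L : ℝ) (σ : List T) : Measurable fun y => M.gg L y σ := by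
  unfold gg
  exact Measurable.ite (measurableSet_le measurable_const measurable_id)
    ((measurable_Wu _).comp (measurable_id.add_const L)) measurable_const

/-- Induction on `K`, `measurable_E`. -/
theorem measurable_zz (n : ℕ) (L : ℝ) (K : ℕ) : Measurable (M.zz n L K) := by
  induction K with
  | zero => exact measurable_const
  | succ K ih =>
    exact M.measurable_E n
      (f := fun y σ => M.gg L y σ + (1 - M.gg L y σ) * M.zz n L K (y - M.A σ)) fun σ =>
      (M.measurable_gg L σ).add ((measurable_const.sub (M.measurable_gg L σ)).mul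
        (ih.comp (measurable_id.sub_const _)))

/-- Let `Z K = ∫ y in 0..Y, zz K y ≤ Y`. As `1 - zz ≥ 1 / 2`,
`zz (K+1) y ≥ E n (gg y) / 2 + E n (zz K (y - A σ))`. For a word `σ` of length `n`,
`∫ y in 0..Y, zz K (y - A σ) = ∫ y in (-A σ)..(Y - A σ), zz K y = Z K - ∫ y in (Y - A σ)..Y, zz K y`
(`zz_of_neg` almost everywhere on `(-A σ, 0)`) `≥ Z K - S * (n * amax)`. So
`Z (K+1) ≥ Z K + c` with `c = (∫ E n gg) / 2 - S n amax` (`integral_E`); `c > 0` would make `Z`
unbounded. -/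
theorem integral_gg_le (n : ℕ) (L : ℝ) {S Y : ℝ} (hS : S ≤ 1 / 2) (hY : 0 ≤ Y)
    (hz : ∀ K y, M.zz n L K y ≤ S) :
    M.E n (fun σ => ∫ y in (0 : ℝ)..Y, M.gg L y σ) ≤ 2 * S * (n * M.amax) := by
  have hS0 : 0 ≤ S := hz 0 0
  have izz (K : ℕ) (a b : ℝ) : IntervalIntegrable (M.zz n L K) volume a b :=
    intervalIntegrable_of_bdd (M.measurable_zz n L K) (B := 1)
      (fun v => (abs_of_nonneg (M.zz_mem n L K v).1).trans_le (M.zz_mem n L K v).2) a b
  have izz' (K : ℕ) (c a b : ℝ) : IntervalIntegrable (fun y => M.zz n L K (y - c)) volume a b :=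
    intervalIntegrable_of_bdd ((M.measurable_zz n L K).comp (measurable_id.sub_const c)) (B := 1)
      (fun v => (abs_of_nonneg (M.zz_mem n L K _).1).trans_le (M.zz_mem n L K _).2) a b
  have igg (σ : List T) (a b : ℝ) : IntervalIntegrable (fun y => M.gg L y σ) volume a b :=
    intervalIntegrable_of_bdd (M.measurable_gg L σ) (B := 1)
      (fun v => (abs_of_nonneg (M.gg_nonneg L v σ)).trans_le (M.gg_le L v σ)) a b
  set I := M.E n (fun σ => ∫ y in (0 : ℝ)..Y, M.gg L y σ) with hI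
  set c := I / 2 - S * (n * M.amax) with hc
  have step (K : ℕ) :
      (∫ y in (0 : ℝ)..Y, M.zz n L K y) + c ≤ ∫ y in (0 : ℝ)..Y, M.zz n L (K + 1) y := by
    have hi (σ : List T) : IntervalIntegrable
        (fun y => 1 / 2 * M.gg L y σ + M.zz n L K (y - M.A σ)) volume 0 Y :=
      ((igg σ 0 Y).const_mul _).add (izz' K _ 0 Y)
    have h1 : ∫ y in (0 : ℝ)..Y, M.E n (fun σ => 1 / 2 * M.gg L y σ + M.zz n L K (y - M.A σ))
        ≤ ∫ y in (0 : ℝ)..Y, M.zz n L (K + 1) y := by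
      refine intervalIntegral.integral_mono_on hY
        (M.intervalIntegrable_E n
          (f := fun y σ => 1 / 2 * M.gg L y σ + M.zz n L K (y - M.A σ)) hi) (izz _ _ _)
        fun y _ => M.E_mono fun σ _ => ?_
      have h2 := M.gg_nonneg L y σ
      have h3 := hz K (y - M.A σ)
      nlinarith
    refine le_trans ?_ h1
    rw [M.integral_E n (f := fun y σ => 1 / 2 * M.gg L y σ + M.zz n L K (y - M.A σ)) hi]
    have h4 (σ : List T) (hσ : σ.length = n) :
        1 / 2 * (∫ y in (0 : ℝ)..Y, M.gg L y σ)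
            + ((∫ y in (0 : ℝ)..Y, M.zz n L K y) - S * (n * M.amax))
          ≤ ∫ y in (0 : ℝ)..Y, (1 / 2 * M.gg L y σ + M.zz n L K (y - M.A σ)) := by
      rw [intervalIntegral.integral_add ((igg σ 0 Y).const_mul _) (izz' K _ 0 Y),
        intervalIntegral.integral_const_mul, intervalIntegral.integral_comp_sub_right]
      have hA := M.A_nonneg σ
      have hA' : M.A σ ≤ n * M.amax := hσ ▸ M.A_le σ
      have e1 := intervalIntegral.integral_add_adjacent_intervals (izz K (0 - M.A σ) 0) (izz K 0 Y)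
      have e2 := intervalIntegral.integral_add_adjacent_intervals (izz K (0 - M.A σ) (Y - M.A σ))
        (izz K (Y - M.A σ) Y)
      have e3 : 0 ≤ ∫ y in (0 - M.A σ)..0, M.zz n L K y :=
        intervalIntegral.integral_nonneg (by linarith) fun y _ => (M.zz_mem n L K y).1
      have e4 : ∫ y in (Y - M.A σ)..Y, M.zz n L K y ≤ ∫ _ in (Y - M.A σ)..Y, S :=
        intervalIntegral.integral_mono_on (by linarith) (izz _ _ _) intervalIntegrable_const
          fun y _ => hz K y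
      rw [intervalIntegral.integral_const, smul_eq_mul] at e4
      have e5 : M.A σ * S ≤ n * M.amax * S := mul_le_mul_of_nonneg_right hA' hS0
      linarith
    refine le_trans (le_of_eq ?_) (M.E_mono h4)
    rw [E_add, E_mul, E_const, ← hI, hc]
    ring
  have low (K : ℕ) : K * c ≤ ∫ y in (0 : ℝ)..Y, M.zz n L K y := by
    induction K with
    | zero => simp [zz]
    | succ K ih => have := step K; push_cast; linarith
  have up (K : ℕ) : ∫ y in (0 : ℝ)..Y, M.zz n L K y ≤ Y := by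
    have : ∫ y in (0 : ℝ)..Y, M.zz n L K y ≤ ∫ _ in (0 : ℝ)..Y, (1 : ℝ) :=
      intervalIntegral.integral_mono_on hY (izz _ _ _) intervalIntegrable_const
        fun y _ => (M.zz_mem n L K y).2
    simpa using this
  by_contra hcon
  have hc0 : 0 < c := by rw [hc]; linarith [not_le.1 hcon]
  obtain ⟨K, hK⟩ := exists_nat_gt (Y / c)
  rw [div_lt_iff₀ hc0] at hK
  linarith [low K, up K]

/-- For `A σ ≤ Y`: split at `A σ`; the integrand vanishes a.e. on `(0, A σ)`;
`intervalIntegral.integral_comp_add_right`. -/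
theorem integral_gg (L : ℝ) {Y : ℝ} (σ : List T) (hY : M.A σ ≤ Y) :
    ∫ y in (0 : ℝ)..Y, M.gg L y σ = ∫ v in (M.A σ + L)..(Y + L), Wu (M.nu σ) v := by
  have igg (a b : ℝ) : IntervalIntegrable (fun y => M.gg L y σ) volume a b :=
    intervalIntegrable_of_bdd (M.measurable_gg L σ) (B := 1)
      (fun v => (abs_of_nonneg (M.gg_nonneg L v σ)).trans_le (M.gg_le L v σ)) a b
  have hA := M.A_nonneg σ
  rw [← intervalIntegral.integral_add_adjacent_intervals (igg 0 (M.A σ)) (igg (M.A σ) Y)]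
  have e1 : ∫ y in (0 : ℝ)..M.A σ, M.gg L y σ = ∫ _ in (0 : ℝ)..M.A σ, (0 : ℝ) := by
    refine intervalIntegral.integral_congr_ae ?_
    filter_upwards [(Set.countable_singleton (M.A σ)).ae_notMem volume] with y hy hy'
    rw [Set.uIoc_of_le hA] at hy'
    have : y < M.A σ := lt_of_le_of_ne hy'.2 hy
    rw [gg, if_neg (not_le.2 this)]
  have e2 : ∫ y in M.A σ..Y, M.gg L y σ = ∫ y in M.A σ..Y, Wu (M.nu σ) (y + L) := by
    refine intervalIntegral.integral_congr fun y hy => ?_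
    rw [Set.uIcc_of_le hY] at hy
    simp only [gg, if_pos hy.1]
  rw [e1, e2, intervalIntegral.integral_comp_add_right (fun v => Wu (M.nu σ) v)]
  simp

/-- For a word `σ` of length `n`, by `HH_le_add`,
`HH (nu σ) (A σ + L) ≤ HH (nu σ) (n chi) + log 2 * (|A σ - n chi| + |L|)`, and by `DD_eq`,
`HH_zero_le`, `bdd_nu`: `HH (nu σ) (n chi) ≤ n chi log 2 - DD (nu σ) 0 (n chi) + log 2 (2 R + 1)`.
Take expectations with `G_sub_le`, `G_lower` (`G 0 = 0`) and `E_abs_le`. -/
theorem E_HH_le (n : ℕ) (L : ℝ) {b : ℝ} (hb : 0 < b) :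
    M.E n (fun σ => HH (M.nu σ) (M.A σ + L)) ≤ n * (M.chi * log 2 - M.Θinf)
      + log 2 * (M.amax + 2 * M.R + 1 + |L| + n * M.amax ^ 2 / b + b) := by
  have hl : 0 < log 2 := log_pos one_lt_two
  have hy : 0 ≤ (n : ℝ) * M.chi := mul_nonneg (Nat.cast_nonneg _) M.chi_pos.le
  have h (σ : List T) : HH (M.nu σ) (M.A σ + L) ≤
      (n * M.chi * log 2 + log 2 * (2 * M.R + 1) + log 2 * |L|) - DD (M.nu σ) 0 (n * M.chi)
        + log 2 * |M.A σ - n * M.chi| := by
    have h1 := HH_le_add (M.tot_nu σ) (n * M.chi) (M.A σ + L)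
    have h2 := DD_eq (M.tot_nu σ) 0 (n * M.chi)
    have h3 := HH_zero_le (M.tot_nu σ) (M.bdd_nu σ) M.R_nonneg
    have h4 : |M.A σ + L - n * M.chi| ≤ |M.A σ - n * M.chi| + |L| := by
      rw [add_sub_right_comm]; exact abs_add_le _ _
    have h5 := mul_le_mul_of_nonneg_left h4 hl.le
    linarith
  refine (M.E_mono fun σ _ => h σ).trans ?_
  rw [E_add, E_sub, E_const, E_mul]
  have h1 := M.G_sub_le n hy
  have h2 := M.G_lower hy
  have h3 : M.G 0 = 0 := by simp [G]
  have h4 := mul_le_mul_of_nonneg_left (M.E_abs_le n hb) hl.le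
  have h5 : M.Θinf / M.chi * (n * M.chi) = n * M.Θinf := by
    have := M.chi_pos.ne'
    field_simp
  linarith

/-- Let `c = h log 2 - chi log 2 + Θinf > 0`. Take `C` from `key` with `ε = c / (4 (m + 1))`.
Fix `L`; let `b = 4 amax² log 2 / c` and let `n ≥ 1` be so large that
`log 2 * (amax + 2 R + 1 + |L| + b) + 20 ≤ n c / 4`. Take `Y ≥ n amax` with
`E n (HH (nu σ) (Y + L)) = E n (log 2 * ent (nu σ))` (`E_eventually`, `HH_eq_ent`). By `key` with
`Nn = m n` (`log_natoms_nu_pow`), `integral_deficit` and `integral_gg`,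
`HH (nu σ) (Y + L) - HH (nu σ) (A σ + L) ≤ C * ∫ gg + c n / 4 + 20`; take expectations and use
`E_HH_le`: `n c - n c / 4 - n c / 4 - n c / 4 ≤ C * E n (∫ gg)`. Put `c' = c / (4 C)`. -/
theorem integral_gg_ge {h : ℝ} (hh : ∀ n : ℕ, 1 ≤ n → h * n ≤ M.E n fun τ => ent (M.nu τ))
    (hc : M.chi - M.Θinf / log 2 < h) : ∃ c' : ℝ, 0 < c' ∧ ∀ L : ℝ, ∃ (n : ℕ) (Y : ℝ), 1 ≤ n ∧
      0 ≤ Y ∧ c' * n ≤ M.E n fun σ => ∫ y in (0 : ℝ)..Y, M.gg L y σ := by
  have hl : 0 < log 2 := log_pos one_lt_two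
  obtain ⟨c, hcdef⟩ : ∃ c, c = h * log 2 - M.chi * log 2 + M.Θinf := ⟨_, rfl⟩
  have hc0 : 0 < c := by
    have h1 := mul_lt_mul_of_pos_right hc hl
    rw [sub_mul, div_mul_cancel₀ _ hl.ne'] at h1
    linarith
  have hm : (0 : ℝ) < M.m + 1 := by positivity
  obtain ⟨C, hC, hkey⟩ := key (ε := c / (4 * (M.m + 1))) (by positivity)
  refine ⟨c / (4 * C), by positivity, fun L => ?_⟩
  have ha := M.amax_pos
  obtain ⟨b, hb⟩ : ∃ b, b = 4 * M.amax ^ 2 * log 2 / c := ⟨_, rfl⟩
  have hb0 : 0 < b := by rw [hb]; positivity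
  obtain ⟨n₀, hn₀⟩ := exists_nat_ge ((log 2 * (M.amax + 2 * M.R + 1 + |L| + b) + 20) / (c / 4))
  obtain ⟨n, hn1, hn⟩ : ∃ n : ℕ, 1 ≤ n ∧
      log 2 * (M.amax + 2 * M.R + 1 + |L| + b) + 20 ≤ n * (c / 4) := by
    refine ⟨n₀ + 1, by omega, ?_⟩
    rw [div_le_iff₀ (by positivity)] at hn₀
    push_cast
    nlinarith
  have hev : ∀ᶠ Y in atTop, M.E n (fun σ => HH (M.nu σ) (Y + L))
      = M.E n fun σ => log 2 * ent (M.nu σ) :=
    M.E_eventually n (f := fun Y σ => HH (M.nu σ) (Y + L)) fun σ =>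
      (tendsto_atTop_add_const_right _ L tendsto_id).eventually (HH_eq_ent (M.nu σ))
  obtain ⟨Y, hY1, hY2⟩ := (hev.and (eventually_ge_atTop ((n : ℝ) * M.amax))).exists
  refine ⟨n, Y, hn1, le_trans (by positivity) hY2, ?_⟩
  have h1 (σ : List T) (hσ : σ.length = n) :
      HH (M.nu σ) (Y + L) - HH (M.nu σ) (M.A σ + L)
        ≤ C * (∫ y in (0 : ℝ)..Y, M.gg L y σ) + (n * (c / 4) + 20) := by
    have hA : M.A σ ≤ Y := le_trans (hσ ▸ M.A_le σ) hY2
    have h2 := hkey (M.nu σ) (M.m * n) (M.A σ + L) (Y + L) (M.tot_nu σ) (by positivity)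
      (fun k => hσ ▸ M.log_natoms_nu_pow σ k) (by linarith)
    rw [integral_deficit (M.tot_nu σ), ← M.integral_gg L σ hA] at h2
    have h3 : c / (4 * (M.m + 1)) * (M.m * n) ≤ n * (c / 4) := by
      rw [div_mul_eq_mul_div, div_le_iff₀ (by positivity)]
      have : (0 : ℝ) ≤ n * c := by positivity
      nlinarith
    linarith
  have h2 := M.E_mono h1
  rw [E_sub, hY1, E_add, E_mul, E_mul, E_const] at h2
  have h3 := M.E_HH_le n L hb0
  have h4 := mul_le_mul_of_nonneg_left (hh n hn1) hl.le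
  have h5 : log 2 * (n * M.amax ^ 2 / b) = n * (c / 4) := by
    rw [hb]; field_simp
  have h6 : (n : ℝ) * c = log 2 * (h * n) - n * (M.chi * log 2 - M.Θinf) := by
    rw [hcdef]; ring
  rw [div_mul_eq_mul_div, div_le_iff₀ (by positivity)]
  nlinarith

/-- `integral_gg_ge`, `integral_gg_le` with `s₀ = min (1 / 2) (c' / (4 amax))`. -/
theorem exists_zz_ge {h : ℝ} (hh : ∀ n : ℕ, 1 ≤ n → h * n ≤ M.E n fun τ => ent (M.nu τ))
    (hc : M.chi - M.Θinf / log 2 < h) :
    ∃ s₀ : ℝ, 0 < s₀ ∧ ∀ L : ℝ, ∃ (n K : ℕ) (x : ℝ), 1 ≤ n ∧ 0 ≤ x ∧ s₀ ≤ M.zz n L K x := by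
  obtain ⟨c', hc', H⟩ := M.integral_gg_ge hh hc
  have ha := M.amax_pos
  have hs : 0 < min (1 / 2) (c' / (4 * M.amax)) := lt_min (by norm_num) (by positivity)
  refine ⟨_, hs, fun L => ?_⟩
  obtain ⟨n, Y, hn, hY, hle⟩ := H L
  by_contra hcon
  push Not at hcon
  have h1 := M.integral_gg_le n L (min_le_left (1 / 2) (c' / (4 * M.amax))) hY fun K y => by
    rcases lt_or_ge y 0 with hy | hy
    · rw [M.zz_of_neg n L K hy]; exact hs.le
    · exact (hcon n K y hn hy).le
  have hn' : (1 : ℝ) ≤ n := by exact_mod_cast hn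
  have h2 : 2 * min (1 / 2) (c' / (4 * M.amax)) * (n * M.amax)
      ≤ 2 * (c' / (4 * M.amax)) * (n * M.amax) := by
    gcongr
    exact min_le_right _ _
  have h3 : 2 * (c' / (4 * M.amax)) * (n * M.amax) = c' * n / 2 := by field_simp; ring
  nlinarith

end Model

end Crest.Agent.R98
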