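import Crest.Agent.R98.Gain
import Crest.Agent.R98.Zee

/-!
# R98: the entropy rate is at most the dimension times the Lyapunov exponent
-/

set_option autoImplicit false

open scoped NNReal
open Real MeasureTheory Filter Topology

namespace Crest.Agent.R98

namespace Model

variable {T : Type} [Fintype T] (M : Model T)

/-- The deficiency in the target window, evaluated after the word has passed depth `x`. -/
noncomputable def stop (L Wd : ℝ) : ℝ → List T → ℝ
  | x, [] => DD 1 (x + L) (x + L + Wd)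
  | x, θ :: τ => if x ≤ 0 then DD (M.nu (θ :: τ)) (x + L) (x + L + Wd) else stop L Wd (x - M.a θ) τ

variable {L Wd : ℝ}

theorem stop_of_nonpos {x : ℝ} (hx : x ≤ 0) (τ : List T) :
    M.stop L Wd x τ = DD (M.nu τ) (x + L) (x + L + Wd) := by
  cases τ with
  | nil => rfl
  | cons θ τ => exact if_pos hx

theorem stop_cons {x : ℝ} (hx : 0 < x) (θ : T) (τ : List T) :
    M.stop L Wd x (θ :: τ) = M.stop L Wd (x - M.a θ) τ := if_neg hx.not_ge

theorem stop_append {x : ℝ} (σ τ : List T) (hx : M.A σ ≤ x) :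
    M.stop L Wd x (σ ++ τ) = M.stop L Wd (x - M.A σ) τ := by
  induction σ generalizing x with
  | nil => simp
  | cons θ σ ih =>
    rw [A_cons] at hx
    rw [List.cons_append, M.stop_cons (by linarith [M.a_pos θ, M.A_nonneg σ]), ih (by linarith),
      A_cons, sub_sub]

theorem DD_shift_le (hW : 0 ≤ Wd) (ξ : FM) {c u : ℝ} (hc : c ≠ 0) (hu : log |c| = -u) (ν : FM)
    (x : ℝ) : DD (ξ * sc c ν) (x + L) (x + L + Wd)
      ≤ tot ξ * DD ν (x - u + L) (x - u + L + Wd) := by
  refine (DD_mul_le ξ _ (by linarith)).trans_eq ?_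
  rw [DD_sc hc, hu]
  congr 2 <;> ring

theorem DD_le_stop (hW : 0 ≤ Wd) (x : ℝ) (τ : List T) :
    DD (M.nu τ) (x + L) (x + L + Wd) ≤ M.stop L Wd x τ := by
  induction τ generalizing x with
  | nil => exact le_rfl
  | cons θ τ ih =>
    rcases le_or_gt x 0 with hx | hx
    · exact (M.stop_of_nonpos hx _).ge
    · rw [M.stop_cons hx, nu_cons]
      refine (DD_shift_le hW _ (M.ρ_ne θ) (u := M.a θ) (by simp [a]) _ x).trans ?_
      rw [M.tot_η, one_mul]
      exact ih _

/-- The stopped deficiency exceeds the limiting one by a quantity that is small for large `L`. -/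
theorem E_stop_le {K : ℕ} (hK : Wd ≤ K * M.amin) {x : ℝ} (hx : -M.amax ≤ x) {ε : ℝ}
    (hε : 0 < ε) : ∀ᶠ N in atTop, M.E N (M.stop L Wd x)
      ≤ M.G (x + L + Wd) - M.G (x + L) + K * (M.Θ (L - M.amax) - M.Θinf) + ε := by
  set C : ℝ → ℝ := fun x => ∑ i ∈ Finset.range K, (M.Θ (x + L + (i + 1) * M.amin) - M.Θinf) with hC
  have hC0 (x : ℝ) : 0 ≤ C x := Finset.sum_nonneg fun i _ => sub_nonneg.2 (M.Θinf_le _)
  have key : ∀ᶠ N in atTop, M.E N (M.stop L Wd x)
      ≤ M.G (x + L + Wd) - M.G (x + L) + K * (M.Θ (L - M.amax) - M.Θinf) - C x + ε := by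
    refine M.renewal (P := fun x => ∀ᶠ N in atTop, M.E N (M.stop L Wd x)
      ≤ M.G (x + L + Wd) - M.G (x + L) + K * (M.Θ (L - M.amax) - M.Θinf) - C x + ε) 0 ?_ ?_
      (by simpa using hx)
    · intro y hy hy'
      have h1 : C y ≤ K * (M.Θ (L - M.amax) - M.Θinf) := by
        refine (Finset.sum_le_card_nsmul _ _ (M.Θ (L - M.amax) - M.Θinf) fun i _ => ?_).trans_eq
          (by simp)
        have : 0 ≤ ((i : ℝ) + 1) * M.amin := mul_nonneg (by positivity) M.amin_pos.le
        exact sub_le_sub_right (M.Θ_antitone (by linarith)) _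
      filter_upwards [(M.tendsto_DD (y + L) (y + L + Wd)).eventually
        (gt_mem_nhds (lt_add_of_pos_right _ hε))] with N hN
      rw [M.E_congr fun τ _ => M.stop_of_nonpos hy' τ]
      linarith
    · intro y hy ih
      obtain ⟨N₀, hN₀⟩ := eventually_atTop.1 (eventually_all.2 ih)
      refine eventually_atTop.2 ⟨N₀ + 1, fun N hN => ?_⟩
      obtain ⟨N, rfl⟩ : ∃ N', N = N' + 1 := ⟨N - 1, by omega⟩
      have h1 (θ : T) : C y + (M.Θ (y + L) - M.Θ (y + L + Wd)) ≤ C (y - M.a θ) := by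
        have h2 : ∑ i ∈ Finset.range K, (M.Θ (y + L + i * M.amin) - M.Θinf) ≤ C (y - M.a θ) :=
          Finset.sum_le_sum fun i _ =>
            sub_le_sub_right (M.Θ_antitone (by linarith [M.amin_le_a θ])) _
        have h3 := Finset.sum_range_sub' (fun i : ℕ => M.Θ (y + L + i * M.amin)) K
        have h4 := M.Θ_antitone (show y + L + Wd ≤ y + L + K * M.amin by linarith)
        simp only [hC, Finset.sum_sub_distrib, Nat.cast_zero, zero_mul, add_zero, Nat.cast_add,
          Nat.cast_one] at h2 h3 ⊢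
        linarith
      have h5 (θ : T) : M.E N (fun τ => M.stop L Wd y (θ :: τ))
          ≤ (M.G (y + L + Wd - M.a θ) - M.G (y + L - M.a θ)) + (K * (M.Θ (L - M.amax) - M.Θinf)
            - C y - (M.Θ (y + L) - M.Θ (y + L + Wd)) + ε) := by
        have := hN₀ N (by omega) θ
        rw [show y - M.a θ + L + Wd = y + L + Wd - M.a θ by ring,
          show y - M.a θ + L = y + L - M.a θ by ring] at this
        simp only [M.stop_cons hy]
        linarith [h1 θ]
      refine (M.sum_pr_mono h5).trans_eq ?_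
      simp only [mul_add (M.pr _), mul_sub (M.pr _) (M.G _), Finset.sum_add_distrib,
        Finset.sum_sub_distrib, sum_pr_mul, Θ]
      ring
  filter_upwards [key] with N hN
  linarith [hC0 x]

variable {η δ c₁ c₂ : ℝ}

/-- A two-point move at the target scale produces a definite gain. -/
theorem E_two_le (hW : 0 ≤ Wd) (hδ : 0 ≤ δ)
    (hgain : ∀ (θ : FM) (y d v : ℝ), tot θ = 1 →
      exp (-y) / 2 ≤ |d| → |d| ≤ 2 * exp (-y) → y - c₂ - M.amax ≤ v → v ≤ y - c₂ → η ≤ Tu θ v →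
      DD (two d * θ) (y - c₁) (y - c₁ + Wd) ≤ DD θ (y - c₁) (y - c₁ + Wd) - δ)
    (hT : ∀ y, ∃ v, y - M.amax ≤ v ∧ v ≤ y ∧
      ∀ N, η ≤ M.E N fun τ => if η ≤ Tu (M.nu τ) v then 1 else 0)
    (N : ℕ) {x d : ℝ} (hx : x ≤ N * M.amin) (h1 : exp (-(x + (L + c₁))) / 2 ≤ |d|)
    (h2 : |d| ≤ 2 * exp (-(x + (L + c₁)))) :
    M.E N (fun τ => DD (two d * M.nu τ) (x + L) (x + L + Wd)) ≤ M.E N (M.stop L Wd x) - δ * η := by
  have base (N : ℕ) {x d : ℝ} (hx : x ≤ 0) (h1 : exp (-(x + (L + c₁))) / 2 ≤ |d|)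
      (h2 : |d| ≤ 2 * exp (-(x + (L + c₁)))) :
      M.E N (fun τ => DD (two d * M.nu τ) (x + L) (x + L + Wd))
        ≤ M.E N (M.stop L Wd x) - δ * η := by
    obtain ⟨v, hv1, hv2, hv⟩ := hT (x + (L + c₁) - c₂)
    have h3 (τ : List T) : DD (two d * M.nu τ) (x + L) (x + L + Wd)
        ≤ M.stop L Wd x τ - δ * if η ≤ Tu (M.nu τ) v then 1 else 0 := by
      rw [M.stop_of_nonpos hx]
      split_ifs with h
      · have := hgain _ _ d v (M.tot_nu τ) h1 h2 hv1 hv2 h
        rwa [show x + (L + c₁) - c₁ = x + L by ring, ← mul_one δ] at this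
      · simpa using DD_mul_le (two d) (M.nu τ) (show x + L ≤ x + L + Wd by linarith)
    refine (M.E_mono fun τ _ => h3 τ).trans ?_
    rw [E_sub, E_mul]
    exact sub_le_sub_left (mul_le_mul_of_nonneg_left (hv N) hδ) _
  induction N generalizing x d with
  | zero => exact base 0 (by simpa using hx) h1 h2
  | succ N ih =>
    rcases le_or_gt x 0 with hx0 | hx0
    · exact base _ hx0 h1 h2
    have h3 (θ : T) : M.E N (fun τ => DD (two d * M.nu (θ :: τ)) (x + L) (x + L + Wd))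
        ≤ M.E N (fun τ => M.stop L Wd x (θ :: τ)) - δ * η := by
      have he : exp (-(x - M.a θ + (L + c₁))) = exp (-(x + (L + c₁))) / |M.ρ θ| := by
        rw [abs_ρ, ← exp_sub]; congr 1; ring
      have hρ : 0 < |M.ρ θ| := abs_pos.2 (M.ρ_ne θ)
      simp only [M.stop_cons hx0]
      refine le_trans (M.E_mono fun τ _ => ?_) (ih (x := x - M.a θ) (d := d / M.ρ θ) ?_ ?_ ?_)
      · have e : two d * M.nu (θ :: τ) = M.η θ * sc (M.ρ θ) (two (d / M.ρ θ) * M.nu τ) := by
          rw [nu_cons, map_mul, sc_two, mul_div_cancel₀ _ (M.ρ_ne θ), mul_left_comm]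
        rw [e]
        refine (DD_shift_le hW _ (M.ρ_ne θ) (u := M.a θ) (by simp [a]) _ x).trans_eq ?_
        rw [M.tot_η, one_mul]
      · push_cast at hx
        linarith [M.amin_le_a θ]
      · rw [he, abs_div, div_right_comm]
        gcongr
      · rw [he, abs_div, ← mul_div_assoc]
        gcongr
    refine (M.sum_pr_mono h3).trans_eq ?_
    simp only [mul_sub (M.pr _), Finset.sum_sub_distrib, sum_pr_mul, E_succ]

/-- The gain is proportional to the probability of a move. -/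
theorem E_DD_le_stop (hW : 0 ≤ Wd) {γ : ℝ}
    (htwo : ∀ (N : ℕ) (x d : ℝ), x ≤ N * M.amin → exp (-(x + (L + c₁))) / 2 ≤ |d| →
      |d| ≤ 2 * exp (-(x + (L + c₁))) →
      M.E N (fun τ => DD (two d * M.nu τ) (x + L) (x + L + Wd)) ≤ M.E N (M.stop L Wd x) - γ)
    (n K N : ℕ) {x : ℝ} (hx : x ≤ N * M.amin) :
    M.E (K * n + N) (fun τ => DD (M.nu τ) (x + L) (x + L + Wd))
      ≤ M.E (K * n + N) (M.stop L Wd x) - γ * M.zz n (L + c₁) K x := by
  induction K generalizing x with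
  | zero => simpa [zz] using M.E_mono fun τ _ => M.DD_le_stop hW x τ
  | succ K ih =>
    rw [show (K + 1) * n + N = n + (K * n + N) by ring, E_append, E_append, zz, ← E_mul, ← E_sub]
    refine M.E_mono fun σ _ => ?_
    rcases le_or_gt (M.A σ) x with hA | hA
    swap
    · rw [gg, if_neg hA.not_ge, M.zz_of_neg _ _ _ (sub_neg.2 hA)]
      simpa using M.E_mono fun τ _ => M.DD_le_stop hW x (σ ++ τ)
    have hx' : x - M.A σ ≤ N * M.amin := by linarith [M.A_nonneg σ]
    have hx'' : x - M.A σ ≤ (K * n + N : ℕ) * M.amin := by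
      refine hx'.trans (mul_le_mul_of_nonneg_right ?_ M.amin_pos.le)
      exact_mod_cast Nat.le_add_left _ _
    obtain ⟨ν₀, Mv, hMv, hν, hw⟩ := move_WW (M.nu σ) (exp_pos (-(x + (L + c₁))))
    have hle : x + L ≤ x + L + Wd := by linarith
    have hw' : tot Mv = M.gg (L + c₁) x σ := by rw [gg, if_pos hA, hw, Wu]
    have h0 : tot ν₀ = 1 - M.gg (L + c₁) x σ := by
      have := M.tot_nu σ
      rw [hν, tot_add, hw'] at this
      linarith
    set S := M.E (K * n + N) (M.stop L Wd (x - M.A σ)) with hS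
    have hl : 0 < |M.lam σ| := abs_pos.2 (M.lam_ne σ)
    have he : exp (-(x - M.A σ + (L + c₁))) = exp (-(x + (L + c₁))) / |M.lam σ| := by
      rw [abs_lam, ← exp_sub]; congr 1; ring
    have h1 : M.E (K * n + N) (fun τ => DD (Mv * sc (M.lam σ) (M.nu τ)) (x + L) (x + L + Wd))
        ≤ tot Mv * (S - γ) := by
      refine cone_le (Φ := fun ξ => M.E (K * n + N)
        fun τ => DD (ξ * sc (M.lam σ) (M.nu τ)) (x + L) (x + L + Wd)) (by simp) ?_ ?_ hMv
      · intro a b
        rw [← E_add]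
        exact M.E_mono fun τ _ => by rw [add_mul]; exact DD_add_le _ _ hle
      · intro c y d hd1 hd2
        refine le_trans ?_ (mul_le_mul_of_nonneg_left
          (htwo (K * n + N) (x - M.A σ) (d / M.lam σ) hx'' ?_ ?_) c.coe_nonneg)
        · rw [← E_mul]
          refine M.E_mono fun τ _ => ?_
          have e : c • (dir y * two d) * sc (M.lam σ) (M.nu τ)
              = c • dir y * sc (M.lam σ) (two (d / M.lam σ) * M.nu τ) := by
            rw [map_mul, sc_two, mul_div_cancel₀ _ (M.lam_ne σ), smul_mul_assoc, smul_mul_assoc,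
              mul_assoc]
          rw [e]
          refine (DD_shift_le hW _ (M.lam_ne σ) (M.log_lam σ) _ x).trans_eq ?_
          rw [tot_smul, tot_dir, mul_one]
        · rw [he, abs_div, div_right_comm]
          gcongr
        · rw [he, abs_div, ← mul_div_assoc]
          gcongr
    have h2 : M.E (K * n + N) (fun τ => DD (ν₀ * sc (M.lam σ) (M.nu τ)) (x + L) (x + L + Wd))
        ≤ tot ν₀ * (S - γ * M.zz n (L + c₁) K (x - M.A σ)) := by
      refine le_trans ?_ (mul_le_mul_of_nonneg_left (ih hx') (tot_nonneg _))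
      rw [← E_mul]
      exact M.E_mono fun τ _ => DD_shift_le hW _ (M.lam_ne σ) (M.log_lam σ) _ x
    have h3 : M.E (K * n + N) (fun τ => DD (M.nu (σ ++ τ)) (x + L) (x + L + Wd))
        ≤ M.E (K * n + N) (fun τ => DD (ν₀ * sc (M.lam σ) (M.nu τ)) (x + L) (x + L + Wd))
          + M.E (K * n + N) fun τ => DD (Mv * sc (M.lam σ) (M.nu τ)) (x + L) (x + L + Wd) := by
      rw [← E_add]
      refine M.E_mono fun τ _ => ?_
      rw [nu_append]
      conv_lhs => rw [hν, add_mul]
      exact DD_add_le _ _ hle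
    simp only [M.stop_append σ _ hA]
    rw [h0] at h2
    rw [hw'] at h1
    refine (h3.trans (add_le_add h2 h1)).trans_eq ?_
    ring

theorem rate_le (hΘ : 0 < M.Θinf) {h : ℝ}
    (hh : ∀ n : ℕ, 1 ≤ n → h * n ≤ M.E n fun τ => ent (M.nu τ)) :
    h ≤ M.chi - M.Θinf / log 2 := by
  by_contra hc
  obtain ⟨s₀, hs₀, hz⟩ := M.exists_zz_ge hh (not_le.1 hc)
  have hl : 0 < log 2 := log_pos one_lt_two
  have ham := M.amax_pos
  set η := M.Θinf / (4 * M.amax * log 2) with hη
  have hη0 : 0 < η := by positivity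
  have hη1 : η ≤ 1 := by
    rw [hη, div_le_one (by positivity)]
    nlinarith [M.Θinf_le_amax, mul_pos ham hl]
  obtain ⟨δ, c₁, c₂, Wd, hδ, hW, hgain⟩ := window_gain hη0 hη1 ham.le
  obtain ⟨K', hK'⟩ := exists_nat_ge (Wd / M.amin)
  rw [div_le_iff₀ M.amin_pos] at hK'
  have hg : 0 < δ * η * s₀ := by positivity
  obtain ⟨y₀, hy₀⟩ := M.exists_Θ_le (ε := δ * η * s₀ / (4 * (K' + 1))) (by positivity)
  obtain ⟨n, K, x, -, hx, hzx⟩ := hz (y₀ + M.amax + c₁)
  obtain ⟨N₀, hN₀⟩ := eventually_atTop.1 (M.E_stop_le (L := y₀ + M.amax) hK'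
    (show -M.amax ≤ x by linarith) (ε := δ * η * s₀ / 4) (by positivity))
  obtain ⟨N₁, hN₁⟩ := exists_nat_ge (x / M.amin)
  rw [div_le_iff₀ M.amin_pos] at hN₁
  have hN : x ≤ (N₀ + N₁ : ℕ) * M.amin := by
    refine hN₁.trans (mul_le_mul_of_nonneg_right ?_ M.amin_pos.le)
    exact_mod_cast Nat.le_add_left _ _
  have h1 := M.E_DD_le_stop (L := y₀ + M.amax) (c₁ := c₁) hW.le
    (fun N x d => M.E_two_le hW.le hδ.le hgain (M.exists_Tu hΘ hη) N) n K (N₀ + N₁) hN
  have h2 := hN₀ (K * n + (N₀ + N₁)) (by omega)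
  have h3 := M.G_sub_le (K * n + (N₀ + N₁))
    (show x + (y₀ + M.amax) ≤ x + (y₀ + M.amax) + Wd by linarith)
  have h4 : (K' : ℝ) * (M.Θ (y₀ + M.amax - M.amax) - M.Θinf) ≤ δ * η * s₀ / 4 := by
    have h5 := hy₀ (y₀ + M.amax - M.amax) (by linarith)
    calc (K' : ℝ) * (M.Θ (y₀ + M.amax - M.amax) - M.Θinf)
        ≤ (K' + 1) * (δ * η * s₀ / (4 * (K' + 1))) :=
          mul_le_mul (by linarith) (by linarith) (sub_nonneg.2 (M.Θinf_le _)) (by positivity)
      _ = δ * η * s₀ / 4 := by field_simp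
  have h6 : δ * η * s₀ ≤ δ * η * M.zz n (y₀ + M.amax + c₁) K x :=
    mul_le_mul_of_nonneg_left hzx (by positivity)
  linarith

theorem main {h s : ℝ} (hh : ∀ n : ℕ, 1 ≤ n → h * n ≤ M.E n fun τ => ent (M.nu τ))
    (hs : s < 1) (hsh : s * M.chi < h) (C : ℝ) :
    ∃ (q : ℝ) (N : ℕ), 0 < q ∧ q ≤ 1 / 2 ∧ exp (-M.amin) ^ N ≤ q ∧
      s * log (1 / q) + C ≤ M.E N fun τ => Hs (M.nu τ) q := by
  refine M.entropy_of_lt ?_ C
  rcases M.Θinf_nonneg.eq_or_lt with h0 | h0
  · simpa [← h0] using hs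
  · have h1 := M.rate_le h0 hh
    have h2 := M.chi_pos
    have h3 : 0 < log 2 := log_pos one_lt_two
    have h4 : 1 - M.Θinf / (M.chi * log 2) = (M.chi - M.Θinf / log 2) / M.chi := by field_simp
    rw [h4, lt_div_iff₀ h2]
    linarith

end Model

end Crest.Agent.R98
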