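import Crest.Agent.R98.Basic

/-!
# R98: the explicit symmetric sub-coupling (auxiliary lemmas for `Split`)
-/

set_option autoImplicit false

open scoped NNReal
open Real MeasureTheory

namespace Crest.Agent.R98.SplitAux

open Crest.Agent.R98

/-- Indicator of the pair condition. -/
noncomputable def pind (r y y' x : ℝ) : ℝ :=
  if x < y ∧ y ≤ x + r ∧ x - r < y' ∧ y' ≤ x ∧ r / 2 < y - y' then 1 else 0

/-- The coupling density. -/
noncomputable def pkap (ν : FM) (r y y' : ℝ) : ℝ :=
  (∫ x, pind r y y' x / mass ν (2 * r) (x + r)) / r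

theorem pind_nonneg (r y y' x : ℝ) : 0 ≤ pind r y y' x := by
  unfold pind; split_ifs <;> simp

theorem pkap_nonneg (ν : FM) {r : ℝ} (hr : 0 ≤ r) (y y' : ℝ) : 0 ≤ pkap ν r y y' :=
  div_nonneg (integral_nonneg fun _ => div_nonneg (pind_nonneg _ _ _ _) (mass_nonneg _ _ _)) hr

theorem measurable_pind (y y' : ℝ) : Measurable fun p : ℝ × ℝ => pind p.1 y y' p.2 := by
  unfold pind
  refine Measurable.ite ?_ measurable_const measurable_const
  exact (measurableSet_lt measurable_snd measurable_const).inter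
    ((measurableSet_le measurable_const (measurable_snd.add measurable_fst)).inter
      ((measurableSet_lt (measurable_snd.sub measurable_fst) measurable_const).inter
        ((measurableSet_le measurable_const measurable_snd).inter
          (measurableSet_lt (measurable_fst.div_const 2) measurable_const))))

theorem prs_eq_pind (ν : FM) (r x : ℝ) :
    prs ν r x = ex ν fun y => ex ν fun y' => pind r y y' x := rfl

theorem measurable_prs_aux (ν : FM) : Measurable fun p : ℝ × ℝ => prs ν p.1 p.2 := by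
  simp only [prs_eq_pind, ex_eq_sum]
  refine Finset.measurable_sum _ fun y _ => Measurable.const_mul ?_ _
  exact Finset.measurable_sum _ fun y' _ => Measurable.const_mul (measurable_pind y y') _

theorem ex_indic (ν : FM) (z : ℝ) :
    ex ν (fun y => if y = z then 1 else 0) = (ν.coeff z : ℝ) := by
  classical
  rw [ex_eq_sum]
  simp only [mul_ite, mul_one, mul_zero, Finset.sum_ite_eq']
  split_ifs with h
  · rfl
  · rw [Finsupp.notMem_support_iff.1 h]; simp

theorem coeff_le_mass (ν : FM) {r x y : ℝ} (h1 : x - r < y) (h2 : y ≤ x) :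
    (ν.coeff y : ℝ) ≤ mass ν r x := by
  rw [← ex_indic]
  refine ex_mono fun w _ => ?_
  by_cases hw : w = y
  · subst hw; simp [h1, h2]
  · rw [if_neg hw]; split_ifs <;> simp

theorem mass_two_split (ν : FM) {r : ℝ} (hr : 0 ≤ r) (x : ℝ) :
    mass ν (2 * r) (x + r) = mass ν r (x + r) + mass ν r x := by
  rw [two_mul, mass_add_right ν hr hr, add_sub_cancel_right]

theorem measurable_mass_shift (ν : FM) (r : ℝ) : Measurable fun x => mass ν (2 * r) (x + r) :=
  (measurable_mass ν).comp (measurable_const.prodMk (measurable_id.add_const r))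

theorem integrable_pind_div (ν : FM) {r : ℝ} (hr : 0 < r) {y : ℝ} (hy : y ∈ ν.coeff.support)
    (y' : ℝ) : Integrable fun x => pind r y y' x / mass ν (2 * r) (x + r) := by
  have hpos : (0 : ℝ) < ν.coeff y := by
    have := Finsupp.mem_support_iff.1 hy
    positivity
  have hg : Integrable ((Set.Icc (y - r) y).indicator fun _ : ℝ => ((ν.coeff y : ℝ))⁻¹) :=
    (integrable_indicator_iff measurableSet_Icc).2 (integrableOn_const (by simp))
  refine hg.mono' ?_ (Filter.Eventually.of_forall fun x => ?_)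
  · exact (((measurable_pind y y').comp (measurable_const.prodMk measurable_id)).div
      (measurable_mass_shift ν r)).aestronglyMeasurable
  · rw [Real.norm_of_nonneg (div_nonneg (pind_nonneg _ _ _ _) (mass_nonneg _ _ _))]
    unfold pind
    split_ifs with h
    · obtain ⟨h1, h2, -, -, -⟩ := h
      rw [Set.indicator_of_mem (show x ∈ Set.Icc (y - r) y from ⟨by linarith, h1.le⟩), one_div]
      exact inv_anti₀ hpos (coeff_le_mass ν (by linarith) h2)
    · rw [zero_div]
      exact Set.indicator_nonneg (fun _ _ => by positivity) _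

theorem ex_div (ν : FM) (f : ℝ → ℝ) (c : ℝ) : ex ν f / c = ex ν fun y => f y / c := by
  simp only [ex_eq_sum, Finset.sum_div, mul_div_assoc]

theorem integrable_ex (ν : FM) {F : ℝ → ℝ → ℝ}
    (hF : ∀ y ∈ ν.coeff.support, Integrable (F y)) : Integrable fun x => ex ν fun y => F y x := by
  simp only [ex_eq_sum]
  exact integrable_finsetSum _ fun y hy => (hF y hy).const_mul _

theorem integral_ex (ν : FM) {F : ℝ → ℝ → ℝ}
    (hF : ∀ y ∈ ν.coeff.support, Integrable (F y)) :
    ∫ x, ex ν (fun y => F y x) = ex ν fun y => ∫ x, F y x := by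
  simp only [ex_eq_sum]
  rw [integral_finsetSum _ fun y hy => (hF y hy).const_mul _]
  exact Finset.sum_congr rfl fun y _ => integral_const_mul _ _

theorem prs_div_eq (ν : FM) (r x : ℝ) : prs ν r x / mass ν (2 * r) (x + r) =
    ex ν fun y => ex ν fun y' => pind r y y' x / mass ν (2 * r) (x + r) := by
  rw [prs_eq_pind, ex_div]
  exact ex_congr fun y _ => ex_div _ _ _

theorem integrable_prs_div_aux (ν : FM) {r : ℝ} (hr : 0 < r) :
    Integrable fun x => prs ν r x / mass ν (2 * r) (x + r) := by
  simp only [prs_div_eq]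
  exact integrable_ex ν fun y hy => integrable_ex ν fun y' _ => integrable_pind_div ν hr hy y'

theorem WW_eq_pkap (ν : FM) {r : ℝ} (hr : 0 < r) :
    WW ν r = ex ν fun y => ex ν fun y' => pkap ν r y y' := by
  unfold WW
  simp only [prs_div_eq]
  rw [integral_ex ν fun y hy => integrable_ex ν fun y' _ => integrable_pind_div ν hr hy y', ex_div]
  refine ex_congr fun y hy => ?_
  rw [integral_ex ν fun y' _ => integrable_pind_div ν hr hy y', ex_div]
  rfl

theorem integral_le_of_le_indic {f : ℝ → ℝ} (hf : Integrable f) {a r : ℝ} (hr : 0 < r)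
    (h1 : ∀ x, f x ≤ 1) (h0 : ∀ x, x ∉ Set.Ico a (a + r) → f x ≤ 0) : (∫ x, f x) / r ≤ 1 := by
  rw [div_le_one hr]
  have hg : Integrable ((Set.Ico a (a + r)).indicator fun _ : ℝ => (1 : ℝ)) :=
    (integrable_indicator_iff measurableSet_Ico).2 (integrableOn_const (by simp))
  calc ∫ x, f x ≤ ∫ x, (Set.Ico a (a + r)).indicator (fun _ : ℝ => (1 : ℝ)) x := by
        refine integral_mono hf hg fun x => ?_
        by_cases hx : x ∈ Set.Ico a (a + r)
        · rw [Set.indicator_of_mem hx]; exact h1 x
        · rw [Set.indicator_of_notMem hx]; exact h0 x hx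
    _ = r := by
        rw [integral_indicator measurableSet_Ico]
        simp [hr.le]

theorem marg_left (ν : FM) {r : ℝ} (hr : 0 < r) {z : ℝ} (hz : z ∈ ν.coeff.support) :
    ex ν (fun y' => pkap ν r z y') ≤ 1 := by
  unfold pkap
  rw [← ex_div, ← integral_ex ν fun y' _ => integrable_pind_div ν hr hz y']
  refine integral_le_of_le_indic (a := z - r)
    (integrable_ex ν fun y' _ => integrable_pind_div ν hr hz y') hr (fun x => ?_) fun x hx => ?_
  · rw [← ex_div]
    refine div_le_one_of_le₀ ?_ (mass_nonneg _ _ _)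
    have h : ex ν (fun y' => pind r z y' x) ≤ mass ν r x := by
      refine ex_mono fun y' _ => ?_
      unfold pind
      split_ifs with h1 h2
      · exact le_rfl
      · exact absurd ⟨h1.2.2.1, h1.2.2.2.1⟩ h2
      · exact zero_le_one
      · exact le_rfl
    rw [mass_two_split ν hr.le]
    linarith [mass_nonneg ν r (x + r)]
  · rw [ex_congr (g := fun _ => 0), ex_fun_const, zero_mul]
    intro y' _
    unfold pind
    rw [if_neg, zero_div]
    rintro ⟨h1, h2, -⟩
    exact hx ⟨by linarith, by linarith⟩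

theorem marg_right (ν : FM) {r : ℝ} (hr : 0 < r) (z : ℝ) :
    ex ν (fun y => pkap ν r y z) ≤ 1 := by
  unfold pkap
  rw [← ex_div, ← integral_ex ν fun y hy => integrable_pind_div ν hr hy z]
  refine integral_le_of_le_indic (a := z)
    (integrable_ex ν fun y hy => integrable_pind_div ν hr hy z) hr (fun x => ?_) fun x hx => ?_
  · rw [← ex_div]
    refine div_le_one_of_le₀ ?_ (mass_nonneg _ _ _)
    have h : ex ν (fun y => pind r y z x) ≤ mass ν r (x + r) := by
      refine ex_mono fun y _ => ?_
      unfold pind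
      split_ifs with h1 h2
      · exact le_rfl
      · exact absurd ⟨by linarith [h1.1], h1.2.1⟩ h2
      · exact zero_le_one
      · exact le_rfl
    rw [mass_two_split ν hr.le]
    linarith [mass_nonneg ν r x]
  · rw [ex_congr (g := fun _ => 0), ex_fun_const, zero_mul]
    intro y _
    unfold pind
    rw [if_neg, zero_div]
    rintro ⟨-, -, h1, h2, -⟩
    exact hx ⟨h2, by linarith⟩

theorem pkap_eq_zero (ν : FM) {r y y' : ℝ} (h : ¬ (r / 2 < y - y' ∧ y - y' < 2 * r)) :
    pkap ν r y y' = 0 := by
  unfold pkap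
  have : ∀ x, pind r y y' x = 0 := fun x => by
    unfold pind
    rw [if_neg]
    rintro ⟨h1, h2, h3, h4, h5⟩
    exact h ⟨h5, by linarith⟩
  simp [this]

/-- The mixture of two-point measures. -/
noncomputable def pM (ν : FM) (r : ℝ) : FM :=
  ∑ y ∈ ν.coeff.support, ∑ y' ∈ ν.coeff.support,
    (ν.coeff y * ν.coeff y' * (pkap ν r y y').toNNReal) • (dir y' * two (y - y'))

theorem ex_pM (ν : FM) {r : ℝ} (hr : 0 < r) (f : ℝ → ℝ) :
    ex (pM ν r) f = ex ν fun y => ex ν fun y' => pkap ν r y y' * ((f y' + f y) / 2) := by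
  rw [pM, ex_sum, ex_eq_sum ν]
  refine Finset.sum_congr rfl fun y _ => ?_
  rw [ex_sum, ex_eq_sum ν, Finset.mul_sum]
  refine Finset.sum_congr rfl fun y' _ => ?_
  rw [ex_smul, ex_dir_mul, ex_two]
  push_cast
  rw [Real.coe_toNNReal _ (pkap_nonneg ν hr.le y y'), add_zero, add_sub_cancel]
  ring

theorem pM_mem_cone (ν : FM) {r : ℝ} (hr : 0 < r) : pM ν r ∈ cone (r / 2) (2 * r) := by
  refine AddSubmonoid.sum_mem _ fun y _ => AddSubmonoid.sum_mem _ fun y' _ => ?_
  by_cases h : r / 2 < y - y' ∧ y - y' < 2 * r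
  · have hpos : 0 ≤ y - y' := by linarith [h.1]
    refine AddSubmonoid.subset_closure ⟨_, y', y - y', ?_, ?_, rfl⟩
    · rw [abs_of_nonneg hpos]; exact h.1.le
    · rw [abs_of_nonneg hpos]; exact h.2.le
  · rw [pkap_eq_zero ν h]
    simp

theorem tot_pM (ν : FM) {r : ℝ} (hr : 0 < r) : tot (pM ν r) = WW ν r := by
  rw [tot, ex_pM ν hr, WW_eq_pkap ν hr]
  refine ex_congr fun y _ => ex_congr fun y' _ => ?_
  norm_num

theorem coeff_pM_le (ν : FM) {r : ℝ} (hr : 0 < r) (z : ℝ) : (pM ν r).coeff z ≤ ν.coeff z := by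
  rw [← NNReal.coe_le_coe, ← ex_indic (pM ν r), ex_pM ν hr]
  have h1 : (ex ν fun y => ex ν fun y' => (if y = z then (1 : ℝ) else 0) * pkap ν r y y') ≤
      ν.coeff z := by
    rw [← ex_indic ν z]
    refine ex_mono fun y hy => ?_
    rw [ex_fun_mul]
    split_ifs
    · rw [one_mul]; exact marg_left ν hr hy
    · simp
  have h2 : (ex ν fun y => ex ν fun y' => (if y' = z then (1 : ℝ) else 0) * pkap ν r y y') ≤
      ν.coeff z := by
    rw [ex_comm, ← ex_indic ν z]
    refine ex_mono fun y' _ => ?_
    rw [ex_fun_mul]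
    split_ifs
    · rw [one_mul]; exact marg_right ν hr y'
    · simp
  have h3 : (ex ν fun y => ex ν fun y' => pkap ν r y y' *
      (((if y' = z then (1 : ℝ) else 0) + if y = z then (1 : ℝ) else 0) / 2)) =
      (1 / 2) * (ex ν fun y => ex ν fun y' => (if y = z then (1 : ℝ) else 0) * pkap ν r y y') +
      (1 / 2) * (ex ν fun y => ex ν fun y' => (if y' = z then (1 : ℝ) else 0) * pkap ν r y y') := by
    rw [← ex_fun_mul, ← ex_fun_mul, ← ex_fun_add]
    refine ex_congr fun y _ => ?_
    rw [← ex_fun_mul, ← ex_fun_mul, ← ex_fun_add]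
    refine ex_congr fun y' _ => ?_
    ring
  rw [h3]
  linarith

theorem move_WW_aux (ν : FM) {r : ℝ} (hr : 0 < r) : Move (r / 2) (2 * r) ν (WW ν r) := by
  refine ⟨AddMonoidAlgebra.ofCoeff (ν.coeff - (pM ν r).coeff), pM ν r, pM_mem_cone ν hr, ?_,
    tot_pM ν hr⟩
  refine AddMonoidAlgebra.coeff_injective ?_
  rw [AddMonoidAlgebra.coeff_add]
  ext z
  simp only [Finsupp.coe_add, Pi.add_apply, Finsupp.tsub_apply]
  rw [tsub_add_cancel_of_le (coeff_pM_le ν hr z)]

theorem measurable_Wu_aux (ν : FM) : Measurable (Wu ν) := by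
  have he : Measurable fun v : ℝ => exp (-v) := measurable_exp.comp measurable_neg
  have h : Measurable fun p : ℝ × ℝ =>
      prs ν (exp (-p.1)) p.2 / mass ν (2 * exp (-p.1)) (p.2 + exp (-p.1)) :=
    ((measurable_prs_aux ν).comp ((he.comp measurable_fst).prodMk measurable_snd)).div
      ((measurable_mass ν).comp (((he.comp measurable_fst).const_mul 2).prodMk
        (measurable_snd.add (he.comp measurable_fst))))
  exact (h.stronglyMeasurable.integral_prod_right' (ν := volume)).measurable.div he

end Crest.Agent.R98.SplitAux
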