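import Crest.Agent.R98.Cone
import Crest.Agent.R98.SplitAux

/-!
# R98: splitting off two-point moves
-/

set_option autoImplicit false

open scoped NNReal
open Real MeasureTheory

namespace Crest.Agent.R98

theorem prs_nonneg (ν : FM) (r x : ℝ) : 0 ≤ prs ν r x :=
  ex_nonneg fun _ _ => ex_nonneg fun _ _ => by split_ifs <;> simp

/-- As `measurable_mass`. -/
theorem measurable_prs (ν : FM) : Measurable fun p : ℝ × ℝ => prs ν p.1 p.2 :=
  SplitAux.measurable_prs_aux ν

/-- `prs ν r x ≤ a * b ≤ mass ν (2 r) (x + r) * tot ν` for `r ≥ 0` (`a = mass ν r x`,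
`b = mass ν r (x + r)`, `a + b = mass ν (2 r) (x + r)`), so the quotient is measurable, bounded by
`tot ν` and vanishes off a compact interval. -/
theorem integrable_prs_div (ν : FM) {r : ℝ} (hr : 0 < r) :
    Integrable fun x => prs ν r x / mass ν (2 * r) (x + r) :=
  SplitAux.integrable_prs_div_aux ν hr

theorem WW_nonneg (ν : FM) {r : ℝ} (hr : 0 ≤ r) : 0 ≤ WW ν r :=
  div_nonneg (integral_nonneg fun _ => div_nonneg (prs_nonneg _ _ _) (mass_nonneg _ _ _)) hr

/-- For atoms `y, y'` put `m x = mass ν (2 r) (x + r)`,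
`κ y y' = (∫ x, (if x < y ∧ y ≤ x + r ∧ x - r < y' ∧ y' ≤ x ∧ r / 2 < y - y' then 1 else 0) / m x) / r`
(on the condition `m x ≥ ν y > 0`, so the integrand is bounded) and
`M = ∑ y, ∑ y', (ν y * ν y' * κ y y') • (dir y' * two (y - y'))`; note
`dir y' * two (y - y') = (1 / 2) • (dir y' + dir y)`. If `κ y y' ≠ 0` then
`r / 2 < y - y' < 2 r`, so `M ∈ cone`. `tot M = WW ν r` by exchanging sums and integral. The
coefficient of `M` at `z` is `ν z / 2 * (∑ y', ν y' κ z y' + ∑ y, ν y κ y z)`, and each of the two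
sums is at most `1`: `∑ y', ν y' κ z y' ≤ (∫ x in Ico (z - r) z, mass ν r x / m x) / r ≤ 1`, and
symmetrically with `x ∈ Ico z (z + r)` and `mass ν r (x + r) ≤ m x`. So `M ≤ ν` coefficientwise;
let `ν₀` have coefficients `ν z - M z` (truncated subtraction of `Finsupp`s). -/
theorem move_WW (ν : FM) {r : ℝ} (hr : 0 < r) : Move (r / 2) (2 * r) ν (WW ν r) :=
  SplitAux.move_WW_aux ν hr

theorem WW_le (ν : FM) {r : ℝ} (hr : 0 < r) : WW ν r ≤ tot ν := by
  obtain ⟨ν₀, M, -, h, hM⟩ := move_WW ν hr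
  rw [← hM]
  conv_rhs => rw [h, tot_add]
  linarith [tot_nonneg ν₀]

theorem Wu_nonneg (ν : FM) (v : ℝ) : 0 ≤ Wu ν v := WW_nonneg ν (exp_pos _).le

theorem Wu_le (ν : FM) (v : ℝ) : Wu ν v ≤ tot ν := WW_le ν (exp_pos _)

/-- `measurable_prs`, `measurable_mass`, `StronglyMeasurable.integral_prod_right'`. -/
theorem measurable_Wu (ν : FM) : Measurable (Wu ν) :=
  SplitAux.measurable_Wu_aux ν

theorem intervalIntegrable_Wu (ν : FM) (a b : ℝ) : IntervalIntegrable (Wu ν) volume a b :=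
  intervalIntegrable_of_bdd (measurable_Wu ν)
    (fun v => (abs_of_nonneg (Wu_nonneg ν v)).trans_le (Wu_le ν v)) a b

end Crest.Agent.R98
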